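import Mathlib

/-!
# P192: finitely presented periodic groups: definitions

`FPB G`: every homomorphic image in `G` of a finitely presented periodic group is finite.
-/

namespace Vale.Agent.P192

/-- Every homomorphism from a finitely presented periodic group to `G` has finite image. -/
def FPB (G : Type*) [Group G] : Prop :=
  ∀ (Γ : Type) [Group Γ], Group.IsFinitelyPresented Γ → (∀ x : Γ, IsOfFinOrder x) →
    ∀ f : Γ →* G, Finite f.range

/-- The amalgamated product of `H` and `V` over the common subgroup `D`. -/
def Amalg {D H V : Type*} [Group D] [Group H] [Group V] (i : D →* H) (j : D →* V) : Type _ :=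
  (Monoid.Coprod H V) ⧸ Subgroup.normalClosure
    {x | ∃ d : D, x = Monoid.Coprod.inl (i d) * (Monoid.Coprod.inr (j d))⁻¹}

instance {D H V : Type*} [Group D] [Group H] [Group V] (i : D →* H) (j : D →* V) :
    Group (Amalg i j) := by
  delta Amalg; infer_instance

/-- Automorphisms of the rooted tree of words over `X`. -/
def TreeAut (X : Type*) : Subgroup (Equiv.Perm (List X)) where
  carrier := {g | (∀ w, (g w).length = w.length) ∧ ∀ v w, g v <+: g w ↔ v <+: w}
  one_mem' := ⟨fun _ => rfl, fun _ _ => Iff.rfl⟩
  mul_mem' := by
    intro a b ha hb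
    refine ⟨fun w => ?_, fun v w => ?_⟩
    · rw [Equiv.Perm.mul_apply, ha.1, hb.1]
    · rw [Equiv.Perm.mul_apply, Equiv.Perm.mul_apply, ha.2, hb.2]
  inv_mem' := by
    intro a ha
    refine ⟨fun w => ?_, fun v w => ?_⟩
    · have := ha.1 (a⁻¹ w)
      simp only [Equiv.Perm.coe_inv, Equiv.apply_symm_apply] at this ⊢
      exact this.symm
    · have := ha.2 (a⁻¹ v) (a⁻¹ w)
      simp only [Equiv.Perm.coe_inv, Equiv.apply_symm_apply] at this ⊢
      exact this.symm

/-- A group `T` acting on the words over `Y`: permutation of the letters and sections. -/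
structure SS (T Y : Type*) [Group T] where
  /-- action on the letters -/
  σ : T →* Equiv.Perm Y
  /-- section at a letter -/
  sec : T → Y → T
  sec_mul : ∀ g h y, sec (g * h) y = sec g (σ h y) * sec h y

namespace SS

variable {T Y : Type*} [Group T] (S : SS T Y)

/-- section at a word -/
def secL : T → List Y → T
  | g, [] => g
  | g, y :: v => secL (S.sec g y) v

/-- only the identity acts trivially on all words -/
def Faithful : Prop := ∀ g : T, (∀ v : List Y, S.σ (S.secL g v) = 1) → g = 1

/-- a list of states `[s_n, ..., s_1]` such that every `s_i` is either nonrecurrent (all sections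
in the group generated by the earlier states) or recurrent at exactly one letter. -/
def Tri : List T → Prop
  | [] => True
  | s :: l => Tri l ∧
      ((∀ y, S.sec s y ∈ Subgroup.closure {x | x ∈ l}) ∨
        ∃ y, S.sec s y = s ∧ ∀ y', y' ≠ y → S.sec s y' ∈ Subgroup.closure {x | x ∈ l})

end SS

end Vale.Agent.P192
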