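import Vale.Agent.P192.H663.Defs

/-!
# P192: calculus of the class `FPB`
-/

namespace Vale.Agent.P192

open Group Subgroup

/-! ### finite index subgroups of finitely presented groups -/

/-- A finitely generated free group is finitely presented. -/
theorem fp_of_free_fg (F : Type) [Group F] [IsFreeGroup F] [Group.FG F] :
    IsFinitelyPresented F := by
  obtain ⟨α, hα, p, hp⟩ := (Group.fg_iff_exists_freeGroup_hom_surjective_finite (G := F)).1
    inferInstance
  have hr : ∃ r : F →* FreeGroup α, ∀ x, p (r x) = x := by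
    choose q hq using hp
    refine ⟨IsFreeGroup.lift (fun a => q (IsFreeGroup.of a)), fun x => ?_⟩
    have : p.comp (IsFreeGroup.lift (fun a => q (IsFreeGroup.of a))) = MonoidHom.id F := by
      apply IsFreeGroup.ext_hom
      intro a
      rw [MonoidHom.comp_apply, IsFreeGroup.lift_of, hq]
      rfl
    exact DFunLike.congr_fun this x
  obtain ⟨r, hr⟩ := hr
  refine Group.IsFinitelyPresented.of_surjective p hp
    ⟨Set.range (fun a : α => FreeGroup.of a * (r (p (FreeGroup.of a)))⁻¹), Set.finite_range _, ?_⟩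
  apply le_antisymm
  · apply Subgroup.normalClosure_le_normal
    rintro _ ⟨a, rfl⟩
    rw [SetLike.mem_coe, MonoidHom.mem_ker, map_mul, map_inv, hr, mul_inv_cancel]
  · intro x hx
    set N := Subgroup.normalClosure
      (Set.range (fun a : α => FreeGroup.of a * (r (p (FreeGroup.of a)))⁻¹)) with hN
    have key : (QuotientGroup.mk' N).comp (r.comp p) = QuotientGroup.mk' N := by
      apply FreeGroup.ext_hom
      intro a
      rw [MonoidHom.comp_apply, MonoidHom.comp_apply, eq_comm]
      rw [QuotientGroup.mk'_apply, QuotientGroup.mk'_apply, QuotientGroup.eq]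
      have h1 : FreeGroup.of a * (r (p (FreeGroup.of a)))⁻¹ ∈ N :=
        Subgroup.subset_normalClosure ⟨a, rfl⟩
      have h2 := (Subgroup.normalClosure_normal (s := Set.range
        (fun a : α => FreeGroup.of a * (r (p (FreeGroup.of a)))⁻¹))).conj_mem _ (N.inv_mem h1)
        ((FreeGroup.of a)⁻¹)
      simpa [mul_assoc] using h2
    have h3 := DFunLike.congr_fun key x
    rw [MonoidHom.comp_apply, MonoidHom.comp_apply, hx, map_one, map_one] at h3
    exact (QuotientGroup.eq_one_iff x).1 h3.symm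

/-- A finite index subgroup of a finitely presented group is finitely presented. -/
theorem fp_of_finiteIndex (Γ : Type) [Group Γ] [hΓ : IsFinitelyPresented Γ] (K : Subgroup Γ)
    [K.FiniteIndex] : IsFinitelyPresented K := by
  obtain ⟨n, φ, hφ, S, hS, hSk⟩ := hΓ
  set K' : Subgroup (FreeGroup (Fin n)) := K.comap φ with hK'
  have hfi : K'.FiniteIndex := by
    refine ⟨?_⟩
    rw [hK', Subgroup.index_comap_of_surjective K hφ]
    exact Subgroup.FiniteIndex.index_ne_zero
  have hfg : Group.FG K' := Subgroup.fg_of_index_ne_zero K'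
  have hfp : IsFinitelyPresented K' := fp_of_free_fg K'
  let φ' : K' →* K := (φ.comp K'.subtype).codRestrict K (fun x => x.2)
  have hφ' : Function.Surjective φ' := by
    rintro ⟨k, hk⟩
    obtain ⟨x, rfl⟩ := hφ k
    exact ⟨⟨x, hk⟩, rfl⟩
  refine Group.IsFinitelyPresented.of_surjective φ' hφ' ?_
  -- representatives
  have hker : φ.ker ≤ K' := by
    intro x hx
    rw [hK', Subgroup.mem_comap, hx]
    exact K.one_mem
  let c : FreeGroup (Fin n) ⧸ K' → FreeGroup (Fin n) := Quotient.out
  have hSmem : ∀ s ∈ S, ∀ g, g * s * g⁻¹ ∈ φ.ker := by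
    intro s hs g
    rw [← hSk]
    exact (Subgroup.normalClosure_normal).conj_mem _ (Subgroup.subset_normalClosure hs) g
  let R : Set K' := {x | ∃ q : FreeGroup (Fin n) ⧸ K', ∃ s ∈ S,
    (x : FreeGroup (Fin n)) = (c q)⁻¹ * s * (c q)}
  have hR : R.Finite := by
    have : (Subtype.val '' R) ⊆ (fun p : (FreeGroup (Fin n) ⧸ K') × FreeGroup (Fin n) =>
        (c p.1)⁻¹ * p.2 * (c p.1)) '' (Set.univ ×ˢ S) := by
      rintro _ ⟨x, ⟨q, s, hs, hx⟩, rfl⟩
      exact ⟨(q, s), ⟨Set.mem_univ _, hs⟩, hx.symm⟩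
    exact ((((Set.finite_univ).prod hS).image _).subset this).of_finite_image
      (Subtype.val_injective.injOn)
  refine ⟨R, hR, ?_⟩
  apply le_antisymm
  · apply Subgroup.normalClosure_le_normal
    rintro x ⟨q, s, hs, hx⟩
    rw [SetLike.mem_coe, MonoidHom.mem_ker]
    apply Subtype.ext
    change φ (x : FreeGroup (Fin n)) = 1
    have := hSmem s hs (c q)⁻¹
    rw [inv_inv, ← hx] at this
    exact this
  · intro x hx
    have hx1 : (x : FreeGroup (Fin n)) ∈ φ.ker := by
      have := congrArg Subtype.val hx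
      exact this
    rw [← hSk] at hx1
    -- every conjugate lies in the image of the normal closure of `R`
    have h1 : Subgroup.normalClosure S ≤ (Subgroup.normalClosure R).map K'.subtype := by
      rw [Subgroup.normalClosure, Subgroup.closure_le]
      intro y hy
      rw [Group.mem_conjugatesOfSet_iff] at hy
      obtain ⟨s, hs, hy⟩ := hy
      obtain ⟨g, rfl⟩ := isConj_iff.1 hy
      -- write g = k⁻¹ ... with the left coset of g⁻¹
      have hq : (c (QuotientGroup.mk g⁻¹))⁻¹ * g⁻¹ ∈ K' := by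
        rw [← QuotientGroup.eq]
        exact Quotient.out_eq _
      set q : FreeGroup (Fin n) ⧸ K' := QuotientGroup.mk g⁻¹ with hqdef
      set k : K' := ⟨(c q)⁻¹ * g⁻¹, hq⟩ with hk
      have hsk : (c q)⁻¹ * s * (c q) ∈ K' := by
        apply hker
        have := hSmem s hs (c q)⁻¹
        rwa [inv_inv] at this
      have hmem : (⟨(c q)⁻¹ * s * (c q), hsk⟩ : K') ∈ R := ⟨q, s, hs, rfl⟩
      refine ⟨k⁻¹ * ⟨(c q)⁻¹ * s * (c q), hsk⟩ * k, ?_, ?_⟩
      · have := (Subgroup.normalClosure_normal (s := R)).conj_mem _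
          (Subgroup.subset_normalClosure hmem) k⁻¹
        rwa [inv_inv] at this
      · simp only [hk, Subgroup.coe_subtype, Subgroup.coe_mul, Subgroup.coe_inv]
        group
    obtain ⟨z, hz, hzx⟩ := h1 hx1
    have : z = x := Subtype.ext hzx
    rwa [← this]

/-! ### closure properties -/

universe u v w

/-- subgroups, or more generally injective homomorphisms -/
theorem fpb_of_injective {G : Type u} {H : Type v} [Group G] [Group H] (f : G →* H)
    (hf : Function.Injective f) (hH : FPB H) : FPB G := by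
  intro Γ _ hΓ ht g
  have h := hH Γ hΓ ht (f.comp g)
  have hinj : Function.Injective (fun x : g.range => (⟨f x.1, by
      obtain ⟨y, hy⟩ := x.2
      exact ⟨y, by rw [MonoidHom.comp_apply, hy]⟩⟩ : (f.comp g).range)) := by
    intro x y hxy
    exact Subtype.ext (hf (congrArg Subtype.val hxy))
  exact Finite.of_injective _ hinj

theorem fpb_subgroup {G : Type u} [Group G] (h : FPB G) (K : Subgroup G) : FPB K :=
  fpb_of_injective K.subtype K.subtype_injective h

theorem fpb_of_equiv {G : Type u} {H : Type v} [Group G] [Group H] (e : G ≃* H) (hH : FPB H) :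
    FPB G :=
  fpb_of_injective e.toMonoidHom e.injective hH

theorem fpb_mono {G : Type u} [Group G] {K L : Subgroup G} (h : K ≤ L) (hL : FPB L) : FPB K :=
  fpb_of_injective (Subgroup.inclusion h) (Subgroup.inclusion_injective h) hL

theorem fpb_of_finite (G : Type u) [Group G] [Finite G] : FPB G :=
  fun _ _ _ _ _ => inferInstance

/-- base case: all finitely generated periodic subgroups are finite -/
theorem fpb_of_fg {G : Type u} [Group G]
    (h : ∀ K : Subgroup G, K.FG → (∀ x ∈ K, IsOfFinOrder x) → Finite K) : FPB G := by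
  intro Γ _ hΓ ht f
  obtain ⟨n, φ, hφ, -⟩ := hΓ
  have hfg : Group.FG Γ := Group.fg_of_surjective hφ
  have hr : Group.FG f.range := Group.fg_range f
  refine h f.range ((Group.fg_iff_subgroup_fg _).1 hr) ?_
  rintro _ ⟨x, rfl⟩
  exact MonoidHom.isOfFinOrder f (ht x)

/-- extensions -/
theorem fpb_ext {G : Type u} {Q : Type v} [Group G] [Group Q] (q : G →* Q) (hQ : FPB Q)
    (hk : FPB q.ker) : FPB G := by
  intro Γ _ hΓ ht f
  have h1 : Finite (q.comp f).range := hQ Γ hΓ ht (q.comp f)
  set K : Subgroup Γ := (q.comp f).ker with hK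
  have hfi : K.FiniteIndex := by
    have : Finite (Γ ⧸ K) := Finite.of_equiv _
      (QuotientGroup.quotientKerEquivRange (q.comp f)).toEquiv.symm
    exact Subgroup.finiteIndex_of_finite_quotient
  have hKfp : IsFinitelyPresented K := fp_of_finiteIndex Γ K
  have hKt : ∀ x : K, IsOfFinOrder x := by
    intro x
    exact (Submonoid.isOfFinOrder_coe (H := K.toSubmonoid) (x := x)).1 (ht x.1)
  let f' : K →* q.ker := (f.comp K.subtype).codRestrict q.ker (fun x => x.2)
  have h2 : Finite f'.range := hk K hKfp hKt f'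
  -- the image of `K` under `f` is finite
  have h3 : (f '' (K : Set Γ)).Finite := by
    have : f '' (K : Set Γ) ⊆ Subtype.val '' (f'.range : Set q.ker) := by
      rintro _ ⟨x, hx, rfl⟩
      exact ⟨f' ⟨x, hx⟩, ⟨⟨x, hx⟩, rfl⟩, rfl⟩
    exact ((Set.toFinite (f'.range : Set q.ker)).image _).subset this
  have hfq : Finite (Γ ⧸ K) := inferInstance
  have h4 : (f.range : Set G) ⊆ ⋃ c : Γ ⧸ K, (fun y => f (Quotient.out c) * y) '' (f '' (K : Set Γ)) := by
    rintro _ ⟨x, rfl⟩
    rw [Set.mem_iUnion]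
    refine ⟨QuotientGroup.mk x, f ((Quotient.out (QuotientGroup.mk x : Γ ⧸ K))⁻¹ * x),
      ⟨_, ?_, rfl⟩, ?_⟩
    · have : (QuotientGroup.mk (Quotient.out (QuotientGroup.mk x : Γ ⧸ K)) : Γ ⧸ K)
        = QuotientGroup.mk x := Quotient.out_eq _
      exact QuotientGroup.eq.1 this
    · simp
  exact (Set.finite_iUnion (fun c => h3.image _)).subset h4

/-- finite direct products -/
theorem fpb_pi {ι : Type w} [Finite ι] {G : ι → Type u} [∀ i, Group (G i)] (h : ∀ i, FPB (G i)) :
    FPB (∀ i, G i) := by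
  intro Γ _ hΓ ht f
  have h1 : ∀ i, Finite ((Pi.evalMonoidHom G i).comp f).range := fun i => h i Γ hΓ ht _
  have hinj : Function.Injective (fun x : f.range => (fun i => (⟨x.1 i, by
      obtain ⟨y, hy⟩ := x.2
      exact ⟨y, by rw [MonoidHom.comp_apply, hy]; rfl⟩⟩ :
        ((Pi.evalMonoidHom G i).comp f).range))) := by
    intro x y hxy
    apply Subtype.ext
    funext i
    exact congrArg Subtype.val (congrFun hxy i)
  exact Finite.of_injective _ hinj

theorem fpb_prod {G : Type u} {H : Type v} [Group G] [Group H] (hG : FPB G) (hH : FPB H) :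
    FPB (G × H) := by
  refine fpb_ext (MonoidHom.fst G H) hG ?_
  refine fpb_of_injective ((MonoidHom.snd G H).comp (MonoidHom.fst G H).ker.subtype) ?_ hH
  rintro ⟨⟨a, b⟩, ha⟩ ⟨⟨c, d⟩, hc⟩ h
  have ha' : a = 1 := ha
  have hc' : c = 1 := hc
  have hb : b = d := h
  subst ha' hc' hb
  rfl

/-- directed colimits; the transition maps need not be injective -/
theorem fpb_colimit {I : Type w} [Preorder I] [IsDirectedOrder I] [Nonempty I] {Gi : I → Type u}
    [∀ i, Group (Gi i)] {G : Type v} [Group G] (t : ∀ i j, i ≤ j → Gi i →* Gi j)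
    (g : ∀ i, Gi i →* G) (hcomp : ∀ i j k (hij : i ≤ j) (hjk : j ≤ k) x,
      t j k hjk (t i j hij x) = t i k (hij.trans hjk) x)
    (hg : ∀ i j (hij : i ≤ j) x, g j (t i j hij x) = g i x)
    (hsurj : ∀ y, ∃ i x, g i x = y) (hker : ∀ i x, g i x = 1 → ∃ j, ∃ hij : i ≤ j, t i j hij x = 1)
    (hF : ∀ i, FPB (Gi i)) : FPB G := by
  intro Γ _ hΓ ht f
  obtain ⟨n, φ, hφ, S, hS, hSk⟩ := id hΓ
  -- lift the generators
  choose i₁ x₁ hx₁ using fun k : Fin n => hsurj (f (φ (FreeGroup.of k)))
  obtain ⟨i, hi⟩ := Finite.exists_le i₁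
  let q : FreeGroup (Fin n) →* Gi i := FreeGroup.lift (fun k => t (i₁ k) i (hi k) (x₁ k))
  have hq : ∀ x, g i (q x) = f (φ x) := by
    intro x
    have : (g i).comp q = f.comp φ := by
      apply FreeGroup.ext_hom
      intro k
      rw [MonoidHom.comp_apply, MonoidHom.comp_apply, FreeGroup.lift_apply_of, hg, hx₁]
    exact DFunLike.congr_fun this x
  -- kill the relators
  have hSfin : Finite S := hS
  have hrel : ∀ s : S, ∃ j, ∃ hij : i ≤ j, t i j hij (q s) = 1 := by
    intro s
    apply hker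
    rw [hq]
    have : (s : FreeGroup (Fin n)) ∈ φ.ker := by
      rw [← hSk]; exact Subgroup.subset_normalClosure s.2
    rw [MonoidHom.mem_ker.1 this, map_one]
  choose j₁ hj₁ hj₁' using hrel
  obtain ⟨j₀, hj₀⟩ := Finite.exists_le j₁
  obtain ⟨j, hij, hj₀j⟩ := exists_ge_ge i j₀
  let q' : FreeGroup (Fin n) →* Gi j := (t i j hij).comp q
  have hq' : φ.ker ≤ q'.ker := by
    rw [← hSk]
    apply Subgroup.normalClosure_le_normal
    intro s hs
    rw [SetLike.mem_coe, MonoidHom.mem_ker]
    change t i j hij (q s) = 1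
    rw [← hcomp i (j₁ ⟨s, hs⟩) j (hj₁ _) ((hj₀ _).trans hj₀j), hj₁' ⟨s, hs⟩, map_one]
  let ψ : Γ →* Gi j := (φ.liftOfRightInverse (Function.surjInv hφ)
    (Function.rightInverse_surjInv hφ)) ⟨q', hq'⟩
  have hψ : ∀ x, ψ (φ x) = q' x := fun x =>
    MonoidHom.liftOfRightInverse_comp_apply φ _ (Function.rightInverse_surjInv hφ) ⟨q', hq'⟩ x
  have hfin : Finite ψ.range := hF j Γ hΓ ht ψ
  have hsub : (f.range : Set G) ⊆ (g j) '' (ψ.range : Set (Gi j)) := by
    rintro _ ⟨x, rfl⟩
    obtain ⟨y, rfl⟩ := hφ x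
    refine ⟨ψ (φ y), ⟨φ y, rfl⟩, ?_⟩
    rw [hψ]
    change g j (t i j hij (q y)) = _
    rw [hg, hq]
  exact ((Set.toFinite (ψ.range : Set (Gi j))).image _).subset hsub

/-- increasing unions of kernels -/
theorem fpb_iUnion_ker {L : Type u} {G : Type v} [Group L] [Group G] (π : L →* G)
    (hπ : Function.Surjective π) (K : ℕ → Subgroup L) [hn : ∀ n, (K n).Normal]
    (hmono : ∀ n, K n ≤ K (n + 1)) (hker : ∀ x, π x = 1 ↔ ∃ n, x ∈ K n)
    (hF : ∀ n, FPB (L ⧸ K n)) : FPB G := by
  have hm : Monotone K := monotone_nat_of_le_succ hmono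
  have hKπ : ∀ n, K n ≤ π.ker := fun n x hx => (hker x).2 ⟨n, hx⟩
  refine fpb_colimit (I := ℕ) (Gi := fun n => L ⧸ K n)
    (fun i j hij => QuotientGroup.map (K i) (K j) (MonoidHom.id L) (hm hij))
    (fun i => QuotientGroup.lift (K i) π (fun x hx => hKπ i hx)) ?_ ?_ ?_ ?_ hF
  · intro i j k hij hjk x
    induction x using QuotientGroup.induction_on with
    | H z => rfl
  · intro i j hij x
    induction x using QuotientGroup.induction_on with
    | H z => rfl
  · intro y
    obtain ⟨x, rfl⟩ := hπ y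
    exact ⟨0, QuotientGroup.mk x, rfl⟩
  · intro i x hx
    induction x using QuotientGroup.induction_on with
    | H z =>
      have hz : π z = 1 := hx
      obtain ⟨n, hn'⟩ := (hker z).1 hz
      refine ⟨max i n, le_max_left _ _, ?_⟩
      exact (QuotientGroup.eq_one_iff z).2 (hm (le_max_right i n) hn')

/-- if all finitely generated subgroups are in the class, then so is the group -/
theorem fpb_of_local {G : Type u} [Group G] (h : ∀ A : Set G, A.Finite → FPB (Subgroup.closure A)) :
    FPB G := by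
  intro Γ _ hΓ ht f
  obtain ⟨n, φ, hφ, -⟩ := id hΓ
  set A : Set G := Set.range (fun k : Fin n => f (φ (FreeGroup.of k))) with hA
  have hA' : A.Finite := Set.finite_range _
  have hle : ∀ x, f x ∈ Subgroup.closure A := by
    intro x
    obtain ⟨y, rfl⟩ := hφ x
    have : (f.comp φ).range ≤ Subgroup.closure A := by
      rw [MonoidHom.range_eq_map, ← FreeGroup.closure_range_of, MonoidHom.map_closure,
        Subgroup.closure_le]
      rintro _ ⟨_, ⟨k, rfl⟩, rfl⟩
      exact Subgroup.subset_closure ⟨k, rfl⟩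
    exact this ⟨y, rfl⟩
  have h1 := h A hA' Γ hΓ ht (f.codRestrict _ hle)
  have hsub : (f.range : Set G) ⊆ Subtype.val '' ((f.codRestrict _ hle).range : Set (Subgroup.closure A)) := by
    rintro _ ⟨x, rfl⟩
    exact ⟨f.codRestrict _ hle x, ⟨x, rfl⟩, rfl⟩
  exact ((Set.toFinite _).image _).subset hsub

end Vale.Agent.P192
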