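import Vale.Agent.P192.H663.Relative

/-!
# P192: contracting groups
-/

namespace Vale.Agent.P192

universe u v w

namespace SS

variable {T : Type u} {Y : Type v} [Group T] (S : SS T Y)

/-- all sections of `g` at words of length `n` lie in `N` -/
def deep (N : Set T) : ℕ → T → Prop
  | 0, g => g ∈ N
  | n + 1, g => ∀ y, deep N n (S.sec g y)

theorem deep_succ {N : Set T} (hN : ∀ a ∈ N, ∀ y, S.sec a y ∈ N) (n : ℕ) (g : T)
    (h : S.deep N n g) : S.deep N (n + 1) g := by
  induction n generalizing g with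
  | zero => exact fun y => hN g h y
  | succ n ih => exact fun y => ih _ (h y)

theorem deep_mono {N : Set T} (hN : ∀ a ∈ N, ∀ y, S.sec a y ∈ N) {n m : ℕ} (hnm : n ≤ m) (g : T)
    (h : S.deep N n g) : S.deep N m g := by
  induction hnm with
  | refl => exact h
  | step _ ih => exact S.deep_succ hN _ _ ih

/-- the relations of length three of the elements of `N` -/
def triRel {T : Type u} [Group T] (N : Set T) : Set (FreeGroup N) :=
  {r | ∃ a b c : N, (a : T) * b = c ∧
    r = FreeGroup.of a * FreeGroup.of b * (FreeGroup.of c)⁻¹}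

/-- the group generated by `N` with the relations of length three -/
abbrev LC {T : Type u} [Group T] (N : Set T) : Type u := PresentedGroup (triRel N)

/-- generators -/
abbrev gen {T : Type u} [Group T] {N : Set T} (a : N) : LC N := PresentedGroup.of a

theorem gen_mul {T : Type u} [Group T] {N : Set T} (a b c : N) (h : (a : T) * b = c) :
    gen a * gen b = gen c := by
  have h1 : (PresentedGroup.mk (triRel N)) (FreeGroup.of a * FreeGroup.of b *
      (FreeGroup.of c)⁻¹) = 1 :=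
    (QuotientGroup.eq_one_iff _).2 (Subgroup.subset_normalClosure ⟨a, b, c, h, rfl⟩)
  rw [map_mul, map_mul, map_inv, mul_inv_eq_one] at h1
  exact h1

variable (N : Set T) (h1 : (1 : T) ∈ N) (hN : ∀ a ∈ N, ∀ y, S.sec a y ∈ N)

theorem gen_one : gen (⟨1, h1⟩ : N) = 1 := by
  have := gen_mul (⟨1, h1⟩ : N) ⟨1, h1⟩ ⟨1, h1⟩ (one_mul _)
  exact mul_eq_left.1 this

/-- the recursion -/
def ΦC : LC N →* Wr (LC N) Y :=
  PresentedGroup.toGroup (f := fun a : N => ⟨S.σ a, fun y => gen ⟨S.sec a y, hN a a.2 y⟩⟩) (by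
    rintro _ ⟨a, b, c, h, rfl⟩
    rw [map_mul, map_mul, map_inv, FreeGroup.lift_apply_of, FreeGroup.lift_apply_of,
      FreeGroup.lift_apply_of, mul_inv_eq_one]
    ext y
    · simp only [Wr.mul_p]
      rw [← map_mul, h]
    · simp only [Wr.mul_f]
      apply gen_mul
      change S.sec a.1 (S.σ b.1 y) * S.sec b.1 y = S.sec c.1 y
      rw [← S.sec_mul, h])

/-- the structure -/
def SC : SS (LC N) Y := SS.ofHom (S.ΦC N hN)

/-- the projection -/
def πC (N : Set T) : LC N →* T :=
  PresentedGroup.toGroup (f := fun a : N => (a : T)) (by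
    rintro _ ⟨a, b, c, h, rfl⟩
    rw [map_mul, map_mul, map_inv, FreeGroup.lift_apply_of, FreeGroup.lift_apply_of,
      FreeGroup.lift_apply_of, mul_inv_eq_one, h])

theorem πC_gen (a : N) : πC N (gen a) = a := PresentedGroup.toGroup.of _

theorem SC_sec_gen (a : N) (y : Y) :
    (S.SC N hN).sec (gen a) y = gen ⟨S.sec a y, hN a a.2 y⟩ := by
  change ((S.ΦC N hN) (gen a)).f y = _
  rw [ΦC, PresentedGroup.toGroup.of]

theorem LC_induction {P : LC N → Prop} (h0 : P 1) (hg : ∀ a, P (gen a))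
    (hi : ∀ x, P x → P x⁻¹) (hm : ∀ x z, P x → P z → P (x * z)) (x : LC N) : P x := by
  induction x using QuotientGroup.induction_on with
  | H z =>
    induction z using FreeGroup.induction_on with
    | C1 => exact h0
    | of a => exact hg a
    | inv_of a ha => exact hi _ ha
    | mul x y hx hy => exact hm _ _ hx hy

theorem SC_σ (x : LC N) : (S.SC N hN).σ x = S.σ (πC N x) := by
  refine LC_induction N (P := fun x => (S.SC N hN).σ x = S.σ (πC N x)) ?_ ?_ ?_ ?_ x
  · rw [map_one, map_one, map_one]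
  · intro a
    change ((S.ΦC N hN) (gen a)).p = _
    rw [πC_gen, ΦC, PresentedGroup.toGroup.of]
  · intro x hx
    rw [map_inv, hx, map_inv, map_inv]
  · intro x z hx hz
    rw [map_mul, hx, hz, map_mul, map_mul]

theorem SC_sec (x : LC N) (y : Y) : πC N ((S.SC N hN).sec x y) = S.sec (πC N x) y := by
  refine LC_induction N (P := fun x => ∀ y, πC N ((S.SC N hN).sec x y) = S.sec (πC N x) y)
    ?_ ?_ ?_ ?_ x y
  · intro y
    rw [(S.SC N hN).sec_one, map_one, S.sec_one]
  · intro a y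
    rw [S.SC_sec_gen N hN, πC_gen, πC_gen]
  · intro x hx y
    have e : (S.SC N hN).σ x⁻¹ y = S.σ (πC N x)⁻¹ y := by rw [S.SC_σ N hN, map_inv]
    rw [(S.SC N hN).sec_inv, e, map_inv (πC N), hx, map_inv (πC N), S.sec_inv]
  · intro x z hx hz y
    rw [(S.SC N hN).sec_mul, map_mul, hx, hz, map_mul, S.sec_mul, S.SC_σ N hN]

/-- all deep sections of elements of `LC N` are generators -/
def EC (n : ℕ) (x : LC N) : Prop := (S.SC N hN).deep (Set.range (gen (N := N))) n x

theorem gen_sec_mem (x : LC N) (hx : x ∈ Set.range (gen (N := N))) (y : Y) :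
    (S.SC N hN).sec x y ∈ Set.range (gen (N := N)) := by
  obtain ⟨a, rfl⟩ := hx
  rw [S.SC_sec_gen N hN]
  exact ⟨_, rfl⟩

theorem EC_of_sec [Finite Y] (g : LC N) (h : ∀ y, ∃ n, S.EC N hN n ((S.SC N hN).sec g y)) :
    ∃ n, S.EC N hN n g := by
  choose n hn using h
  obtain ⟨m, hm⟩ := Finite.exists_le n
  exact ⟨m + 1, fun y => (S.SC N hN).deep_mono (S.gen_sec_mem N hN) (hm y) _ (hn y)⟩

theorem EC_mul0 (m : ℕ) (a b : N) (h : S.deep N m ((a : T) * b)) : S.EC N hN m (gen a * gen b) := by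
  induction m generalizing a b with
  | zero => exact ⟨⟨_, h⟩, (gen_mul a b ⟨_, h⟩ rfl).symm⟩
  | succ m ih =>
    intro y
    rw [(S.SC N hN).sec_mul, S.SC_σ N hN, πC_gen, S.SC_sec_gen N hN, S.SC_sec_gen N hN]
    refine ih _ _ ?_
    have := h y
    rw [S.sec_mul] at this
    exact this

include h1 in
theorem EC_inv0 (m : ℕ) (a : N) (h : S.deep N m (a : T)⁻¹) : S.EC N hN m (gen a)⁻¹ := by
  induction m generalizing a with
  | zero =>
    refine ⟨⟨_, h⟩, ?_⟩
    have h2 := gen_mul (⟨(a : T)⁻¹, h⟩ : N) a ⟨1, h1⟩ (inv_mul_cancel _)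
    rw [gen_one N h1] at h2
    exact (inv_eq_of_mul_eq_one_left h2).symm
  | succ m ih =>
    intro y
    have e1 : (S.SC N hN).σ (gen a)⁻¹ y = S.σ (a : T)⁻¹ y := by
      rw [S.SC_σ N hN, map_inv, πC_gen]
    rw [(S.SC N hN).sec_inv, e1, S.SC_sec_gen N hN]
    refine ih _ ?_
    have := h y
    rw [S.sec_inv] at this
    exact this

theorem EC_mul [Finite Y] (hc : ∀ g, ∃ n, S.deep N n g) (n : ℕ) {x z : LC N}
    (hx : S.EC N hN n x) (hz : S.EC N hN n z) : ∃ m, S.EC N hN m (x * z) := by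
  induction n generalizing x z with
  | zero =>
    obtain ⟨a, rfl⟩ := hx
    obtain ⟨b, rfl⟩ := hz
    obtain ⟨m, hm⟩ := hc ((a : T) * b)
    exact ⟨m, S.EC_mul0 N hN m a b hm⟩
  | succ n ih =>
    apply S.EC_of_sec N hN
    intro y
    rw [(S.SC N hN).sec_mul]
    exact ih (hx _) (hz _)

include h1 in
theorem EC_inv [Finite Y] (hc : ∀ g, ∃ n, S.deep N n g) (n : ℕ) {x : LC N}
    (hx : S.EC N hN n x) : ∃ m, S.EC N hN m x⁻¹ := by
  induction n generalizing x with
  | zero =>
    obtain ⟨a, rfl⟩ := hx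
    obtain ⟨m, hm⟩ := hc (a : T)⁻¹
    exact ⟨m, S.EC_inv0 N h1 hN m a hm⟩
  | succ n ih =>
    apply S.EC_of_sec N hN
    intro y
    rw [(S.SC N hN).sec_inv]
    exact ih (hx _)

include h1 in
theorem EC_all [Finite Y] (hc : ∀ g, ∃ n, S.deep N n g) (x : LC N) : ∃ n, S.EC N hN n x := by
  refine LC_induction N (P := fun x => ∃ n, S.EC N hN n x) ?_ ?_ ?_ ?_ x
  · exact ⟨0, ⟨⟨1, h1⟩, gen_one N h1⟩⟩
  · exact fun a => ⟨0, ⟨a, rfl⟩⟩
  · rintro x ⟨n, hn⟩
    exact S.EC_inv N h1 hN hc n hn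
  · rintro x z ⟨n, hn⟩ ⟨m, hm⟩
    exact S.EC_mul N hN hc (max n m)
      ((S.SC N hN).deep_mono (S.gen_sec_mem N hN) (le_max_left _ _) _ hn)
      ((S.SC N hN).deep_mono (S.gen_sec_mem N hN) (le_max_right _ _) _ hm)

include h1 in
theorem EC_Kn (n : ℕ) (x : LC N) (hx : S.EC N hN n x) (hπ : πC N x = 1) :
    x ∈ (S.SC N hN).Kn n := by
  induction n generalizing x with
  | zero =>
    obtain ⟨a, rfl⟩ := hx
    rw [πC_gen] at hπ
    have : a = ⟨1, h1⟩ := Subtype.ext hπ
    rw [this, gen_one N h1]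
    exact one_mem _
  | succ n ih =>
    refine ⟨by rw [S.SC_σ N hN, hπ, map_one], fun y => ih _ (hx y) ?_⟩
    rw [S.SC_sec N hN, hπ, S.sec_one]

theorem πC_of_mem_Kn (hf : S.Faithful) (n : ℕ) (g : LC N) (hg : g ∈ (S.SC N hN).Kn n) :
    πC N g = 1 := by
  have key : ∀ (v : List Y) (n : ℕ) (g : LC N), g ∈ (S.SC N hN).Kn n →
      S.σ (S.secL (πC N g) v) = 1 := by
    intro v
    induction v with
    | nil =>
      intro n g hg
      have := (S.SC N hN).Kn_secL hg []
      change S.σ (πC N g) = 1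
      rw [← S.SC_σ N hN]
      exact this
    | cons y v ih =>
      intro n g hg
      change S.σ (S.secL (S.sec (πC N g) y) v) = 1
      rw [← S.SC_sec N hN]
      cases n with
      | zero =>
        rw [((S.SC N hN).mem_Kn_zero).1 hg, (S.SC N hN).sec_one]
        exact ih 0 1 (one_mem _)
      | succ n => exact ih n _ (hg.2 y)
  exact hf _ (fun v => key v n g hg)

include h1 hN in
/-- the group generated by `N` -/
theorem fpb_rangeC [Finite Y] (hf : S.Faithful) (hc : ∀ g, ∃ n, S.deep N n g)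
    (hL : FPB (LC N)) : FPB (πC N).range := by
  refine fpb_iUnion_ker (πC N).rangeRestrict (πC N).rangeRestrict_surjective (S.SC N hN).Kn
    (S.SC N hN).Kn_le_succ ?_ (fun n => (S.SC N hN).fpb_quot_Kn hL n)
  intro x
  have h2 : (πC N).rangeRestrict x = 1 ↔ πC N x = 1 :=
    ⟨fun h => congrArg Subtype.val h, fun h => Subtype.ext h⟩
  rw [h2]
  constructor
  · intro hx
    obtain ⟨n, hn⟩ := S.EC_all N h1 hN hc x
    exact ⟨n, S.EC_Kn N h1 hN n x hn hx⟩
  · rintro ⟨n, hn⟩
    exact S.πC_of_mem_Kn N hN hf n x hn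

/-- iterating `up` -/
def upn (H : Subgroup T) : ℕ → Subgroup T
  | 0 => H
  | n + 1 => S.up (upn H n)

theorem fpb_upn [Finite Y] (hf : S.Faithful) (H : Subgroup T) (hH : FPB H) (n : ℕ) :
    FPB (S.upn H n) := by
  induction n with
  | zero => exact hH
  | succ n ih =>
    refine S.fpb_of_sections (S.upn H n) _ ih Set.univ (fun g hg y _ => hg y) ?_
    intro g _ h0 h
    apply hf
    intro v
    cases v with
    | nil => exact h0
    | cons y v =>
      change S.σ (S.secL (S.sec g y) v) = 1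
      rw [h y trivial]
      exact S.Kn_secL (n := 0) (one_mem _) v

theorem upn_mono {H : Subgroup T} (hc : ∀ h ∈ H, ∀ y, S.sec h y ∈ H) {n m : ℕ} (h : n ≤ m) :
    S.upn H n ≤ S.upn H m := by
  have step : ∀ n, S.upn H n ≤ S.upn H (n + 1) := by
    intro n
    induction n with
    | zero => exact S.le_up hc
    | succ n ih => exact fun g hg y => ih (hg y)
  exact (monotone_nat_of_le_succ step) h

theorem mem_upn (H : Subgroup T) (hNH : N ⊆ H) (n : ℕ) (g : T) (h : S.deep N n g) :
    g ∈ S.upn H n := by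
  induction n generalizing g with
  | zero => exact hNH h
  | succ n ih => exact fun y => ih _ (h y)

include h1 hN in
/-- **Contracting groups**: if the group with generators `N` and the relations of length three
is in the class, so is the contracting group. -/
theorem contracting [Finite Y] (hf : S.Faithful) (hc : ∀ g, ∃ n, S.deep N n g)
    (hL : FPB (LC N)) : FPB T := by
  have hcl : ∀ h ∈ (πC N).range, ∀ y, S.sec h y ∈ (πC N).range := by
    rintro _ ⟨g, rfl⟩ y
    rw [← S.SC_sec N hN]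
    exact ⟨_, rfl⟩
  have hNr : N ⊆ (πC N).range := fun a ha => ⟨gen ⟨a, ha⟩, πC_gen N _⟩
  apply fpb_of_local
  intro A hA
  have hAf : Finite A := hA
  choose n hn using hc
  obtain ⟨m, hm⟩ := Finite.exists_le (fun a : A => n a)
  refine fpb_mono ?_ (S.fpb_upn hf (πC N).range (S.fpb_rangeC N h1 hN hf
    (fun g => ⟨n g, hn g⟩) hL) m)
  rw [Subgroup.closure_le]
  intro a ha
  exact S.upn_mono hcl (hm ⟨a, ha⟩) (S.mem_upn N _ hNr _ _ (hn a))

end SS

end Vale.Agent.P192
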