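import Vale.Agent.P192.H663.Defs

/-!
# P192: coarsely piecewise monotone bijections of linear orders: definitions
-/

namespace Vale.Agent.P192.CM

/-- `g` preserves the order of the pairs of `C` with more than `N` elements in `[x, y]` -/
def CMono {K : Type} [LinearOrder K] (N : ℕ) (g : K → K) (C : Set K) : Prop :=
  ∀ x ∈ C, ∀ y ∈ C, x < y → (Set.Icc x y).encard ≤ N ∨ g x < g y

/-- `g` reverses the order of the pairs of `C` with more than `N` elements in `[x, y]` -/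
def CAnti {K : Type} [LinearOrder K] (N : ℕ) (g : K → K) (C : Set K) : Prop :=
  ∀ x ∈ C, ∀ y ∈ C, x < y → (Set.Icc x y).encard ≤ N ∨ g y < g x

/-- coarsely piecewise monotone -/
def CP {K : Type} [LinearOrder K] (g : K → K) : Prop :=
  ∃ (N : ℕ) (P : Set (Set K)), P.Finite ∧ ⋃₀ P = Set.univ ∧
    ∀ C ∈ P, C.OrdConnected ∧ (CMono N g C ∨ CAnti N g C)

/-- bounded distortion off a finite set -/
def BD {K : Type} [LinearOrder K] (g : K → K) : Prop :=
  ∀ k : ℕ, ∃ m : ℕ, {x | ∃ y, (Set.uIcc x y).encard ≤ k ∧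
    ¬ (Set.uIcc (g x) (g y)).encard ≤ m}.Finite

/-- bounded displacement off a finite set -/
def W {K : Type} [LinearOrder K] (g : K → K) : Prop :=
  ∃ D : ℕ, {x | ¬ (Set.uIcc x (g x)).encard ≤ D}.Finite

/-- row BAD -/
def BAD_statement : Prop := ∀ (K : Type) [LinearOrder K] (g : Equiv.Perm K), CP g →
  CP (g⁻¹ : Equiv.Perm K) → BD g

/-- row WOB -/
def WOB_statement : Prop := ∀ (K : Type) [LinearOrder K] (G : Subgroup (Equiv.Perm K)),
  (∀ g ∈ G, W g) → FPB G

/-- row ULT -/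
def ULT_statement : Prop := ∀ (K : Type) [LinearOrder K] (G : Subgroup (Equiv.Perm K)),
  (∀ g ∈ G, CP g) → (∀ g ∈ G, BD g) →
    ∃ (Q : Type) (_ : LinearOrder Q) (q : G →* Equiv.Perm Q),
      (∀ g, ∃ P : Set (Set Q), P.Finite ∧ ⋃₀ P = Set.univ ∧
        ∀ C ∈ P, C.OrdConnected ∧ (MonotoneOn (q g) C ∨ AntitoneOn (q g) C)) ∧
      ∀ g : G, q g = 1 → W g.1

end Vale.Agent.P192.CM
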