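import Vale.Agent.P192.H663.CMDefs

/-!
# P192: coarsely piecewise monotone bijections: bounded distortion off a finite set
-/

namespace Vale.Agent.P192.CM

open Set

variable {K : Type} [LinearOrder K]

theorem exists_finset {S : Set K} {N : ℕ} (h : ¬ S.encard ≤ N) :
    ∃ F : Finset K, (F : Set K) ⊆ S ∧ F.card = N + 1 := by
  have h1 : ((N + 1 : ℕ) : ℕ∞) ≤ S.encard := by
    push_cast
    exact Order.add_one_le_of_lt (not_le.1 h)
  obtain ⟨t, ht, htc⟩ := Set.exists_subset_encard_eq h1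
  have hfin : t.Finite := finite_of_encard_eq_coe htc
  refine ⟨hfin.toFinset, by simpa using ht, ?_⟩
  have h2 : (hfin.toFinset : Set K).encard = ((N + 1 : ℕ) : ℕ∞) := by simpa using htc
  rw [encard_coe_eq_coe_finsetCard] at h2
  exact_mod_cast h2

theorem top_finite (A : Set K) (m : ℕ) : {x | x ∈ A ∧ (A ∩ Ici x).encard ≤ m}.Finite := by
  by_contra h
  obtain ⟨F, hF, hc⟩ := Set.Infinite.exists_subset_card_eq h (m + 1)
  have hne : F.Nonempty := by
    rw [← Finset.card_pos]; omega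
  have h1 := (hF (F.min'_mem hne)).2
  have h2 : (F : Set K) ⊆ A ∩ Ici (F.min' hne) := fun z hz => ⟨(hF hz).1, F.min'_le z hz⟩
  have h3 := (encard_le_encard h2).trans h1
  rw [encard_coe_eq_coe_finsetCard, hc] at h3
  have h4 : m + 1 ≤ m := by exact_mod_cast h3
  omega

theorem bot_finite (A : Set K) (m : ℕ) : {x | x ∈ A ∧ (A ∩ Iic x).encard ≤ m}.Finite := by
  by_contra h
  obtain ⟨F, hF, hc⟩ := Set.Infinite.exists_subset_card_eq h (m + 1)
  have hne : F.Nonempty := by
    rw [← Finset.card_pos]; omega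
  have h1 := (hF (F.max'_mem hne)).2
  have h2 : (F : Set K) ⊆ A ∩ Iic (F.max' hne) := fun z hz => ⟨(hF hz).1, F.le_max' z hz⟩
  have h3 := (encard_le_encard h2).trans h1
  rw [encard_coe_eq_coe_finsetCard, hc] at h3
  have h4 : m + 1 ≤ m := by exact_mod_cast h3
  omega

theorem up_le (y : K) (N : ℕ) : {e | y ≤ e ∧ (Icc y e).encard ≤ N}.encard ≤ N := by
  by_contra h
  obtain ⟨F, hF, hc⟩ := exists_finset h
  have hne : F.Nonempty := by
    rw [← Finset.card_pos]; omega
  have h1 := (hF (F.max'_mem hne)).2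
  have h2 : (F : Set K) ⊆ Icc y (F.max' hne) := fun z hz => ⟨(hF hz).1, F.le_max' z hz⟩
  have h3 := (encard_le_encard h2).trans h1
  rw [encard_coe_eq_coe_finsetCard, hc] at h3
  have h4 : N + 1 ≤ N := by exact_mod_cast h3
  omega

theorem down_le (y : K) (N : ℕ) : {e | e ≤ y ∧ (Icc e y).encard ≤ N}.encard ≤ N := by
  by_contra h
  obtain ⟨F, hF, hc⟩ := exists_finset h
  have hne : F.Nonempty := by
    rw [← Finset.card_pos]; omega
  have h1 := (hF (F.min'_mem hne)).2
  have h2 : (F : Set K) ⊆ Icc (F.min' hne) y := fun z hz => ⟨F.min'_le z hz, (hF hz).1⟩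
  have h3 := (encard_le_encard h2).trans h1
  rw [encard_coe_eq_coe_finsetCard, hc] at h3
  have h4 : N + 1 ≤ N := by exact_mod_cast h3
  omega

theorem e_top {E : Set K} {x y : K} {k N : ℕ} (h1 : (uIcc x y).encard ≤ k) (hy : y ∉ E)
    (hE : ∀ e ∈ E, y < e → (Icc y e).encard ≤ N) : (E ∩ Ici x).encard ≤ ((k + N : ℕ) : ℕ∞) := by
  have h2 : E ∩ Ici x ⊆ uIcc x y ∪ {e | y ≤ e ∧ (Icc y e).encard ≤ N} := by
    rintro e ⟨he, hxe⟩
    rcases le_total e y with h3 | h3
    · left
      exact Icc_subset_uIcc ⟨hxe, h3⟩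
    · right
      refine ⟨h3, hE e he (lt_of_le_of_ne h3 ?_)⟩
      rintro rfl
      exact hy he
  refine (encard_le_encard h2).trans ((encard_union_le _ _).trans ?_)
  push_cast
  exact add_le_add h1 (up_le y N)

theorem e_bot {E : Set K} {x y : K} {k N : ℕ} (h1 : (uIcc x y).encard ≤ k) (hy : y ∉ E)
    (hE : ∀ e ∈ E, e < y → (Icc e y).encard ≤ N) : (E ∩ Iic x).encard ≤ ((k + N : ℕ) : ℕ∞) := by
  have h2 : E ∩ Iic x ⊆ uIcc x y ∪ {e | e ≤ y ∧ (Icc e y).encard ≤ N} := by
    rintro e ⟨he, hxe⟩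
    rcases le_total y e with h3 | h3
    · left
      exact Icc_subset_uIcc' ⟨h3, hxe⟩
    · right
      refine ⟨h3, hE e he (lt_of_le_of_ne h3 ?_)⟩
      rintro rfl
      exact hy he
  refine (encard_le_encard h2).trans ((encard_union_le _ _).trans ?_)
  push_cast
  exact add_le_add h1 (down_le y N)

theorem count {f : K → K} (hf : Function.Injective f) {D : Set K} (hD : D.OrdConnected) {N k : ℕ}
    (h : CMono N f D ∨ CAnti N f D) {a b : K} (ha : a ∈ D) (hb : b ∈ D) (hab : a ≤ b)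
    (hk : (uIcc (f a) (f b)).encard ≤ k) : (Icc a b).encard ≤ ((k + 2 * N : ℕ) : ℕ∞) := by
  have h2 : Icc a b ⊆ f ⁻¹' (uIcc (f a) (f b)) ∪ ({e | a ≤ e ∧ (Icc a e).encard ≤ N} ∪
      {e | e ≤ b ∧ (Icc e b).encard ≤ N}) := by
    rintro z ⟨h3, h4⟩
    rcases h3.lt_or_eq with h3' | rfl
    swap
    · left; exact left_mem_uIcc
    rcases h4.lt_or_eq with h4' | rfl
    swap
    · left; exact right_mem_uIcc
    have hz : z ∈ D := hD.out ha hb ⟨h3, h4⟩
    rcases h with h | h
    · rcases h a ha z hz h3' with h5 | h5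
      · right; left; exact ⟨h3, h5⟩
      rcases h z hz b hb h4' with h6 | h6
      · right; right; exact ⟨h4, h6⟩
      left
      exact Icc_subset_uIcc ⟨h5.le, h6.le⟩
    · rcases h a ha z hz h3' with h5 | h5
      · right; left; exact ⟨h3, h5⟩
      rcases h z hz b hb h4' with h6 | h6
      · right; right; exact ⟨h4, h6⟩
      left
      exact Icc_subset_uIcc' ⟨h6.le, h5.le⟩
  refine (encard_le_encard h2).trans ((encard_union_le _ _).trans ?_)
  have h3 : (f ⁻¹' (uIcc (f a) (f b))).encard ≤ k := by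
    refine le_trans ?_ hk
    rw [← hf.encard_image]
    exact encard_le_encard (image_preimage_subset _ _)
  have h4 := (encard_union_le {e | a ≤ e ∧ (Icc a e).encard ≤ N}
    {e | e ≤ b ∧ (Icc e b).encard ≤ N}).trans (add_le_add (up_le a N) (down_le b N))
  refine (add_le_add h3 h4).trans ?_
  push_cast
  rw [two_mul]

theorem bad_proof : BAD_statement := by
  intro K _ g ⟨N, P, hP, hPc, hPg⟩ ⟨N', Q, hQ, hQc, hQg⟩ k
  refine ⟨k + 2 * N', ?_⟩
  let T : Set K → ℕ → Set K := fun A m => {x | x ∈ A ∧ (A ∩ Ici x).encard ≤ m} ∪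
    {x | x ∈ A ∧ (A ∩ Iic x).encard ≤ m}
  have hT : ∀ A m, (T A m).Finite := fun A m => (top_finite A m).union (bot_finite A m)
  refine ((hP.biUnion (fun C _ => hT C k)).union (hP.biUnion fun C _ =>
    hQ.biUnion fun D _ => hT (C ∩ g ⁻¹' D) (k + N))).subset ?_
  rintro x ⟨y, h1, h2⟩
  obtain ⟨C, hC, hxC⟩ : ∃ C ∈ P, x ∈ C := by
    have : x ∈ ⋃₀ P := by rw [hPc]; trivial
    exact this
  obtain ⟨D, hD, hgD⟩ : ∃ D ∈ Q, g x ∈ D := by
    have : g x ∈ ⋃₀ Q := by rw [hQc]; trivial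
    exact this
  obtain ⟨hC1, hC2⟩ := hPg C hC
  obtain ⟨hD1, hD2⟩ := hQg D hD
  by_cases hyC : y ∈ C
  swap
  · left
    refine mem_biUnion hC ?_
    rcases lt_trichotomy x y with h | h | h
    · left
      refine ⟨hxC, (encard_le_encard ?_).trans h1⟩
      rintro c ⟨hc, hxc⟩
      rw [uIcc_of_le h.le]
      refine ⟨hxc, ?_⟩
      by_contra hcy
      exact hyC (hC1.out hxC hc ⟨h.le, (not_le.1 hcy).le⟩)
    · exact absurd (h ▸ hxC) hyC
    · right
      refine ⟨hxC, (encard_le_encard ?_).trans h1⟩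
      rintro c ⟨hc, hxc⟩
      rw [uIcc_of_ge h.le]
      refine ⟨?_, hxc⟩
      by_contra hcy
      exact hyC (hC1.out hc hxC ⟨(not_le.1 hcy).le, h.le⟩)
  by_cases hgy : g y ∈ D
  · exfalso
    apply h2
    have e : ∀ z, g⁻¹ (g z) = z := fun z => g.symm_apply_apply z
    rcases le_total (g x) (g y) with h3 | h3
    · rw [uIcc_of_le h3]
      refine count (g⁻¹).injective hD1 hD2 hgD hgy h3 ?_
      rw [e, e]
      exact h1
    · rw [uIcc_of_ge h3]
      refine count (g⁻¹).injective hD1 hD2 hgy hgD h3 ?_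
      rw [e, e, uIcc_comm]
      exact h1
  · right
    refine mem_biUnion hC (mem_biUnion hD ?_)
    have hxE : x ∈ C ∩ g ⁻¹' D := ⟨hxC, hgD⟩
    have hyE : y ∉ C ∩ g ⁻¹' D := fun h => hgy h.2
    rcases lt_trichotomy (g x) (g y) with h | h | h
    · have hlt : ∀ e, g e ∈ D → g e < g y := by
        intro e he
        by_contra hcon
        exact hgy (hD1.out hgD he ⟨h.le, not_lt.1 hcon⟩)
      rcases hC2 with hm | ha
      · left
        refine ⟨hxE, e_top h1 hyE ?_⟩
        rintro e ⟨he, he'⟩ hye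
        rcases hm y hyC e he hye with h5 | h5
        · exact h5
        · exact absurd h5 (not_lt.2 (hlt e he').le)
      · right
        refine ⟨hxE, e_bot h1 hyE ?_⟩
        rintro e ⟨he, he'⟩ hye
        rcases ha e he y hyC hye with h5 | h5
        · exact h5
        · exact absurd h5 (not_lt.2 (hlt e he').le)
    · exact absurd (h ▸ hgD) hgy
    · have hlt : ∀ e, g e ∈ D → g y < g e := by
        intro e he
        by_contra hcon
        exact hgy (hD1.out he hgD ⟨not_lt.1 hcon, h.le⟩)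
      rcases hC2 with hm | ha
      · right
        refine ⟨hxE, e_bot h1 hyE ?_⟩
        rintro e ⟨he, he'⟩ hye
        rcases hm e he y hyC hye with h5 | h5
        · exact h5
        · exact absurd h5 (not_lt.2 (hlt e he').le)
      · left
        refine ⟨hxE, e_top h1 hyE ?_⟩
        rintro e ⟨he, he'⟩ hye
        rcases ha y hyC e he hye with h5 | h5
        · exact h5
        · exact absurd h5 (not_lt.2 (hlt e he').le)

end Vale.Agent.P192.CM
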