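import Vale.Agent.P192.H663.CMBad
import Vale.Agent.P192.H826.PMUnif

/-!
# P192: coarsely piecewise monotone bijections: the quotient of an ultrapower
-/

namespace Vale.Agent.P192.CM

open Set Filter PMUnif

section

variable {K : Type} [LinearOrder K]

/-- the ultrafilter -/
noncomputable abbrev U : Ultrafilter ℕ := hyperfilter ℕ

variable (K) in
/-- the ultrapower -/
abbrev UK : Type := UP U (fun _ : ℕ => K)

/-- the class of a sequence -/
noncomputable abbrev mk' (f : ℕ → K) : UK K := mk U (X := fun _ : ℕ => K) f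

/-- nonstandard -/
def NS (x : UK K) : Prop := ∀ c : K, x ≠ mk' (fun _ => c)

/-- finite distance -/
def near (x y : UK K) : Prop :=
  ∃ (k : ℕ) (f g : ℕ → K), mk' f = x ∧ mk' g = y ∧
    ∀ᶠ i in (U : Filter ℕ), (uIcc (f i) (g i)).encard ≤ k

theorem near_mk {f g : ℕ → K} : near (mk' f) (mk' g) ↔
    ∃ k : ℕ, ∀ᶠ i in (U : Filter ℕ), (uIcc (f i) (g i)).encard ≤ k := by
  constructor
  · rintro ⟨k, f', g', h1, h2, h3⟩
    rw [mk_eq] at h1 h2
    refine ⟨k, ?_⟩
    filter_upwards [h1, h2, h3] with i e1 e2 e3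
    rw [← e1, ← e2]
    exact e3
  · rintro ⟨k, hk⟩
    exact ⟨k, f, g, rfl, rfl, hk⟩

theorem near_refl (x : UK K) : near x x := by
  obtain ⟨f, rfl⟩ := exists_mk U x
  exact near_mk.2 ⟨1, Eventually.of_forall fun i => by simp⟩

theorem near_symm {x y : UK K} (h : near x y) : near y x := by
  obtain ⟨k, f, g, h1, h2, h3⟩ := h
  refine ⟨k, g, f, h2, h1, ?_⟩
  filter_upwards [h3] with i e
  rw [uIcc_comm]
  exact e

theorem near_trans {x y z : UK K} (h : near x y) (h' : near y z) : near x z := by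
  obtain ⟨f, rfl⟩ := exists_mk U x
  obtain ⟨g, rfl⟩ := exists_mk U y
  obtain ⟨h0, rfl⟩ := exists_mk U z
  obtain ⟨k, hk⟩ := near_mk.1 h
  obtain ⟨k', hk'⟩ := near_mk.1 h'
  refine near_mk.2 ⟨k + k', ?_⟩
  filter_upwards [hk, hk'] with i e1 e2
  refine (encard_le_encard (uIcc_subset_uIcc_union_uIcc (b := g i))).trans
    ((encard_union_le _ _).trans ?_)
  push_cast
  exact add_le_add e1 e2

theorem near_left {x y z : UK K} (h : near x y) (h1 : x ≤ z) (h2 : z ≤ y) : near x z := by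
  obtain ⟨f, rfl⟩ := exists_mk U x
  obtain ⟨g, rfl⟩ := exists_mk U y
  obtain ⟨h0, rfl⟩ := exists_mk U z
  obtain ⟨k, hk⟩ := near_mk.1 h
  rw [mk_le] at h1 h2
  refine near_mk.2 ⟨k, ?_⟩
  filter_upwards [hk, h1, h2] with i e1 e2 e3
  refine (encard_le_encard ?_).trans e1
  exact uIcc_subset_uIcc left_mem_uIcc (Icc_subset_uIcc ⟨e2, e3⟩)

theorem near_right {x y z : UK K} (h : near x y) (h1 : x ≤ z) (h2 : z ≤ y) : near z y :=
  near_trans (near_symm (near_left h h1 h2)) h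

theorem lt_transport {a b x y : UK K} (ha : near a x) (hb : near b y) (hab : a < b)
    (hn : ¬ near a b) : x < y ∧ ¬ near x y := by
  have hxy : ¬ near x y := fun h => hn (near_trans ha (near_trans h (near_symm hb)))
  refine ⟨?_, hxy⟩
  by_contra h
  have h1 := not_lt.1 h
  rcases le_total b x with h2 | h2
  · exact hn (near_left ha hab.le h2)
  · exact hxy (near_symm (near_left (near_symm hb) h1 h2))

theorem ns_avoid {f : ℕ → K} (hf : NS (mk' f)) {F : Set K} (hF : F.Finite) :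
    ∀ᶠ i in (U : Filter ℕ), f i ∉ F := by
  have h1 : ∀ᶠ i in (U : Filter ℕ), ∀ c ∈ F, f i ≠ c := by
    rw [Filter.eventually_all_finite hF]
    intro c _
    have h2 : ¬ ∀ᶠ i in (U : Filter ℕ), f i = c := fun h => hf c ((mk_eq U).2 h)
    exact Ultrafilter.eventually_not.2 h2
  filter_upwards [h1] with i hi h
  exact hi _ h rfl

variable (K) in
/-- the nonstandard elements -/
def Om : Type := {x : UK K // NS x}

variable (K) in
/-- the setoid -/
def std : Setoid (Om K) where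
  r x y := near x.1 y.1
  iseqv := ⟨fun x => near_refl x.1, fun h => near_symm h, fun h h' => near_trans h h'⟩

variable (K) in
/-- the quotient -/
def Q : Type := Quotient (std K)

/-- the class -/
def cl (x : Om K) : Q K := Quotient.mk (std K) x

theorem cl_eq {x y : Om K} : cl x = cl y ↔ near x.1 y.1 := Quotient.eq

theorem exists_cl (q : Q K) : ∃ x, cl x = q := Quotient.exists_rep q

/-- the representative -/
noncomputable def rp (q : Q K) : Om K := (exists_cl q).choose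

theorem cl_rp (q : Q K) : cl (rp q) = q := (exists_cl q).choose_spec

noncomputable instance : LinearOrder (Q K) :=
  LinearOrder.lift' (fun q : Q K => (rp q).1) (fun a b h => by
    have h1 : rp a = rp b := Subtype.ext h
    rw [← cl_rp a, ← cl_rp b, h1])

theorem q_lt_iff {p q : Q K} : p < q ↔ (rp p).1 < (rp q).1 := Iff.rfl

theorem cl_lt {x y : Om K} : cl x < cl y ↔ x.1 < y.1 ∧ ¬ near x.1 y.1 := by
  have hx : near (rp (cl x)).1 x.1 := cl_eq.1 (cl_rp _)
  have hy : near (rp (cl y)).1 y.1 := cl_eq.1 (cl_rp _)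
  rw [q_lt_iff]
  constructor
  · intro h
    refine lt_transport hx hy h fun h2 => ?_
    have h3 : cl x = cl y := by
      rw [← cl_rp (cl x), ← cl_rp (cl y)]
      exact cl_eq.2 h2
    rw [h3] at h
    exact lt_irrefl _ h
  · rintro ⟨h1, h2⟩
    exact (lt_transport (near_symm hx) (near_symm hy) h1 h2).1

end

section

variable {K : Type} [LinearOrder K] (G : Subgroup (Equiv.Perm K))

/-- the action on the ultrapower -/
noncomputable def ac : G →* Equiv.Perm (UK K) := act U (X := fun _ => K) (fun _ => G.subtype)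

theorem ac_mk (g : G) (f : ℕ → K) : ac G g (mk' f) = mk' (fun i => g.1 (f i)) := rfl

theorem ns_ac (g : G) {x : UK K} (hx : NS x) : NS (ac G g x) := by
  intro c hc
  apply hx (g⁻¹.1 c)
  have h1 : ac G g⁻¹ (ac G g x) = ac G g⁻¹ (mk' fun _ => c) := by rw [hc]
  rw [ac_mk, ← Equiv.Perm.mul_apply, ← map_mul, inv_mul_cancel, map_one] at h1
  exact h1

variable {G}

theorem near_ac (hb : ∀ g ∈ G, BD g) (g : G) {x y : UK K} (hx : NS x) (h : near x y) :
    near (ac G g x) (ac G g y) := by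
  obtain ⟨f, rfl⟩ := exists_mk U x
  obtain ⟨f', rfl⟩ := exists_mk U y
  obtain ⟨k, hk⟩ := near_mk.1 h
  obtain ⟨m, hm⟩ := hb g.1 g.2 k
  rw [ac_mk, ac_mk]
  refine near_mk.2 ⟨m, ?_⟩
  filter_upwards [hk, ns_avoid hx hm] with i e1 e2
  by_contra e3
  exact e2 ⟨f' i, e1, e3⟩

variable (G) in
/-- the action on the nonstandard elements -/
noncomputable def om (g : G) (x : Om K) : Om K := ⟨ac G g x.1, ns_ac G g x.2⟩

theorem om_mul (g h : G) (x : Om K) : om G (g * h) x = om G g (om G h x) := by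
  apply Subtype.ext
  change ac G (g * h) x.1 = ac G g (ac G h x.1)
  rw [map_mul]
  rfl

theorem om_one (x : Om K) : om G 1 x = x := by
  apply Subtype.ext
  change ac G 1 x.1 = x.1
  rw [map_one]
  rfl

/-- the map of the quotient -/
noncomputable def qf (hb : ∀ g ∈ G, BD g) (g : G) : Q K → Q K :=
  Quotient.map (sa := std K) (sb := std K) (om G g) (fun x _ h => near_ac hb g x.2 h)

theorem qf_cl (hb : ∀ g ∈ G, BD g) (g : G) (x : Om K) : qf hb g (cl x) = cl (om G g x) := rfl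

theorem qf_mul (hb : ∀ g ∈ G, BD g) (g h : G) (q : Q K) :
    qf hb (g * h) q = qf hb g (qf hb h q) := by
  obtain ⟨x, rfl⟩ := exists_cl q
  rw [qf_cl, qf_cl, qf_cl, om_mul]

theorem qf_one (hb : ∀ g ∈ G, BD g) (q : Q K) : qf hb (1 : G) q = q := by
  obtain ⟨x, rfl⟩ := exists_cl q
  rw [qf_cl, om_one]

/-- the action on the quotient -/
noncomputable def qh (hb : ∀ g ∈ G, BD g) : G →* Equiv.Perm (Q K) where
  toFun g := ⟨qf hb g, qf hb g⁻¹, fun q => by
    rw [← qf_mul, inv_mul_cancel, qf_one], fun q => by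
    rw [← qf_mul, mul_inv_cancel, qf_one]⟩
  map_one' := by
    ext q
    exact qf_one hb q
  map_mul' g h := by
    ext q
    exact qf_mul hb g h q

theorem qh_cl (hb : ∀ g ∈ G, BD g) (g : G) (x : Om K) : qh hb g (cl x) = cl (om G g x) := rfl

/-- the star of a set -/
def star (C : Set K) : Set (UK K) := {x | ∃ f, mk' f = x ∧ ∀ᶠ i in (U : Filter ℕ), f i ∈ C}

theorem mem_star {C : Set K} {f : ℕ → K} : mk' f ∈ star C ↔ ∀ᶠ i in (U : Filter ℕ), f i ∈ C := by
  constructor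
  · rintro ⟨f', h1, h2⟩
    rw [mk_eq] at h1
    filter_upwards [h1, h2] with i e1 e2
    rw [← e1]
    exact e2
  · intro h
    exact ⟨f, rfl, h⟩

theorem star_cover {P : Set (Set K)} (hP : P.Finite) (hc : ⋃₀ P = Set.univ) (x : UK K) :
    ∃ C ∈ P, x ∈ star C := by
  obtain ⟨f, rfl⟩ := exists_mk U x
  by_contra h
  push Not at h
  have h1 : ∀ᶠ i in (U : Filter ℕ), ∀ C ∈ P, f i ∉ C := by
    rw [Filter.eventually_all_finite hP]
    intro C hC
    exact Ultrafilter.eventually_not.2 fun h2 => h C hC (mem_star.2 h2)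
  obtain ⟨i, hi⟩ := h1.exists
  have h2 : f i ∈ ⋃₀ P := by rw [hc]; trivial
  obtain ⟨C, hC, h3⟩ := h2
  exact hi C hC h3

theorem star_conv {C : Set K} (hC : C.OrdConnected) {x y z : UK K} (hx : x ∈ star C)
    (hy : y ∈ star C) (h1 : x ≤ z) (h2 : z ≤ y) : z ∈ star C := by
  obtain ⟨f, rfl⟩ := exists_mk U x
  obtain ⟨g, rfl⟩ := exists_mk U y
  obtain ⟨h, rfl⟩ := exists_mk U z
  have hx' := mem_star.1 hx
  have hy' := mem_star.1 hy
  rw [mk_le] at h1 h2
  refine mem_star.2 ?_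
  filter_upwards [hx', hy', h1, h2] with i e1 e2 e3 e4
  exact hC.out e1 e2 ⟨e3, e4⟩

/-- the piece of the quotient -/
def pc (C : Set K) : Set (Q K) := {q | ∃ x : Om K, cl x = q ∧ x.1 ∈ star C}

theorem pc_conv {C : Set K} (hC : C.OrdConnected) : (pc C).OrdConnected := by
  refine ⟨?_⟩
  rintro _ ⟨x, rfl, hx⟩ _ ⟨y, rfl, hy⟩ q ⟨h1, h2⟩
  rcases h1.lt_or_eq with h1' | rfl
  swap
  · exact ⟨x, rfl, hx⟩
  rcases h2.lt_or_eq with h2' | rfl
  swap
  · exact ⟨y, rfl, hy⟩
  obtain ⟨z, rfl⟩ := exists_cl q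
  exact ⟨z, rfl, star_conv hC hx hy (cl_lt.1 h1').1.le (cl_lt.1 h2').1.le⟩

theorem pc_mono (hb : ∀ g ∈ G, BD g) (g : G) {C : Set K} {N : ℕ} (h : CMono N g.1 C) :
    MonotoneOn (qh hb g) (pc C) := by
  rintro _ ⟨x, rfl, hx⟩ _ ⟨y, rfl, hy⟩ hxy
  rcases hxy.lt_or_eq with h1 | h1
  swap
  · rw [h1]
  obtain ⟨h2, h3⟩ := cl_lt.1 h1
  by_contra hcon
  have h4 := (cl_lt.1 (not_le.1 hcon)).1
  obtain ⟨x, hx0⟩ := x
  obtain ⟨y, hy0⟩ := y
  obtain ⟨f, rfl⟩ := exists_mk U x
  obtain ⟨f', rfl⟩ := exists_mk U y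
  have h4' : (mk' fun i => g.1 (f' i)) < (mk' fun i => g.1 (f i)) := h4
  rw [mk_lt] at h4' h2
  have hx' := mem_star.1 hx
  have hy' := mem_star.1 hy
  refine h3 (near_mk.2 ⟨N, ?_⟩)
  filter_upwards [h4', h2, hx', hy'] with i e1 e2 e3 e4
  rcases h _ e3 _ e4 e2 with h5 | h5
  · rw [uIcc_of_le e2.le]
    exact h5
  · exact absurd h5 (lt_asymm e1)

theorem pc_anti (hb : ∀ g ∈ G, BD g) (g : G) {C : Set K} {N : ℕ} (h : CAnti N g.1 C) :
    AntitoneOn (qh hb g) (pc C) := by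
  rintro _ ⟨x, rfl, hx⟩ _ ⟨y, rfl, hy⟩ hxy
  rcases hxy.lt_or_eq with h1 | h1
  swap
  · rw [h1]
  obtain ⟨h2, h3⟩ := cl_lt.1 h1
  by_contra hcon
  have h4 := (cl_lt.1 (not_le.1 hcon)).1
  obtain ⟨x, hx0⟩ := x
  obtain ⟨y, hy0⟩ := y
  obtain ⟨f, rfl⟩ := exists_mk U x
  obtain ⟨f', rfl⟩ := exists_mk U y
  have h4' : (mk' fun i => g.1 (f i)) < (mk' fun i => g.1 (f' i)) := h4
  rw [mk_lt] at h4' h2
  have hx' := mem_star.1 hx
  have hy' := mem_star.1 hy
  refine h3 (near_mk.2 ⟨N, ?_⟩)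
  filter_upwards [h4', h2, hx', hy'] with i e1 e2 e3 e4
  rcases h _ e3 _ e4 e2 with h5 | h5
  · rw [uIcc_of_le e2.le]
    exact h5
  · exact absurd h5 (lt_asymm e1)

theorem ker_w (hb : ∀ g ∈ G, BD g) (g : G) (hg : qh hb g = 1) : W g.1 := by
  by_contra hcon
  simp only [W] at hcon
  push Not at hcon
  have key : ∀ f : ℕ → K, NS (mk' f) → ∃ k : ℕ, ∀ᶠ i in (U : Filter ℕ),
      (uIcc (f i) (g.1 (f i))).encard ≤ k := by
    intro f hf
    have h1 : qh hb g (cl ⟨mk' f, hf⟩) = cl ⟨mk' f, hf⟩ := by rw [hg]; rfl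
    have h2 := cl_eq.1 h1
    have h3 : near (mk' fun i => g.1 (f i)) (mk' f) := h2
    exact near_mk.1 (near_symm h3)
  by_cases hT : {x : K | (uIcc x (g.1 x)).encard = ⊤}.Finite
  · have h1 : ∀ D : ℕ, ∃ x, ¬ (uIcc x (g.1 x)).encard ≤ D ∧ (uIcc x (g.1 x)).encard ≠ ⊤ := by
      intro D
      obtain ⟨x, hx⟩ := (Set.Infinite.sdiff (hcon D) hT).nonempty
      exact ⟨x, not_le.2 hx.1, hx.2⟩
    choose f hf1 hf2 using h1
    have hns : NS (mk' f) := by
      intro c hc
      rw [mk_eq] at hc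
      by_cases hc' : (uIcc c (g.1 c)).encard = ⊤
      · obtain ⟨i, hi⟩ := hc.exists
        apply hf2 i
        rw [hi]
        exact hc'
      · obtain ⟨n, hn⟩ := ENat.ne_top_iff_exists.1 hc'
        have h2 : ∀ᶠ i in (U : Filter ℕ), n ≤ i :=
          (_root_.Nat.hyperfilter_le_atTop) (Filter.eventually_ge_atTop n)
        obtain ⟨i, hi, hi2⟩ := (hc.and h2).exists
        apply hf1 i
        rw [hi, ← hn]
        exact_mod_cast hi2
    obtain ⟨k, hk⟩ := key f hns
    have h2 : ∀ᶠ i in (U : Filter ℕ), k ≤ i :=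
      (_root_.Nat.hyperfilter_le_atTop) (Filter.eventually_ge_atTop k)
    obtain ⟨i, hi, hi2⟩ := (hk.and h2).exists
    exact hf1 i (hi.trans (by exact_mod_cast hi2))
  · let f := Set.Infinite.natEmbedding _ hT
    have hns : NS (mk' fun i => (f i : K)) := by
      intro c hc
      rw [mk_eq] at hc
      have h2 : {i : ℕ | (f i : K) = c}.Finite := by
        refine Set.Subsingleton.finite ?_
        intro i hi j hj
        have hi' : (f i : K) = c := hi
        have hj' : (f j : K) = c := hj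
        exact f.injective (Subtype.ext (hi'.trans hj'.symm))
      have h3 := h2.compl_mem_hyperfilter
      obtain ⟨i, hi, hi2⟩ := (hc.and (Filter.eventually_mem_set.2 h3)).exists
      exact hi2 hi
    obtain ⟨k, hk⟩ := key _ hns
    obtain ⟨i, hi⟩ := hk.exists
    have h4 : (uIcc (f i : K) (g.1 (f i))).encard = ⊤ := (f i).2
    rw [h4] at hi
    simp at hi

end

theorem ult_proof : ULT_statement := by
  intro K _ G hG hb
  refine ⟨Q K, inferInstance, qh hb, ?_, fun g hg => ker_w hb g hg⟩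
  intro g
  obtain ⟨N, P, hP, hc, h⟩ := hG g.1 g.2
  refine ⟨pc '' P, hP.image _, ?_, ?_⟩
  · ext q
    simp only [mem_univ, iff_true]
    obtain ⟨x, rfl⟩ := exists_cl q
    obtain ⟨C, hC, hx⟩ := star_cover hP hc x.1
    exact ⟨pc C, ⟨C, hC, rfl⟩, x, rfl, hx⟩
  · rintro _ ⟨C, hC, rfl⟩
    obtain ⟨h1, h2⟩ := h C hC
    exact ⟨pc_conv h1, h2.imp (fun h3 => pc_mono hb g h3) (fun h3 => pc_anti hb g h3)⟩

end Vale.Agent.P192.CM
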