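import Vale.Agent.P192.H663.RelColour

/-!
# P192: the relative colouring theorem for families of colourings
-/

namespace Vale.Agent.P192

open Group Subgroup

namespace SS

variable {T Y : Type} [Group T] (S : SS T Y)

variable (N : Set T) (h1 : (1 : T) ∈ N) (hN : ∀ a ∈ N, ∀ y, S.sec a y ∈ N)

/-- from the sections to the group -/
theorem base_of_good [Finite Y] (hf : S.Faithful)
    (hgood : ∀ (y0 : Y) (K : Type) [Group K], IsFinitelyPresented K →
      (∀ x : K, IsOfFinOrder x) → ∀ f : K →* LC N, (∀ γ, S.σ (πC N (f γ)) = 1) →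
      {t | ∃ γ, t = S.sec (πC N (f γ)) y0}.Finite)
    (Γ : Type) [Group Γ] (hΓ : IsFinitelyPresented Γ) (ht : ∀ x : Γ, IsOfFinOrder x)
    (f : Γ →* LC N) : Finite ((πC N).comp f).range := by
  let K : Subgroup Γ := (S.σ.comp ((πC N).comp f)).ker
  have hK : K.FiniteIndex := by
    have : Finite (Γ ⧸ K) := Finite.of_equiv _
      (QuotientGroup.quotientKerEquivRange (S.σ.comp ((πC N).comp f))).toEquiv.symm
    exact Subgroup.finiteIndex_of_finite_quotient
  have hKfp : IsFinitelyPresented K := fp_of_finiteIndex Γ K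
  have hKt : ∀ x : K, IsOfFinOrder x := fun x =>
    (Submonoid.isOfFinOrder_coe (H := K.toSubmonoid) (x := x)).1 (ht x.1)
  have hKσ : ∀ γ ∈ K, S.σ (πC N (f γ)) = 1 := fun γ hγ => hγ
  refine S.finite_of_sec hf ((πC N).comp f) K hKσ (fun y0 => ?_)
  refine (hgood y0 K hKfp hKt (f.comp K.subtype) (fun γ => hKσ γ.1 γ.2)).subset ?_
  rintro _ ⟨γ, hγ, rfl⟩
  exact ⟨⟨γ, hγ⟩, rfl⟩

include h1 hN in
/-- from the group with the relations of length three to the group -/
theorem fpb_of_base [Finite Y] (hf : S.Faithful) (hc : ∀ g, ∃ n, S.deep N n g)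
    (hbase : ∀ (Γ : Type) [Group Γ], IsFinitelyPresented Γ → (∀ x : Γ, IsOfFinOrder x) →
      ∀ f : Γ →* LC N, Finite ((πC N).comp f).range) : FPB T := by
  have hσ : ∀ x, (S.SC N hN).σ x = S.σ (πC N x) := S.SC_σ N hN
  have hker : ∀ x, πC N x = 1 ↔ ∃ n, x ∈ (S.SC N hN).Kn n := by
    intro x
    constructor
    · intro hx
      obtain ⟨n, hn⟩ := S.EC_all N h1 hN hc x
      exact ⟨n, S.EC_Kn N h1 hN n x hn hx⟩
    · rintro ⟨n, hn⟩
      exact S.πC_of_mem_Kn N hN hf n x hn
  have hle : ∀ n, (S.SC N hN).Kn n ≤ (πC N).ker := fun n x hx => (hker x).2 ⟨n, hx⟩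
  have hker' : ∀ x, (πC N).rangeRestrict x = 1 ↔ πC N x = 1 := fun x =>
    ⟨fun h => congrArg Subtype.val h, fun h => Subtype.ext h⟩
  have hR : FPB (πC N).range := by
    refine fpb_iUnion_ker' (πC N).rangeRestrict (πC N).rangeRestrict_surjective (S.SC N hN).Kn
      (S.SC N hN).Kn_le_succ (fun x => (hker' x).trans (hker x))
      (fun n x hx => (hker' x).2 (hle n hx)) ?_
    intro n Γ _ hΓ ht ψ
    have h2 := S.quot_finite (S.SC N hN) (πC N) hσ (S.SC_sec N hN) hf hle
      (fun Γ _ hΓ ht ψ => hbase Γ hΓ ht ψ) n Γ hΓ ht ψ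
    have h3 : ((((QuotientGroup.lift ((S.SC N hN).Kn n) (πC N) (hle n)).comp ψ).range :
      Subgroup T) : Set T).Finite := Set.toFinite _
    have h4 : (Subtype.val '' ((((QuotientGroup.lift ((S.SC N hN).Kn n) (πC N).rangeRestrict
        (fun x hx => (hker' x).2 (hle n hx))).comp ψ).range :
          Subgroup (πC N).range) : Set (πC N).range)).Finite := by
      refine h3.subset ?_
      rintro _ ⟨_, ⟨γ, rfl⟩, rfl⟩
      refine ⟨γ, ?_⟩
      change QuotientGroup.lift ((S.SC N hN).Kn n) (πC N) (hle n) (ψ γ) =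
        ((QuotientGroup.lift ((S.SC N hN).Kn n) (πC N).rangeRestrict
          (fun x hx => (hker' x).2 (hle n hx)) (ψ γ) : (πC N).range) : T)
      obtain ⟨u, hu⟩ := QuotientGroup.mk_surjective (ψ γ)
      rw [← hu]
      rfl
    exact (h4.of_finite_image Subtype.val_injective.injOn).to_subtype
  have hcl : ∀ h ∈ (πC N).range, ∀ y, S.sec h y ∈ (πC N).range := by
    rintro _ ⟨g, rfl⟩ y
    rw [← S.SC_sec N hN]
    exact ⟨_, rfl⟩
  have hNr : N ⊆ (πC N).range := fun a ha => ⟨gen ⟨a, ha⟩, πC_gen N _⟩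
  apply fpb_of_local
  intro A hA
  have hAf : Finite A := hA
  choose n hn using hc
  obtain ⟨m, hm⟩ := Finite.exists_le (fun a : A => n a)
  refine fpb_mono ?_ (S.fpb_upn hf (πC N).range hR m)
  rw [Subgroup.closure_le]
  intro a ha
  exact S.upn_mono hcl (hm ⟨a, ha⟩) (S.mem_upn N _ hNr _ _ (hn a))

/-- the loops at `y` going to another letter by `g`, then along a loop of one colour there, and
back: their sections at `y` -/
def loopG (U : Set Y) (y : Y) (g : T) : Subgroup T :=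
  (Subgroup.closure {x : T | Relation.EqvGen (S.cstep N U) (S.σ g y, 1) (S.σ g y, x)}).comap
    (MulAut.conj (S.sec g y)).toMonoidHom

/-- one colouring: the sections lie in a loop group -/
theorem sec_mem_loop {K : Type} [Group K] (hKfp : IsFinitelyPresented K)
    (hKt : ∀ x : K, IsOfFinOrder x) (f : K →* LC N) (hKσ : ∀ γ, S.σ (πC N (f γ)) = 1)
    (y0 : Y) (U : Set Y) : ∃ g : T, ∀ γ, S.sec (πC N (f γ)) y0 ∈ S.loopG N U y0 g := by
  have hKfg : Group.FG K := by
    obtain ⟨n, ψ, hψ, -⟩ := id hKfp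
    exact Group.fg_of_surjective hψ
  let C : LC N → Prop := fun x => S.σ (πC N x) y0 ∈ U
  obtain ⟨x, hx⟩ := ColTree.exists_comp C hKt f (by
    intro γ x
    change S.σ (πC N (x * f γ)) y0 ∈ U ↔ S.σ (πC N x) y0 ∈ U
    rw [map_mul, map_mul, hKσ γ, mul_one])
  refine ⟨πC N x, fun γ => ?_⟩
  set u := S.σ (πC N x) y0 with hu
  set t := S.sec (πC N x) y0 with htt
  have hmap : ∀ x z : LC N, Relation.EqvGen (ColTree.same C) x z →
      Relation.EqvGen (S.cstep N U) (S.σ (πC N x) y0, S.sec (πC N x) y0)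
        (S.σ (πC N z) y0, S.sec (πC N z) y0) := by
    intro x z h
    induction h with
    | rel x z h =>
      obtain ⟨h2, a, rfl⟩ := h
      refine Relation.EqvGen.rel _ _ ⟨h2, a, a.2, ?_⟩
      rw [map_mul, πC_gen, map_mul, S.sec_mul]
      rfl
    | refl x => exact Relation.EqvGen.refl _
    | symm x z _ ih => exact ih.symm
    | trans x z w _ _ ih1 ih2 => exact ih1.trans _ _ _ ih2
  change (MulAut.conj t).toMonoidHom (S.sec (πC N (f γ)) y0) ∈ Subgroup.closure
      {x : T | Relation.EqvGen (S.cstep N U) (u, 1) (u, x)}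
  change t * S.sec (πC N (f γ)) y0 * t⁻¹ ∈ _
  apply Subgroup.subset_closure
  have h2 := hmap _ _ (hx γ)
  have h3 : S.σ (πC N (x * f γ)) y0 = u := by
    rw [map_mul, map_mul, hKσ γ, mul_one]
  have h4 : S.sec (πC N (x * f γ)) y0 = t * S.sec (πC N (f γ)) y0 := by
    rw [map_mul, S.sec_mul, hKσ γ]
    rfl
  rw [h3, h4] at h2
  have h5 := S.cstep_mul N U t⁻¹ h2
  change Relation.EqvGen (S.cstep N U) (u, t * t⁻¹) (u, t * S.sec (πC N (f γ)) y0 * t⁻¹) at h5
  rw [mul_inv_cancel] at h5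
  exact h5

include h1 hN in
/-- **The relative colouring theorem for all colourings together.** -/
theorem relColours [Finite Y] (hf : S.Faithful) (hc : ∀ g, ∃ n, S.deep N n g)
    (hP : ∀ (y : Y) (g : Set Y → T), FPB (⨅ U, S.loopG N U y (g U) : Subgroup T)) :
    FPB T := by
  refine S.fpb_of_base N h1 hN hf hc (fun Γ _ hΓ ht f => S.base_of_good N hf ?_ Γ hΓ ht f)
  intro y0 K _ hKfp hKt f hKσ
  choose g hg using fun U => S.sec_mem_loop N hKfp hKt f hKσ y0 U
  let s : K →* T :=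
    { toFun := fun γ => S.sec (πC N (f γ)) y0
      map_one' := by rw [map_one, map_one, S.sec_one]
      map_mul' := by
        intro a b
        rw [map_mul, map_mul, S.sec_mul, hKσ b]
        rfl }
  have hmem : ∀ γ, s γ ∈ (⨅ U, S.loopG N U y0 (g U) : Subgroup T) := by
    intro γ
    rw [Subgroup.mem_iInf]
    exact fun U => hg U γ
  have hfin := hP y0 g K hKfp hKt (s.codRestrict _ hmem)
  have hfin2 : (Subtype.val '' ((s.codRestrict _ hmem).range :
      Set (⨅ U, S.loopG N U y0 (g U) : Subgroup T))).Finite := (Set.toFinite _).image _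
  refine hfin2.subset ?_
  rintro _ ⟨γ, rfl⟩
  exact ⟨_, ⟨γ, rfl⟩, rfl⟩

end SS

end Vale.Agent.P192
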