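import Vale.Agent.P192.H663.Assembly

/-!
# P192: the relative form and further closure properties
-/

namespace Vale.Agent.P192

universe u v w

namespace SS

variable {T : Type u} {Y : Type v} [Group T] (S : SS T Y)

/-- one recurrent element -/
theorem exists_good_one [Finite Y] (hAm : AmalgThm.{u}) (hB : S.StepB) (hf : S.Faithful)
    {H : Subgroup T} (hH : S.Good H) (y : Y) (s : T) (hs : S.sec s y = s)
    (h : ∀ y', y' ≠ y → S.sec s y' ∈ H) : ∃ H', S.Good H' ∧ H ≤ H' ∧ s ∈ H' := by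
  by_cases hd : ∃ d ∈ H, S.σ d y = S.σ s y ∧ S.sec d y = d
  · obtain ⟨d, hdH, hd1, hd2⟩ := hd
    refine ⟨(S.πA H y).range, S.stepA hAm hf hH y, S.le_stepA H y, ?_⟩
    have hv : d⁻¹ * s ∈ S.vg H y := by
      refine ⟨?_, ?_, fun y' hy' => ?_⟩
      · rw [map_mul, Equiv.Perm.mul_apply]
        exact S.σ_inv_apply d hd1
      · rw [S.sec_mul, S.sec_inv' d hd1, hd2, hs]
      · rw [S.sec_mul]
        exact mul_mem (hH.closed _ (inv_mem hdH) _) (h y' hy')
    have := mul_mem (S.le_stepA H y hdH) (S.vg_le_stepA H y hv)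
    rwa [mul_inv_cancel_left] at this
  · exact hB H hH y (S.σ s y) s rfl hs h hd

/-- all elements recurrent at `y` and mapping `y` to `z` -/
theorem exists_good_pair [Finite Y] (hAm : AmalgThm.{u}) (hB : S.StepB) (hf : S.Faithful)
    {H H₁ : Subgroup T} (hHH : H ≤ H₁) (hH₁ : S.Good H₁) (y z : Y) :
    ∃ H', S.Good H' ∧ H₁ ≤ H' ∧ ∀ s, S.σ s y = z → S.sec s y = s →
      (∀ y', y' ≠ y → S.sec s y' ∈ H) → s ∈ H' := by
  by_cases hex : ∃ s, S.σ s y = z ∧ S.sec s y = s ∧ ∀ y', y' ≠ y → S.sec s y' ∈ H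
  · obtain ⟨s₀, h1, h2, h3⟩ := hex
    have hG := S.stepA hAm hf hH₁ y
    obtain ⟨H', hH', hle, hs₀⟩ := S.exists_good_one hAm hB hf hG y s₀ h2
      (fun y' hy' => S.le_stepA H₁ y (hHH (h3 y' hy')))
    refine ⟨H', hH', (S.le_stepA H₁ y).trans hle, ?_⟩
    intro s g1 g2 g3
    have hv : s₀⁻¹ * s ∈ S.vg H₁ y := by
      refine ⟨?_, ?_, fun y' hy' => ?_⟩
      · rw [map_mul, Equiv.Perm.mul_apply, g1]
        exact S.σ_inv_apply s₀ h1
      · rw [S.sec_mul, g1, S.sec_inv' s₀ h1, h2, g2]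
      · rw [S.sec_mul]
        refine mul_mem ?_ (hHH (g3 y' hy'))
        rw [S.sec_inv]
        refine inv_mem (hHH (h3 _ ?_))
        intro h
        have h4 : S.σ s₀⁻¹ (S.σ s y') = S.σ s₀⁻¹ z := by rw [h, S.σ_inv_apply s₀ h1]
        have h5 : S.σ s y' = S.σ s y := ((S.σ s₀⁻¹).injective h4).trans g1.symm
        exact hy' ((S.σ s).injective h5)
    have := mul_mem hs₀ (hle (S.vg_le_stepA H₁ y hv))
    rwa [mul_inv_cancel_left] at this
  · refine ⟨H₁, hH₁, le_rfl, ?_⟩
    intro s g1 g2 g3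
    exact absurd ⟨s, g1, g2, g3⟩ hex

/-- **The relative theorem.** If `H` is self-similar, stable and in the class, then so is some
group containing `H`, all elements with all sections in `H`, and all elements which are recurrent
at one letter and have their other sections in `H`. -/
theorem relative' [Finite Y] (hAm : AmalgThm.{u}) (hB : S.StepB) (hf : S.Faithful)
    {H : Subgroup T} (hH : S.Good H) :
    ∃ H', S.Good H' ∧ H ≤ H' ∧ S.up H ≤ H' ∧
      ∀ s y, S.sec s y = s → (∀ y', y' ≠ y → S.sec s y' ∈ H) → s ∈ H' := by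
  have key : ∀ P : List (Y × Y), ∃ H', S.Good H' ∧ S.up H ≤ H' ∧ ∀ p ∈ P, ∀ s, S.σ s p.1 = p.2 →
      S.sec s p.1 = s → (∀ y', y' ≠ p.1 → S.sec s y' ∈ H) → s ∈ H' := by
    intro P
    induction P with
    | nil => exact ⟨S.up H, S.good_up hf hH, le_rfl, fun p hp => absurd hp List.not_mem_nil⟩
    | cons p P ih =>
      obtain ⟨H₁, hH₁, hle, hP⟩ := ih
      obtain ⟨H', hH', hle', hs⟩ := S.exists_good_pair hAm hB hf
        (H := H) ((S.le_up hH.closed).trans hle) hH₁ p.1 p.2
      refine ⟨H', hH', hle.trans hle', ?_⟩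
      intro p' hp'
      rcases List.mem_cons.1 hp' with rfl | hp'
      · exact hs
      · intro s g1 g2 g3
        exact hle' (hP p' hp' s g1 g2 g3)
  have hfin : Finite (Y × Y) := inferInstance
  obtain ⟨n, ⟨e⟩⟩ := Finite.exists_equiv_fin (Y × Y)
  obtain ⟨H', hH', hle, hs⟩ := key (List.ofFn e.symm)
  refine ⟨H', hH', (S.le_up hH.closed).trans hle, hle, ?_⟩
  intro s y g2 g3
  refine hs (y, S.σ s y) ?_ s rfl g2 g3
  rw [List.mem_ofFn]
  exact ⟨e (y, S.σ s y), by simp⟩

/-- self-similar quotients -/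
theorem fpb_selfSimilar [Finite Y] (hT : FPB T) : FPB (T ⧸ (⨆ n, S.Kn n)) := by
  have hm : Monotone S.Kn := monotone_nat_of_le_succ S.Kn_le_succ
  refine fpb_iUnion_ker (QuotientGroup.mk' (⨆ n, S.Kn n)) (QuotientGroup.mk'_surjective _) S.Kn
    S.Kn_le_succ ?_ (fun n => S.fpb_quot_Kn hT n)
  intro x
  rw [QuotientGroup.mk'_apply, QuotientGroup.eq_one_iff]
  exact Subgroup.mem_iSup_of_directed (hm.directed_le)

end SS

/-! ### further closure properties of the class -/

/-- overgroups of finite index -/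
theorem fpb_of_finiteIndex {G : Type u} [Group G] (K : Subgroup G) [K.FiniteIndex] (h : FPB K) :
    FPB G := by
  have hn : K.normalCore.FiniteIndex := inferInstance
  have hfin : Finite (G ⧸ K.normalCore) := inferInstance
  refine fpb_ext (QuotientGroup.mk' K.normalCore) (fpb_of_finite _) ?_
  rw [QuotientGroup.ker_mk']
  exact fpb_mono K.normalCore_le h

/-- restricted direct products -/
theorem fpb_restricted {ι : Type w} {G : ι → Type u} [∀ i, Group (G i)] (h : ∀ i, FPB (G i))
    (K : Subgroup (∀ i, G i)) (hK : ∀ g ∈ K, {i | g i ≠ 1}.Finite) : FPB K := by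
  apply fpb_of_local
  intro A hA
  -- a finite set containing all supports
  set Z : Set ι := ⋃ a ∈ A, {i | a.1 i ≠ 1} with hZ
  have hZf : Z.Finite := hA.biUnion (fun a _ => hK a.1 a.2)
  have hsupp : ∀ g ∈ Subgroup.closure A, ∀ i, i ∉ Z → g.1 i = 1 := by
    intro g hg
    induction hg using Subgroup.closure_induction with
    | mem x hx =>
      intro i hi
      by_contra hne
      exact hi (Set.mem_biUnion hx hne)
    | one => intro i _; rfl
    | mul x y _ _ hx hy =>
      intro i hi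
      change x.1 i * y.1 i = 1
      rw [hx i hi, hy i hi, one_mul]
    | inv x _ hx =>
      intro i hi
      change (x.1 i)⁻¹ = 1
      rw [hx i hi, inv_one]
  have : Finite Z := hZf
  let r : Subgroup.closure A →* (∀ i : Z, G i) :=
    { toFun := fun g i => g.1.1 i.1
      map_one' := rfl
      map_mul' := fun _ _ => rfl }
  refine fpb_of_injective r ?_ (fpb_pi (fun i : Z => h i.1))
  rw [injective_iff_map_eq_one]
  intro g hg
  apply Subtype.ext
  apply Subtype.ext
  funext i
  by_cases hi : i ∈ Z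
  · exact congrFun hg ⟨i, hi⟩
  · exact hsupp g.1 g.2 i hi

end Vale.Agent.P192
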