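import Vale.Agent.P192.H663.StepA

/-!
# P192: assembly: triangular lists of states generate groups in the class
-/

namespace Vale.Agent.P192

universe u v w

namespace SS

variable {T : Type u} {Y : Type v} [Group T] (S : SS T Y)

theorem good_bot : S.Good ⊥ where
  closed := by
    intro h hh y
    rw [Subgroup.mem_bot] at hh
    subst hh
    rw [S.sec_one]
    exact one_mem _
  stable := by
    intro h hh x
    rw [Subgroup.mem_bot] at hh
    subst hh
    exact ⟨0, S.sec_one x⟩
  fpb := fpb_of_finite _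

/-- the statement of step B -/
def StepB (S : SS T Y) : Prop := ∀ (H₀ : Subgroup T), S.Good H₀ → ∀ (y z : Y) (s : T), S.σ s y = z →
  S.sec s y = s → (∀ y', y' ≠ y → S.sec s y' ∈ H₀) → (¬ ∃ d ∈ H₀, S.σ d y = z ∧ S.sec d y = d) →
  ∃ H', S.Good H' ∧ H₀ ≤ H' ∧ s ∈ H'

theorem exists_good [Finite Y] (hAm : AmalgThm.{u}) (hB : S.StepB) (hf : S.Faithful) (l : List T)
    (hl : S.Tri l) : ∃ H, S.Good H ∧ ∀ x ∈ l, x ∈ H := by
  induction l with
  | nil => exact ⟨⊥, S.good_bot, fun x hx => absurd hx List.not_mem_nil⟩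
  | cons s l ih =>
    obtain ⟨hl1, hl2⟩ := hl
    obtain ⟨H, hH, hlH⟩ := ih hl1
    have hcl : Subgroup.closure {x | x ∈ l} ≤ H := (Subgroup.closure_le H).2 hlH
    rcases hl2 with h | ⟨y, hy, h⟩
    · refine ⟨S.up H, S.good_up hf hH, ?_⟩
      intro x hx
      rcases List.mem_cons.1 hx with rfl | hx
      · exact fun y => hcl (h y)
      · exact S.le_up hH.closed (hlH x hx)
    · have h' : ∀ y', y' ≠ y → S.sec s y' ∈ H := fun y' hy' => hcl (h y' hy')
      by_cases hd : ∃ d ∈ H, S.σ d y = S.σ s y ∧ S.sec d y = d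
      · obtain ⟨d, hdH, hd1, hd2⟩ := hd
        refine ⟨(S.πA H y).range, S.stepA hAm hf hH y, ?_⟩
        intro x hx
        rcases List.mem_cons.1 hx with rfl | hx
        · have hv : d⁻¹ * x ∈ S.vg H y := by
            refine ⟨?_, ?_, fun y' hy' => ?_⟩
            · rw [map_mul, Equiv.Perm.mul_apply]
              exact S.σ_inv_apply d hd1
            · rw [S.sec_mul, S.sec_inv' d hd1, hd2, hy]
            · rw [S.sec_mul]
              exact mul_mem (hH.closed _ (inv_mem hdH) _) (h' y' hy')
          have := mul_mem (S.le_stepA H y hdH) (S.vg_le_stepA H y hv)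
          rwa [mul_inv_cancel_left] at this
        · exact S.le_stepA H y (hlH x hx)
      · obtain ⟨H', hH', hle, hs⟩ := hB H hH y (S.σ s y) s rfl hy h' hd
        refine ⟨H', hH', ?_⟩
        intro x hx
        rcases List.mem_cons.1 hx with rfl | hx
        · exact hs
        · exact hle (hlH x hx)

/-- **The triangular theorem.** -/
theorem tri_fpb' [Finite Y] (hAm : AmalgThm.{u}) (hB : S.StepB) (hf : S.Faithful) (l : List T)
    (hl : S.Tri l) : FPB (Subgroup.closure {x | x ∈ l}) := by
  obtain ⟨H, hH, hlH⟩ := S.exists_good hAm hB hf l hl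
  exact fpb_mono ((Subgroup.closure_le H).2 hlH) hH.fpb

end SS

end Vale.Agent.P192
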