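import Vale.Agent.P192.H663.Contracting
import Vale.Agent.P192.H260.TreeAct
import Mathlib.Combinatorics.SimpleGraph.Coloring.Constructions

/-!
# P192: the tree of the monochromatic components of a two-coloured triangular presentation
-/

namespace Vale.Agent.P192.ColTree

open Vale.Agent.P192.SS

variable {T : Type} [Group T] {N : Set T} (C : LC N → Prop)

/-- monochromatic edges -/
def same (x z : LC N) : Prop := (C x ↔ C z) ∧ ∃ a : N, z = gen a * x

/-- the monochromatic components -/
abbrev V : Type := Quot (same C)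

/-- the component of an element -/
abbrev mk (x : LC N) : V C := Quot.mk _ x

theorem mk_of_same {x z : LC N} (a : N) (h : z = gen a * x) (hC : C x ↔ C z) : mk C x = mk C z :=
  Quot.sound ⟨hC, a, h⟩

/-- the colour of a component -/
def col : V C → Prop := Quot.lift C (fun _ _ h => propext h.1)

theorem col_mk (x : LC N) : col C (mk C x) = C x := rfl

/-- the graph of the components -/
def G : SimpleGraph (V C) where
  Adj P Q := ∃ x z : LC N, (∃ a : N, z = gen a * x ∨ x = gen a * z) ∧ ¬ (C x ↔ C z) ∧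
    mk C x = P ∧ mk C z = Q
  symm := ⟨by
    rintro P Q ⟨x, z, ⟨a, h⟩, h2, h3, h4⟩
    exact ⟨z, x, ⟨a, h.symm⟩, fun h => h2 h.symm, h4, h3⟩⟩
  loopless := ⟨by
    rintro P ⟨x, z, -, h2, h3, h4⟩
    have h5 : col C (mk C x) = col C (mk C z) := by rw [h3, h4]
    rw [col_mk, col_mk] at h5
    exact h2 (iff_of_eq h5)⟩

theorem adj_col {P Q : V C} (h : (G C).Adj P Q) : ¬ (col C P ↔ col C Q) := by
  obtain ⟨x, z, -, h2, rfl, rfl⟩ := h
  exact h2

theorem reach_gen (a : N) (x : LC N) : (G C).Reachable (mk C x) (mk C (gen a * x)) := by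
  by_cases h : C x ↔ C (gen a * x)
  · rw [mk_of_same C a rfl h]
  · exact SimpleGraph.Adj.reachable ⟨x, gen a * x, ⟨a, Or.inl rfl⟩, h, rfl, rfl⟩

theorem reach (g : LC N) : ∀ x, (G C).Reachable (mk C x) (mk C (g * x)) := by
  refine LC_induction N (P := fun g => ∀ x, (G C).Reachable (mk C x) (mk C (g * x)))
    ?_ ?_ ?_ ?_ g
  · intro x
    rw [one_mul]
  · exact reach_gen C
  · intro g hg x
    have := hg (g⁻¹ * x)
    rw [mul_inv_cancel_left] at this
    exact this.symm
  · intro g h hg hh x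
    rw [mul_assoc]
    exact (hh x).trans (hg _)

open Classical in
/-- the cochain of an edge -/
noncomputable def th (A B P Q : V C) : ℤ :=
  if P = A ∧ Q = B then 1 else if P = B ∧ Q = A then -1 else 0

theorem th_self {A B : V C} (hAB : A ≠ B) (P : V C) : th C A B P P = 0 := by
  unfold th
  rw [if_neg, if_neg]
  · rintro ⟨h1, h2⟩
    exact hAB (h2.symm.trans h1)
  · rintro ⟨h1, h2⟩
    exact hAB (h1.symm.trans h2)

theorem th_symm {A B : V C} (hAB : A ≠ B) (P Q : V C) : th C A B P Q + th C A B Q P = 0 := by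
  unfold th
  by_cases h1 : P = A ∧ Q = B
  · obtain ⟨rfl, rfl⟩ := h1
    rw [if_pos ⟨rfl, rfl⟩, if_neg, if_pos ⟨rfl, rfl⟩]
    · rfl
    · rintro ⟨h, -⟩
      exact hAB h.symm
  · by_cases h2 : P = B ∧ Q = A
    · obtain ⟨rfl, rfl⟩ := h2
      rw [if_neg h1, if_pos ⟨rfl, rfl⟩, if_pos ⟨rfl, rfl⟩]
      rfl
    · rw [if_neg h1, if_neg h2, if_neg (fun h => h2 ⟨h.2, h.1⟩), if_neg (fun h => h1 ⟨h.2, h.1⟩)]
      rfl

theorem th_triangle {A B : V C} (hAB : A ≠ B) (a b c : N) (x : LC N)
    (h : gen a * (gen b * x) = gen c * x) :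
    th C A B (mk C (gen b * x)) (mk C (gen a * (gen b * x))) + th C A B (mk C x) (mk C (gen b * x)) =
      th C A B (mk C x) (mk C (gen c * x)) := by
  by_cases h1 : C x ↔ C (gen b * x)
  · rw [mk_of_same C b rfl h1, th_self C hAB, add_zero, h]
  · by_cases h2 : C (gen b * x) ↔ C (gen a * (gen b * x))
    · rw [← mk_of_same C a rfl h2, th_self C hAB, zero_add, mk_of_same C a rfl h2, h]
    · have h3 : C x ↔ C (gen c * x) := by
        rw [← h]
        tauto
      rw [← mk_of_same C c rfl h3, th_self C hAB, h, ← mk_of_same C c rfl h3]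
      exact th_symm C hAB _ _

/-- the integral of the cochain, as a homomorphism -/
noncomputable def Th (A B : V C) (hAB : A ≠ B) : LC N →* Wr (Multiplicative ℤ) (LC N) :=
  PresentedGroup.toGroup (f := fun a : N => ⟨Equiv.mulLeft (gen a), fun x =>
    Multiplicative.ofAdd (th C A B (mk C x) (mk C (gen a * x)))⟩) (by
    rintro _ ⟨a, b, c, h, rfl⟩
    rw [map_mul, map_mul, map_inv, FreeGroup.lift_apply_of, FreeGroup.lift_apply_of,
      FreeGroup.lift_apply_of, mul_inv_eq_one]
    have h0 : ∀ x : LC N, gen a * (gen b * x) = gen c * x := by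
      intro x
      rw [← mul_assoc, gen_mul a b c h]
    refine Wr.ext' ?_ ?_
    · ext x
      simp only [Wr.mul_p, Equiv.Perm.mul_apply, Equiv.coe_mulLeft]
      exact h0 x
    · intro x
      simp only [Wr.mul_f, Equiv.coe_mulLeft]
      rw [← ofAdd_add]
      exact congrArg Multiplicative.ofAdd (th_triangle C hAB a b c x (h0 x)))

theorem Th_gen (A B : V C) (hAB : A ≠ B) (a : N) : Th C A B hAB (gen a) =
    ⟨Equiv.mulLeft (gen a), fun x =>
      Multiplicative.ofAdd (th C A B (mk C x) (mk C (gen a * x)))⟩ := PresentedGroup.toGroup.of _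

theorem Th_p (A B : V C) (hAB : A ≠ B) (g : LC N) : ∀ x, (Th C A B hAB g).p x = g * x := by
  refine LC_induction N (P := fun g => ∀ x, (Th C A B hAB g).p x = g * x) ?_ ?_ ?_ ?_ g
  · intro x
    rw [map_one, one_mul]
    rfl
  · intro a x
    rw [Th_gen]
    rfl
  · intro g hg x
    rw [map_inv]
    change (Th C A B hAB g).p⁻¹ x = _
    rw [Equiv.Perm.inv_eq_iff_eq, hg, mul_inv_cancel_left]
  · intro g h hg hh x
    rw [map_mul]
    change (Th C A B hAB g).p ((Th C A B hAB h).p x) = _
    rw [hh, hg, mul_assoc]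

/-- the integral -/
noncomputable def F (A B : V C) (hAB : A ≠ B) (g : LC N) : ℤ :=
  Multiplicative.toAdd ((Th C A B hAB g).f 1)

theorem F_gen (A B : V C) (hAB : A ≠ B) (a : N) (g : LC N) : F C A B hAB (gen a * g) =
    th C A B (mk C g) (mk C (gen a * g)) + F C A B hAB g := by
  unfold F
  rw [map_mul, Wr.mul_f, toAdd_mul, Th_p, mul_one, Th_gen]
  rfl

/-- the integral on the components -/
noncomputable def FV (A B : V C) (hAB : A ≠ B) : V C → ℤ :=
  Quot.lift (F C A B hAB) (by
    rintro x z ⟨h, a, rfl⟩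
    rw [F_gen, ← mk_of_same C a rfl h, th_self C hAB, zero_add])

theorem FV_adj (A B : V C) (hAB : A ≠ B) {P Q : V C} (h : (G C).Adj P Q) :
    FV C A B hAB Q - FV C A B hAB P = th C A B P Q := by
  obtain ⟨x, z, ⟨a, h | h⟩, -, rfl, rfl⟩ := h
  · subst h
    change F C A B hAB (gen a * x) - F C A B hAB x = _
    rw [F_gen]
    ring
  · subst h
    change F C A B hAB z - F C A B hAB (gen a * z) = _
    rw [F_gen]
    have := th_symm C hAB (mk C z) (mk C (gen a * z))
    linarith

/-- **The graph of the components is a tree.** -/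
theorem isTree : (G C).IsTree := by
  refine ⟨⟨?_⟩, ?_⟩
  · intro P Q
    obtain ⟨x, rfl⟩ := Quot.exists_rep P
    obtain ⟨z, rfl⟩ := Quot.exists_rep Q
    have := reach C (z * x⁻¹) x
    rwa [inv_mul_cancel_right] at this
  · rw [SimpleGraph.isAcyclic_iff_forall_adj_isBridge]
    intro A B hAB
    have hne : A ≠ B := hAB.ne
    rw [SimpleGraph.isBridge_iff]
    rintro ⟨p⟩
    have key : ∀ {P Q : V C} (p : ((G C).deleteEdges {s(A, B)}).Walk P Q),
        FV C A B hne P = FV C A B hne Q := by
      intro P Q p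
      induction p with
      | nil => rfl
      | @cons P R Q h p ih =>
        rw [← ih]
        rw [SimpleGraph.deleteEdges_adj] at h
        have h1 := FV_adj C A B hne h.1
        have h2 : th C A B P R = 0 := by
          unfold th
          rw [if_neg, if_neg]
          · rintro ⟨rfl, rfl⟩
            exact h.2 (Sym2.eq_swap)
          · rintro ⟨rfl, rfl⟩
            exact h.2 rfl
        rw [h2] at h1
        linarith
    have h1 := FV_adj C A B hne hAB
    have h2 : th C A B A B = 1 := if_pos ⟨rfl, rfl⟩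
    rw [h2, key p] at h1
    linarith

/-- **Fixed components.** -/
theorem exists_comp {Γ : Type} [Group Γ] [Group.FG Γ] (ht : ∀ x : Γ, IsOfFinOrder x)
    (f : Γ →* LC N) (hf : ∀ (γ : Γ) (x : LC N), C (x * f γ) ↔ C x) :
    ∃ x : LC N, ∀ γ : Γ, Relation.EqvGen (same C) x (x * f γ) := by
  classical
  have hs : ∀ (γ : Γ) (x z : LC N), same C x z → same C (x * f γ) (z * f γ) := by
    rintro γ x z ⟨h, a, rfl⟩
    exact ⟨by rw [hf, hf]; exact h, a, by rw [mul_assoc]⟩
  let act : MulAction Γ (V C) :=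
    { smul := fun γ => Quot.map (fun x => x * f γ⁻¹) (fun x z h => hs γ⁻¹ x z h)
      one_smul := by
        intro P
        obtain ⟨x, rfl⟩ := Quot.exists_rep P
        change mk C (x * f 1⁻¹) = mk C x
        rw [inv_one, map_one, mul_one]
      mul_smul := by
        intro g h P
        obtain ⟨x, rfl⟩ := Quot.exists_rep P
        change mk C (x * f (g * h)⁻¹) = mk C (x * f h⁻¹ * f g⁻¹)
        rw [mul_inv_rev, map_mul, mul_assoc] }
  have hsm : ∀ (γ : Γ) (x : LC N), γ • mk C x = mk C (x * f γ⁻¹) := fun _ _ => rfl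
  have hadj : ∀ (γ : Γ) (P Q : V C), (G C).Adj P Q → (G C).Adj (γ • P) (γ • Q) := by
    rintro γ P Q ⟨x, z, ⟨a, h⟩, h2, rfl, rfl⟩
    refine ⟨x * f γ⁻¹, z * f γ⁻¹, ⟨a, ?_⟩, ?_, rfl, rfl⟩
    · rcases h with h | h
      · left; rw [h, mul_assoc]
      · right; rw [h, mul_assoc]
    · rw [hf, hf]; exact h2
  have hT := isTree C
  have hle : ∀ (g : Γ) (u v : V C), (G C).dist (g • u) (g • v) ≤ (G C).dist u v := by
    intro g u v
    obtain ⟨p, hp⟩ := hT.connected.exists_walk_length_eq_dist u v
    let φ : (G C) →g (G C) := ⟨fun x => g • x, fun {a b} hab => hadj g a b hab⟩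
    have := SimpleGraph.dist_le (p.map φ)
    rw [SimpleGraph.Walk.length_map, hp] at this
    exact this
  have hiso : ∀ (g : Γ) (u v : V C), (G C).dist (g • u) (g • v) = (G C).dist u v := by
    intro g u v
    refine le_antisymm (hle g u v) ?_
    have := hle g⁻¹ (g • u) (g • v)
    rwa [inv_smul_smul, inv_smul_smul] at this
  let cB : (G C).Coloring Bool := SimpleGraph.Coloring.mk (fun P => decide (col C P)) (by
    intro P Q h he
    exact adj_col C h (by simpa using he))
  have hev : ∀ (g : Γ) (P : V C), Even ((G C).dist P (g • P)) := by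
    intro g P
    obtain ⟨p, hp⟩ := hT.connected.exists_walk_length_eq_dist P (g • P)
    rw [← hp, cB.even_length_iff_congr p]
    obtain ⟨x, rfl⟩ := Quot.exists_rep P
    change (decide (C x) = true ↔ decide (C (x * f g⁻¹)) = true)
    rw [decide_eq_true_iff, decide_eq_true_iff, hf]
  have hne : Nonempty (V C) := ⟨mk C 1⟩
  obtain ⟨P, hP⟩ := H260.exists_fixed (H260.isTree_dist hT) (Γ := Γ) hiso ht hev
  obtain ⟨x, rfl⟩ := Quot.exists_rep P
  refine ⟨x, fun γ => ?_⟩
  have h1 := hP γ⁻¹
  rw [hsm, inv_inv] at h1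
  exact (Quot.eqvGen_exact h1).symm

end Vale.Agent.P192.ColTree
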