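import Vale.Agent.P192.H663.Defs
import Vale.Agent.P192.H437.ColourG

/-!
# P192: contracting groups with two-coloured Schreier graphs
-/

namespace Vale.Agent.P192.Dim

open Vale.Agent.P192.H437

/-- products of at most `R` elements of `S` and their inverses -/
def sball {Γ : Type} [Group Γ] (S : Set Γ) (R : ℕ) : Set Γ :=
  {g | ∃ w : List Γ, (∀ s ∈ w, s ∈ S ∨ s⁻¹ ∈ S) ∧ w.length ≤ R ∧ w.prod = g}

theorem sball_finite {Γ : Type} [Group Γ] (S : Set Γ) (hS : S.Finite) (R : ℕ) :
    (sball S R).Finite := by
  induction R with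
  | zero =>
    refine (Set.finite_singleton (1 : Γ)).subset ?_
    rintro g ⟨w, -, h2, rfl⟩
    rw [List.length_eq_zero_iff.1 (Nat.le_zero.1 h2)]
    exact rfl
  | succ R ih =>
    have hS' : (S ∪ S⁻¹).Finite := hS.union hS.inv
    refine ((Set.finite_singleton (1 : Γ)).union (hS'.mul ih)).subset ?_
    rintro g ⟨w, h1, h2, rfl⟩
    cases w with
    | nil => exact Or.inl rfl
    | cons s w =>
      right
      rw [List.prod_cons]
      refine Set.mul_mem_mul ?_ ⟨w, fun t ht => h1 t (List.mem_cons_of_mem _ ht), ?_, rfl⟩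
      · rcases h1 s List.mem_cons_self with h | h
        · exact Or.inl h
        · exact Or.inr h
      · simpa using h2

/-- **Contracting groups with two-coloured Schreier graphs.** -/
theorem fpb_colour (X : Type) [Finite X] (T : Subgroup (Equiv.Perm (List X)))
    (N : Set (List X → List X)) (hl : ∀ g ∈ T, ∀ w, (g w).length = w.length)
    (hc : ∀ g ∈ T, ∃ n, ∀ v : List X, n ≤ v.length → ∃ f ∈ N, ∀ w, g (v ++ w) = g v ++ f w)
    (B : ℕ) (U : Set (List X)) (hU : ∀ w : List X, {w' | Relation.ReflTransGen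
      (fun a b => (a ∈ U ↔ b ∈ U) ∧ ∃ f ∈ N, f a = b) w w'}.encard ≤ B) : FPB T := by
  intro Γ _ hΓ ht φ
  obtain ⟨S, hS⟩ := (Group.fg_iff (G := Γ)).1 (by
    obtain ⟨n, ψ, hψ, -⟩ := hΓ
    exact Group.fg_of_surjective hψ)
  obtain ⟨R, hR⟩ := uniform_colour.{0, 0} Γ ht S hS.1
  let act : MulAction Γ (List X) :=
    { smul := fun g w => (φ g).1 w
      one_smul := fun w => by change (φ 1).1 w = w; rw [map_one]; rfl
      mul_smul := fun g h w => by
        change (φ (g * h)).1 w = (φ g).1 ((φ h).1 w); rw [map_mul]; rfl }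
  have hsm : ∀ (g : Γ) (w : List X), g • w = (φ g).1 w := fun _ _ => rfl
  -- a common level
  have hfin : (sball S R).Finite := sball_finite S hS.2 R
  choose m hm using fun g : Γ => hc (φ g).1 (φ g).2
  obtain ⟨n, hn⟩ : ∃ n, ∀ g ∈ sball S R, m g ≤ n := by
    have : Finite (sball S R) := hfin
    obtain ⟨n, hn⟩ := Finite.exists_le (fun g : sball S R => m g)
    exact ⟨n, fun g hg => hn ⟨g, hg⟩⟩
  set r : List X → List X → Prop := fun a b => (a ∈ U ↔ b ∈ U) ∧ ∃ f ∈ N, f a = b with hr
  have hstep : ∀ a b : List X, ((a.drop n ∈ U) ↔ (b.drop n ∈ U)) → hop S R a b →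
      a.length = b.length ∧ Relation.ReflTransGen r (a.drop n) (b.drop n) := by
    rintro a b hab ⟨w, h1, h2, h3⟩
    have hlen : a.length = b.length := by rw [← h3, hsm]; exact (hl _ (φ w.prod).2 a).symm
    refine ⟨hlen, ?_⟩
    by_cases ha : a.length < n
    · rw [List.drop_eq_nil_of_le ha.le, List.drop_eq_nil_of_le (hlen ▸ ha.le)]
    · have hg : w.prod ∈ sball S R := ⟨w, h1, h2, rfl⟩
      have htl : (a.take n).length = n := by rw [List.length_take]; omega
      obtain ⟨f, hf, hfw⟩ := hm w.prod (a.take n) (by rw [htl]; exact hn _ hg)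
      have h4 := hfw (a.drop n)
      rw [List.take_append_drop] at h4
      have h5 : b = (φ w.prod).1 (a.take n) ++ f (a.drop n) := by rw [← h3, hsm]; exact h4
      have h6 : ((φ w.prod).1 (a.take n)).length = n := by rw [hl _ (φ w.prod).2, htl]
      have h7 : b.drop n = f (a.drop n) := by
        rw [h5, List.drop_append_of_le_length (by rw [h6]), List.drop_eq_nil_of_le (by rw [h6]),
          List.nil_append]
      exact Relation.ReflTransGen.single ⟨hab, f, hf, h7.symm⟩
  have hchain : ∀ a b : List X, mono S R {w : List X | w.drop n ∈ U} a b →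
      a.length = b.length ∧ Relation.ReflTransGen r (a.drop n) (b.drop n) := by
    intro a b hab
    induction hab with
    | refl => exact ⟨rfl, Relation.ReflTransGen.refl⟩
    | tail _ hbc ih =>
      obtain ⟨h1, h2⟩ := hstep _ _ hbc.1 hbc.2
      exact ⟨ih.1.trans h1, ih.2.trans h2⟩
  -- the bound
  have hA : {v : List X | v.length ≤ n}.Finite := List.finite_length_le X n
  obtain ⟨K, hK, hKi⟩ := hR ((hA.toFinset.card) * B)
  have htriv := hKi.2 (List X) {w : List X | w.drop n ∈ U} (by
    intro x
    have hinj : Set.InjOn (fun z : List X => (z.take n, z.drop n))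
        {z | mono S R {w : List X | w.drop n ∈ U} x z} := by
      intro a _ b _ hab
      have h1 := (Prod.mk.injEq _ _ _ _).mp hab
      rw [← List.take_append_drop n a, ← List.take_append_drop n b, h1.1, h1.2]
    rw [← hinj.encard_image]
    have hsub : (fun z : List X => (z.take n, z.drop n)) ''
        {z | mono S R {w : List X | w.drop n ∈ U} x z} ⊆
        {v : List X | v.length ≤ n} ×ˢ {w' | Relation.ReflTransGen r (x.drop n) w'} := by
      rintro _ ⟨z, hz, rfl⟩
      refine ⟨?_, (hchain x z hz).2⟩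
      change (z.take n).length ≤ n
      rw [List.length_take]
      exact Nat.min_le_left _ _
    refine (Set.encard_le_encard hsub).trans ?_
    rw [Set.encard_prod]
    rw [Nat.cast_mul]
    refine mul_le_mul' ?_ (hU _)
    rw [hA.encard_eq_coe_toFinset_card])
  have hker : K ≤ φ.ker := by
    intro g hg
    rw [MonoidHom.mem_ker]
    apply Subtype.ext
    apply Equiv.ext
    intro w
    exact htriv g hg w
  have : φ.ker.FiniteIndex := by
    have := hKi.1
    exact Subgroup.finiteIndex_of_le hker
  have : Finite (Γ ⧸ φ.ker) := inferInstance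
  exact Finite.of_equiv _ (QuotientGroup.quotientKerEquivRange φ).toEquiv

end Vale.Agent.P192.Dim
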