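import Vale.Agent.P192.H663.SelfSim

/-!
# P192: the extension lemma for self-similar groups
-/

namespace Vale.Agent.P192

universe u v w

namespace SS

variable {T : Type u} {Y : Type v} [Group T]

/-- Data for the extension lemma: a group `L` with a wreath recursion over the letters `Y`, a
homomorphism `π : L → T` compatible with the recursions, a copy of `H` and stable elements `Q`. -/
structure ExtData (S : SS T Y) (H : Subgroup T) (L : Type w) [Group L] where
  SL : SS L Y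
  π : L →* T
  i : H →* L
  π_i : ∀ h, π (i h) = h
  σ_eq : ∀ g, SL.σ g = S.σ (π g)
  sec_eq : ∀ g y, π (SL.sec g y) = S.sec (π g) y
  closed : ∀ h ∈ H, ∀ y, S.sec h y ∈ H
  i_sec : ∀ (h : H) y, SL.sec (i h) y = i ⟨S.sec h y, closed h h.2 y⟩
  Q : Y → Y → Set L
  q_out : ∀ x z q, q ∈ Q x z → S.σ (π q) x = z
  q_sec : ∀ x z q, q ∈ Q x z → SL.sec q x = q
  q_sec' : ∀ x z q, q ∈ Q x z → ∀ x', x' ≠ x → SL.sec q x' ∈ i.range
  q_left : ∀ x z w q (h : H), q ∈ Q x z → S.σ h z = w → S.sec h z = h → i h * q ∈ Q x w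
  q_right : ∀ w x z q (h : H), q ∈ Q x z → S.σ h w = x → S.sec h w = h → q * i h ∈ Q w z
  q_mul : ∀ x z w q q', q ∈ Q x z → q' ∈ Q z w → q' * q ∈ Q x w ∨ q' * q ∈ i.range
  q_inv : ∀ x z q, q ∈ Q x z → q⁻¹ ∈ Q z x
  q_mem : ∀ x z q, q ∈ Q x z → π q ∈ H → q ∈ i.range
  gen : Subgroup.closure {g : L | g ∈ i.range ∨ ∃ x z, g ∈ Q x z} = ⊤

namespace ExtData

variable {S : SS T Y} {H : Subgroup T} {L : Type w} [Group L] (D : ExtData S H L)

/-- the special elements -/
def W : Set L := {g : L | g ∈ D.i.range ∨ ∃ x z, g ∈ D.Q x z}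

theorem i_sec_mem (g : L) (hg : g ∈ D.i.range) (y : Y) : D.SL.sec g y ∈ D.i.range := by
  obtain ⟨h, rfl⟩ := hg
  rw [D.i_sec]
  exact ⟨_, rfl⟩

theorem W_sec {g : L} (hg : g ∈ D.W) (y : Y) : D.SL.sec g y ∈ D.W := by
  rcases hg with hg | ⟨x, z, hg⟩
  · exact Or.inl (D.i_sec_mem g hg y)
  · by_cases h : y = x
    · subst h
      rw [D.q_sec _ _ _ hg]
      exact Or.inr ⟨_, _, hg⟩
    · exact Or.inl (D.q_sec' _ _ _ hg y h)

theorem W_inv {g : L} (hg : g ∈ D.W) : g⁻¹ ∈ D.W := by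
  rcases hg with hg | ⟨x, z, hg⟩
  · exact Or.inl (inv_mem hg)
  · exact Or.inr ⟨_, _, D.q_inv _ _ _ hg⟩

/-- all sections of level `n` are special -/
def E : ℕ → L → Prop
  | 0, g => g ∈ D.W
  | n + 1, g => ∀ y, E n (D.SL.sec g y)

theorem E_succ (n : ℕ) (g : L) (h : D.E n g) : D.E (n + 1) g := by
  induction n generalizing g with
  | zero => exact fun y => D.W_sec h y
  | succ n ih => exact fun y => ih _ (h y)

theorem E_mono {n m : ℕ} (hnm : n ≤ m) (g : L) (h : D.E n g) : D.E m g := by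
  induction hnm with
  | refl => exact h
  | step _ ih => exact D.E_succ _ _ ih

theorem E_inv (n : ℕ) (g : L) (h : D.E n g) : D.E n g⁻¹ := by
  induction n generalizing g with
  | zero => exact D.W_inv h
  | succ n ih =>
    intro y
    rw [D.SL.sec_inv]
    exact ih _ (h _)

theorem E_of_sec [Finite Y] (g : L) (h : ∀ y, ∃ n, D.E n (D.SL.sec g y)) : ∃ n, D.E n g := by
  choose n hn using h
  obtain ⟨m, hm⟩ := Finite.exists_le n
  exact ⟨m + 1, fun y => D.E_mono (hm y) _ (hn y)⟩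

theorem QH [Finite Y] (n : ℕ) {x z : Y} {q : L} (hq : q ∈ D.Q x z) (h : H)
    (hs : S.sec (S.it x n (h⁻¹ : H)) x = S.it x n (h⁻¹ : H)) : ∃ m, D.E m (q * D.i h) := by
  induction n generalizing h with
  | zero =>
    refine ⟨0, Or.inr ⟨S.σ (h⁻¹ : H) x, z, ?_⟩⟩
    have h1 : S.σ (h : T) (S.σ (h⁻¹ : H) x) = x := by
      rw [← Equiv.Perm.mul_apply, ← map_mul, Subgroup.coe_inv, mul_inv_cancel, map_one]; rfl
    refine D.q_right _ _ _ _ _ hq h1 ?_
    have h2 : S.sec (h⁻¹ : H) x = ((h⁻¹ : H) : T) := hs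
    have h3 := S.sec_inv (h : T) x
    have h4 : (S.sec (h : T) (S.σ (h : T)⁻¹ x))⁻¹ = (h : T)⁻¹ := by
      rw [← h3]; exact h2
    exact inv_injective h4
  | succ n ih =>
    apply D.E_of_sec
    intro y
    rw [D.SL.sec_mul, D.σ_eq, D.π_i, D.i_sec]
    by_cases hy : S.σ (h : T) y = x
    · rw [hy, D.q_sec _ _ _ hq]
      apply ih
      have : (((⟨S.sec h y, D.closed h h.2 y⟩ : H)⁻¹ : H) : T) = S.sec ((h⁻¹ : H) : T) x := by
        rw [Subgroup.coe_inv, Subgroup.coe_inv, S.sec_inv' (h : T) hy]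
      rw [this]
      exact hs
    · exact ⟨0, Or.inl (mul_mem (D.q_sec' _ _ _ hq _ hy) ⟨_, rfl⟩)⟩

theorem HQ [Finite Y] (n : ℕ) {x z : Y} {q : L} (hq : q ∈ D.Q x z) (h : H)
    (hs : S.sec (S.it z n h) z = S.it z n h) : ∃ m, D.E m (D.i h * q) := by
  induction n generalizing h with
  | zero => exact ⟨0, Or.inr ⟨x, _, D.q_left _ _ _ _ _ hq rfl hs⟩⟩
  | succ n ih =>
    apply D.E_of_sec
    intro y
    rw [D.SL.sec_mul, D.σ_eq]
    by_cases hy : y = x
    · subst hy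
      rw [D.q_out _ _ _ hq, D.q_sec _ _ _ hq, D.i_sec]
      exact ih _ hs
    · exact ⟨0, Or.inl (mul_mem (D.i_sec_mem _ ⟨_, rfl⟩ _) (D.q_sec' _ _ _ hq _ hy))⟩

theorem WW [Finite Y] (hst : ∀ h ∈ H, ∀ x, ∃ n, S.sec (S.it x n h) x = S.it x n h) {a b : L}
    (ha : a ∈ D.W) (hb : b ∈ D.W) : ∃ m, D.E m (a * b) := by
  rcases ha with ha | ⟨x, z, ha⟩
  · rcases hb with hb | ⟨x', z', hb⟩
    · exact ⟨0, Or.inl (mul_mem ha hb)⟩
    · obtain ⟨h, rfl⟩ := ha
      obtain ⟨n, hn⟩ := hst h h.2 z'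
      exact D.HQ n hb h hn
  · rcases hb with hb | ⟨x', z', hb⟩
    · obtain ⟨h, rfl⟩ := hb
      obtain ⟨n, hn⟩ := hst (h⁻¹ : H) (h⁻¹ : H).2 x
      exact D.QH n ha h hn
    · by_cases hz : z' = x
      · subst hz
        refine ⟨0, ?_⟩
        rcases D.q_mul _ _ _ _ _ hb ha with h | h
        · exact Or.inr ⟨_, _, h⟩
        · exact Or.inl h
      · apply D.E_of_sec
        intro y
        rw [D.SL.sec_mul, D.σ_eq]
        by_cases hy : y = x'
        · subst hy
          rw [D.q_out _ _ _ hb, D.q_sec _ _ _ hb]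
          obtain ⟨h, hh⟩ := D.q_sec' _ _ _ ha z' hz
          rw [← hh]
          obtain ⟨n, hn⟩ := hst h h.2 z'
          exact D.HQ n hb h hn
        · obtain ⟨h, hh⟩ := D.q_sec' _ _ _ hb y hy
          rw [← hh]
          by_cases hy' : S.σ (D.π b) y = x
          · rw [hy', D.q_sec _ _ _ ha]
            obtain ⟨n, hn⟩ := hst (h⁻¹ : H) (h⁻¹ : H).2 x
            exact D.QH n ha h hn
          · exact ⟨0, Or.inl (mul_mem (D.q_sec' _ _ _ ha _ hy') ⟨_, rfl⟩)⟩

theorem E_mul [Finite Y] (hst : ∀ h ∈ H, ∀ x, ∃ n, S.sec (S.it x n h) x = S.it x n h) (n : ℕ)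
    {a b : L} (ha : D.E n a) (hb : D.E n b) : ∃ m, D.E m (a * b) := by
  induction n generalizing a b with
  | zero => exact D.WW hst ha hb
  | succ n ih =>
    apply D.E_of_sec
    intro y
    rw [D.SL.sec_mul]
    exact ih (ha _) (hb _)

theorem E_all [Finite Y] (hst : ∀ h ∈ H, ∀ x, ∃ n, S.sec (S.it x n h) x = S.it x n h) (g : L) :
    ∃ m, D.E m g := by
  have hg : g ∈ Subgroup.closure {g : L | g ∈ D.i.range ∨ ∃ x z, g ∈ D.Q x z} := by
    rw [D.gen]; trivial
  induction hg using Subgroup.closure_induction with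
  | mem x hx => exact ⟨0, hx⟩
  | one => exact ⟨0, Or.inl (one_mem _)⟩
  | mul x y _ _ hx hy =>
    obtain ⟨n, hn⟩ := hx
    obtain ⟨m, hm⟩ := hy
    exact D.E_mul hst (max n m) (D.E_mono (le_max_left _ _) _ hn)
      (D.E_mono (le_max_right _ _) _ hm)
  | inv x _ hx =>
    obtain ⟨n, hn⟩ := hx
    exact ⟨n, D.E_inv n _ hn⟩

/-- elements acting trivially are in the union of the kernels -/
theorem mem_Kn (n : ℕ) (g : L) (hE : D.E n g) (hg : D.π g = 1) : g ∈ D.SL.Kn n := by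
  induction n generalizing g with
  | zero =>
    have key : g ∈ D.i.range := by
      rcases hE with h | ⟨x, z, h⟩
      · exact h
      · exact D.q_mem _ _ _ h (by rw [hg]; exact one_mem _)
    obtain ⟨h, rfl⟩ := key
    rw [D.π_i] at hg
    have : h = 1 := Subtype.ext hg
    rw [this, map_one]
    exact one_mem _
  | succ n ih =>
    refine ⟨by rw [D.σ_eq, hg, map_one], fun y => ih _ (hE y) ?_⟩
    rw [D.sec_eq, hg, S.sec_one]

theorem π_of_mem_Kn (hf : S.Faithful) (n : ℕ) (g : L) (hg : g ∈ D.SL.Kn n) : D.π g = 1 := by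
  have key : ∀ (v : List Y) (n : ℕ) (g : L), g ∈ D.SL.Kn n → S.σ (S.secL (D.π g) v) = 1 := by
    intro v
    induction v with
    | nil =>
      intro n g hg
      have := D.SL.Kn_secL hg []
      change S.σ (D.π g) = 1
      rw [← D.σ_eq]
      exact this
    | cons y v ih =>
      intro n g hg
      change S.σ (S.secL (S.sec (D.π g) y) v) = 1
      rw [← D.sec_eq]
      cases n with
      | zero =>
        rw [(D.SL.mem_Kn_zero).1 hg, D.SL.sec_one]
        exact ih 0 1 (one_mem _)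
      | succ n => exact ih n _ (hg.2 y)
  exact hf _ (fun v => key v n g hg)

theorem fpb_range [Finite Y] (hf : S.Faithful)
    (hst : ∀ h ∈ H, ∀ x, ∃ n, S.sec (S.it x n h) x = S.it x n h) (hL : FPB L) :
    FPB D.π.range := by
  refine fpb_iUnion_ker D.π.rangeRestrict D.π.rangeRestrict_surjective D.SL.Kn
    D.SL.Kn_le_succ ?_ (fun n => D.SL.fpb_quot_Kn hL n)
  intro x
  have h1 : D.π.rangeRestrict x = 1 ↔ D.π x = 1 :=
    ⟨fun h => congrArg Subtype.val h, fun h => Subtype.ext h⟩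
  rw [h1]
  constructor
  · intro hx
    obtain ⟨n, hn⟩ := D.E_all hst x
    exact ⟨n, D.mem_Kn n x hn hx⟩
  · rintro ⟨n, hn⟩
    exact D.π_of_mem_Kn hf n x hn

theorem stable_aux (hst : ∀ h ∈ H, ∀ x, ∃ n, S.sec (S.it x n h) x = S.it x n h) (n : ℕ) (g : L)
    (hE : D.E n g) (x : Y) : ∃ m, S.sec (S.it x m (D.π g)) x = S.it x m (D.π g) := by
  induction n generalizing g with
  | zero =>
    rcases hE with ⟨h, rfl⟩ | ⟨x', z, h⟩
    · rw [D.π_i]
      exact hst h h.2 x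
    · by_cases hx : x = x'
      · subst hx
        refine ⟨0, ?_⟩
        change S.sec (D.π g) x = D.π g
        rw [← D.sec_eq, D.q_sec _ _ _ h]
      · obtain ⟨k, hk⟩ := D.q_sec' _ _ _ h x hx
        obtain ⟨m, hm⟩ := hst k k.2 x
        refine ⟨m + 1, ?_⟩
        change S.sec (S.it x m (S.sec (D.π g) x)) x = S.it x m (S.sec (D.π g) x)
        rw [← D.sec_eq, ← hk, D.π_i]
        exact hm
  | succ n ih =>
    obtain ⟨m, hm⟩ := ih _ (hE x)
    refine ⟨m + 1, ?_⟩
    change S.sec (S.it x m (S.sec (D.π g) x)) x = S.it x m (S.sec (D.π g) x)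
    rw [← D.sec_eq]
    exact hm

/-- **Extension lemma.** -/
theorem good_range [Finite Y] (hf : S.Faithful) (hH : S.Good H) (hL : FPB L) :
    S.Good D.π.range where
  closed := by
    rintro _ ⟨g, rfl⟩ y
    rw [← D.sec_eq]
    exact ⟨_, rfl⟩
  stable := by
    rintro _ ⟨g, rfl⟩ x
    obtain ⟨n, hn⟩ := D.E_all hH.stable g
    exact D.stable_aux hH.stable n g hn x
  fpb := D.fpb_range hf hH.stable hL

theorem le_range : H ≤ D.π.range := fun h hh => ⟨D.i ⟨h, hh⟩, D.π_i _⟩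

/-- the stable elements of the extension -/
theorem stable_mem [Finite Y] (hst : ∀ h ∈ H, ∀ x, ∃ n, S.sec (S.it x n h) x = S.it x n h)
    {x : Y} {g : T} (hg : g ∈ D.π.range) (hx : S.sec g x = g) :
    g ∈ H ∨ ∃ z, ∃ q ∈ D.Q x z, D.π q = g := by
  obtain ⟨l, rfl⟩ := hg
  obtain ⟨n, hn⟩ := D.E_all hst l
  have key : ∀ (n : ℕ) (l' : L), D.E n l' → D.π l' = D.π l →
      D.π l ∈ H ∨ ∃ z, ∃ q ∈ D.Q x z, D.π q = D.π l := by
    intro n
    induction n with
    | zero =>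
      intro l' hE hl
      rcases hE with ⟨h, rfl⟩ | ⟨x', z, h⟩
      · left
        rw [← hl, D.π_i]
        exact h.2
      · by_cases hxx : x = x'
        · subst hxx
          exact Or.inr ⟨z, l', h, hl⟩
        · left
          obtain ⟨k, hk⟩ := D.q_sec' _ _ _ h x hxx
          rw [← hx, ← hl, ← D.sec_eq, ← hk, D.π_i]
          exact k.2
    | succ n ih =>
      intro l' hE hl
      refine ih (D.SL.sec l' x) (hE x) ?_
      rw [D.sec_eq, hl, hx]
  exact key n l hn rfl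

end ExtData

end SS

end Vale.Agent.P192
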