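import Vale.Agent.P192.H663.Calc

/-!
# P192: groups of functions with finitely many values
-/

namespace Vale.Agent.P192

universe u w

/-- functions with finitely many values -/
theorem fpb_fv {ι : Type w} {H : Type u} [Group H] (hH : FPB H) (K : Subgroup (ι → H))
    (hK : ∀ g ∈ K, (Set.range g).Finite) : FPB K := by
  apply fpb_of_local
  intro A hA
  have hAf : Finite A := hA
  let F : ι → (A → H) := fun i a => a.1.1 i
  have hF : (Set.range F).Finite := by
    refine (Set.Finite.pi' (t := fun a : A => Set.range a.1.1) (fun a => hK a.1.1 a.1.2)).subset ?_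
    rintro _ ⟨i, rfl⟩ a
    exact ⟨i, rfl⟩
  have hdep : ∀ g ∈ Subgroup.closure A, ∀ i j, F i = F j → g.1 i = g.1 j := by
    intro g hg
    induction hg using Subgroup.closure_induction with
    | mem x hx => exact fun i j hij => congrFun hij ⟨x, hx⟩
    | one => exact fun i j _ => rfl
    | mul x y _ _ hx hy =>
      intro i j hij
      change x.1 i * y.1 i = x.1 j * y.1 j
      rw [hx i j hij, hy i j hij]
    | inv x _ hx =>
      intro i j hij
      change (x.1 i)⁻¹ = (x.1 j)⁻¹
      rw [hx i j hij]
  have : Finite (Set.range F) := hF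
  let c : Set.range F → ι := fun z => z.2.choose
  have hc : ∀ z : Set.range F, F (c z) = z.1 := fun z => z.2.choose_spec
  let r : Subgroup.closure A →* (Set.range F → H) :=
    { toFun := fun g z => g.1.1 (c z)
      map_one' := rfl
      map_mul' := fun _ _ => rfl }
  refine fpb_of_injective r ?_ (fpb_pi (fun _ => hH))
  rw [injective_iff_map_eq_one]
  intro g hg
  apply Subtype.ext
  apply Subtype.ext
  funext i
  have h1 : g.1.1 i = g.1.1 (c ⟨F i, i, rfl⟩) := hdep g.1 g.2 _ _ (hc ⟨F i, i, rfl⟩).symm
  rw [h1]
  exact congrFun hg ⟨F i, i, rfl⟩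

end Vale.Agent.P192
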