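import Vale.Agent.P192.H663.Geo
import Vale.Agent.P192.H260.PartInf

/-!
# P192: contracting groups over arbitrary alphabets
-/

namespace Vale.Agent.P192

open Group Subgroup

namespace SS

section quot

variable {T Y : Type} [Group T] (S : SS T Y)

/-- the quotients by the kernels are in the class, arbitrary alphabets -/
theorem fpb_quot_Kn' (hT : FPB T) (hσ : FPB S.σ.range)
    (hfin : ∀ g, (Set.range (S.sec g)).Finite) (n : ℕ) : FPB (T ⧸ S.Kn n) := by
  induction n with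
  | zero => exact fpb_of_equiv (QuotientGroup.quotientBot (G := T)) hT
  | succ n ih =>
    let σ' : T ⧸ S.Kn (n + 1) →* Equiv.Perm Y :=
      QuotientGroup.lift (S.Kn (n + 1)) S.σ (fun g hg => hg.1)
    refine fpb_cocycle ih σ' (fun x y => S.secq n y x) ?_ ?_ ?_ ?_
    · intro g h y
      obtain ⟨u, hu⟩ := QuotientGroup.mk_surjective g
      obtain ⟨v, hv⟩ := QuotientGroup.mk_surjective h
      rw [← hu, ← hv]
      change (QuotientGroup.mk (S.sec (u * v) y) : T ⧸ S.Kn n) = _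
      rw [S.sec_mul]
      rfl
    · intro g
      obtain ⟨u, hu⟩ := QuotientGroup.mk_surjective g
      rw [← hu]
      refine ((hfin u).image (QuotientGroup.mk : T → T ⧸ S.Kn n)).subset ?_
      rintro _ ⟨y, rfl⟩
      exact ⟨S.sec u y, ⟨y, rfl⟩, rfl⟩
    · intro g h1 h2
      obtain ⟨u, hu⟩ := QuotientGroup.mk_surjective g
      rw [← hu] at h1 h2 ⊢
      refine (QuotientGroup.eq_one_iff _).2 ⟨h1, fun y => ?_⟩
      exact (QuotientGroup.eq_one_iff _).1 (h2 y)
    · refine fpb_mono ?_ hσ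
      rintro _ ⟨g, rfl⟩
      obtain ⟨u, hu⟩ := QuotientGroup.mk_surjective g
      rw [← hu]
      exact ⟨u, rfl⟩

end quot

variable {T Y : Type} [Group T] (S : SS T Y) (N : Set T) (h1 : (1 : T) ∈ N)
  (hN : ∀ a ∈ N, ∀ y, S.sec a y ∈ N)

include h1 hN in
/-- **The partition theorem for contracting groups, arbitrary alphabets.** -/
theorem partitions' (hf : S.Faithful) (hσ : FPB S.σ.range)
    (hsf : ∀ g, (Set.range (S.sec g)).Finite) (hc : ∀ g, ∃ n, S.deep N n g)
    (M : Subgroup T) [M.Normal] (hM : FPB (T ⧸ M)) (R : Set (Setoid T))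
    (hR : R.Finite) (hr : ∀ r ∈ R, Adm N M r)
    (hP : ∀ g : Setoid T → T, FPB (Subgroup.closure {x : T | x ∈ M ∧ ∀ r ∈ R,
      Relation.EqvGen (gstep N r) (g r) (g r * x)})) : FPB T :=
  S.fpb_of_base' N h1 hN hf hσ hsf hc
    (fun Γ _ hΓ ht f => good_partitions N M hM R hR hr hP Γ hΓ ht f)

include h1 hN in
/-- any group over `T` in which the relations of length three hold -/
theorem fpb_of_good' (hf : S.Faithful) (hσ : FPB S.σ.range)
    (hsf : ∀ g, (Set.range (S.sec g)).Finite) (hc : ∀ g, ∃ n, S.deep N n g)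
    (M : Subgroup T) [M.Normal] (hM : FPB (T ⧸ M)) {L : Type} [Group L] (e : N → L)
    (π : L →* T) (hπ : ∀ a, π (e a) = a) (hrel : ∀ a b c : N, (a : T) * b = c → e a * e b = e c)
    (hgood : ∀ (K : Type) [Group K], IsFinitelyPresented K → (∀ x : K, IsOfFinOrder x) →
      ∀ f : K →* L, (∀ γ, π (f γ) ∈ M) → Finite (π.comp f).range) : FPB T := by
  refine S.fpb_of_base' N h1 hN hf hσ hsf hc (fun Γ _ hΓ ht f => ?_)
  let u : LC N →* L := PresentedGroup.toGroup (f := e) (by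
    rintro _ ⟨a, b, c, h, rfl⟩
    rw [map_mul, map_mul, map_inv, FreeGroup.lift_apply_of, FreeGroup.lift_apply_of,
      FreeGroup.lift_apply_of, mul_inv_eq_one]
    exact hrel a b c h)
  have hu : ∀ x, π (u x) = πC N x := by
    refine LC_induction N (P := fun x => π (u x) = πC N x) ?_ ?_ ?_ ?_
    · rw [map_one, map_one, map_one]
    · intro a
      rw [πC_gen]
      exact (congrArg π (PresentedGroup.toGroup.of _)).trans (hπ a)
    · intro x hx
      rw [map_inv, map_inv, hx, map_inv]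
    · intro x z hx hz
      rw [map_mul, map_mul, hx, hz, map_mul]
  let q : Γ →* T ⧸ M := (QuotientGroup.mk' M).comp ((πC N).comp f)
  let K : Subgroup Γ := q.ker
  have hq : Finite q.range := hM Γ hΓ ht q
  have hK : K.FiniteIndex := by
    have : Finite (Γ ⧸ K) := Finite.of_equiv _ (QuotientGroup.quotientKerEquivRange q).toEquiv.symm
    exact Subgroup.finiteIndex_of_finite_quotient
  have hKfp : IsFinitelyPresented K := fp_of_finiteIndex Γ K
  have hKt : ∀ x : K, IsOfFinOrder x := fun x =>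
    (Submonoid.isOfFinOrder_coe (H := K.toSubmonoid) (x := x)).1 (ht x.1)
  have hKM : ∀ γ : K, πC N (f γ) ∈ M := fun γ => (QuotientGroup.eq_one_iff _).1 γ.2
  have hfin := hgood K hKfp hKt (u.comp (f.comp K.subtype)) (fun γ => by
    change π (u (f γ)) ∈ M
    rw [hu]
    exact hKM γ)
  apply finite_range_of ((πC N).comp f) K
  refine (Set.toFinite ((π.comp (u.comp (f.comp K.subtype))).range : Set T)).subset ?_
  rintro _ ⟨γ, hγ, rfl⟩
  exact ⟨⟨γ, hγ⟩, hu _⟩

include h1 hN in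
/-- **Actions on wall spaces, arbitrary alphabets.** -/
theorem walls' (hf : S.Faithful) (hσ : FPB S.σ.range)
    (hsf : ∀ g, (Set.range (S.sec g)).Finite) (hc : ∀ g, ∃ n, S.deep N n g)
    (M : Subgroup T) [M.Normal] (hM : FPB (T ⧸ M)) {L : Type} [Group L] (e : N → L)
    (π : L →* T) (hπ : ∀ a, π (e a) = a) (hrel : ∀ a b c : N, (a : T) * b = c → e a * e b = e c)
    {V : Type} [Nonempty V] [MulAction (M.comap π) V] (W : Set (Set V)) (D : ℕ)
    (hW : ∀ g : M.comap π, ∀ h ∈ W, (fun v => g • v) '' h ∈ W)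
    (hfin : ∀ x y : V, {h | h ∈ W ∧ x ∉ h ∧ y ∈ h}.Finite ∧
      ∀ F : Finset (Set V), (∀ h ∈ F, h ∈ W ∧ x ∉ h ∧ y ∈ h) →
        (∀ h ∈ F, ∀ k ∈ F, h ⊆ k → h = k) → F.card ≤ D)
    (hb : ∀ K : Subgroup (M.comap π), (∃ (x : V) (r : ℕ), ∀ g ∈ K,
      {h | h ∈ W ∧ x ∉ h ∧ g • x ∈ h}.encard ≤ r) →
        FPB (K.map (π.comp (M.comap π).subtype))) : FPB T := by
  refine S.fpb_of_good' N h1 hN hf hσ hsf hc M hM e π hπ hrel ?_
  intro Γ _ hΓ ht f hfM
  obtain ⟨n, φ, hφ, -⟩ := id hΓ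
  have hfg : Group.FG Γ := Group.fg_of_surjective hφ
  let f' : Γ →* M.comap π := f.codRestrict _ hfM
  have hr : Group.FG f'.range := Group.fg_range f'
  have hto : ∀ k : f'.range, IsOfFinOrder k := by
    rintro ⟨_, y, rfl⟩
    have h1 : IsOfFinOrder (f' y) := MonoidHom.isOfFinOrder f' (ht y)
    exact (Submonoid.isOfFinOrder_coe (H := f'.range.toSubmonoid) (x := ⟨f' y, y, rfl⟩)).1 h1
  obtain ⟨r, hx⟩ := walls_bounded (K := f'.range) hto W
    (fun g h hh => hW (g : M.comap π) h hh) (fun x y => (hfin x y).1) D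
    (fun x y => (hfin x y).2) (Classical.arbitrary V)
  have hK := hb f'.range ⟨_, r, fun g hg => hx ⟨g, hg⟩⟩
  have hmem : ∀ γ, (π.comp f) γ ∈ f'.range.map (π.comp (M.comap π).subtype) := fun γ =>
    ⟨f' γ, ⟨γ, rfl⟩, rfl⟩
  have h2 := hK Γ hΓ ht ((π.comp f).codRestrict _ hmem)
  have h3 : (Subtype.val '' (((π.comp f).codRestrict _ hmem).range :
      Set (f'.range.map (π.comp (M.comap π).subtype)))).Finite := (Set.toFinite _).image _
  refine h3.subset ?_
  rintro _ ⟨γ, rfl⟩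
  exact ⟨_, ⟨γ, rfl⟩, rfl⟩

end SS

end Vale.Agent.P192
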