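import Vale.Agent.P192.H260.ColTreeK
import Vale.Agent.P192.H663.Multi

/-!
# P192: the partition theorem for contracting groups
-/

namespace Vale.Agent.P192

open Group Subgroup

namespace SS

variable {T Y : Type} [Group T] (N : Set T)

/-- One step inside a class: multiplication on the left by an element of `N`. -/
def gstep (r : Setoid T) (t t' : T) : Prop := r t t' ∧ ∃ a ∈ N, t' = a * t

/-- Partitions of `T` into unions of left cosets of `M` such that among `t`, `b t` and `a b t`
(`a`, `b` and `a b` in `N`) two are always in the same class. -/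
def Adm (M : Subgroup T) (r : Setoid T) : Prop :=
  (∀ t, ∀ m ∈ M, r t (t * m)) ∧ ∀ a ∈ N, ∀ b ∈ N, a * b ∈ N → ∀ t,
    r t (b * t) ∨ r (b * t) (a * b * t) ∨ r t (a * b * t)

/-- one partition: a subgroup of finite index goes into a loop group -/
theorem mem_part (M : Subgroup T) {K : Type} [Group K] [Group.FG K]
    (hKt : ∀ x : K, IsOfFinOrder x) (f : K →* LC N) (hK : ∀ γ, πC N (f γ) ∈ M)
    (r : Setoid T) (hr : Adm N M r) :
    ∃ E : Subgroup K, E.FiniteIndex ∧ ∃ g : T, ∀ γ ∈ E,
      Relation.EqvGen (gstep N r) g (g * πC N (f γ)) := by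
  let C : LC N → Quotient r := fun x => Quotient.mk r (πC N x)
  have hT : ColTreeK.Tri C := by
    intro a b d hd x
    have e : ∀ g : N, πC N (gen g * x) = (g : T) * πC N x := by
      intro g
      rw [map_mul, πC_gen]
    have h := hr.2 a a.2 b b.2 (by rw [hd]; exact d.2) (πC N x)
    rw [hd, ← e b, ← e d] at h
    rcases h with h | h | h
    · exact Or.inl (Quotient.sound h)
    · exact Or.inr (Or.inl (Quotient.sound h))
    · exact Or.inr (Or.inr (Quotient.sound h))
  obtain ⟨E, hE, x, hx⟩ := ColTreeK.exists_comp C hT hKt f (by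
    intro γ x
    refine Quotient.sound ?_
    rw [map_mul]
    exact r.symm (hr.1 _ _ (hK γ)))
  refine ⟨E, hE, πC N x, fun γ hγ => ?_⟩
  have hmap : ∀ x z : LC N, Relation.EqvGen (ColTreeK.same C) x z →
      Relation.EqvGen (gstep N r) (πC N x) (πC N z) := by
    intro x z h
    induction h with
    | rel x z h =>
      obtain ⟨h2, a, rfl⟩ := h
      refine Relation.EqvGen.rel _ _ ⟨Quotient.exact h2, a, a.2, ?_⟩
      rw [map_mul, πC_gen]
    | refl x => exact Relation.EqvGen.refl _
    | symm x z _ ih => exact ih.symm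
    | trans x z w _ _ ih1 ih2 => exact ih1.trans _ _ _ ih2
  have h := hmap _ _ (hx γ hγ)
  rw [map_mul] at h
  exact h

/-- **Homomorphisms to the group with the relations of length three.** -/
theorem good_partitions (M : Subgroup T) [M.Normal] (hM : FPB (T ⧸ M)) (R : Set (Setoid T))
    (hR : R.Finite) (hr : ∀ r ∈ R, Adm N M r)
    (hP : ∀ g : Setoid T → T, FPB (Subgroup.closure {x : T | x ∈ M ∧ ∀ r ∈ R,
      Relation.EqvGen (gstep N r) (g r) (g r * x)}))
    (Γ : Type) [Group Γ] (hΓ : IsFinitelyPresented Γ) (ht : ∀ x : Γ, IsOfFinOrder x)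
    (f : Γ →* LC N) : Finite ((πC N).comp f).range := by
  let q : Γ →* T ⧸ M := (QuotientGroup.mk' M).comp ((πC N).comp f)
  let K : Subgroup Γ := q.ker
  have hq : Finite q.range := hM Γ hΓ ht q
  have hK : K.FiniteIndex := by
    have : Finite (Γ ⧸ K) := Finite.of_equiv _ (QuotientGroup.quotientKerEquivRange q).toEquiv.symm
    exact Subgroup.finiteIndex_of_finite_quotient
  have hKfp : IsFinitelyPresented K := fp_of_finiteIndex Γ K
  have hKt : ∀ x : K, IsOfFinOrder x := fun x =>
    (Submonoid.isOfFinOrder_coe (H := K.toSubmonoid) (x := x)).1 (ht x.1)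
  have hKfg : Group.FG K := by
    obtain ⟨n, ψ, hψ, -⟩ := id hKfp
    exact Group.fg_of_surjective hψ
  have hKM : ∀ γ : K, πC N (f γ) ∈ M := fun γ => (QuotientGroup.eq_one_iff _).1 γ.2
  have hRf : Finite R := hR
  choose E hE g hg using fun r : R =>
    mem_part N M hKt (f.comp K.subtype) hKM r.1 (hr r.1 r.2)
  classical
  let g' : Setoid T → T := fun r => if h : r ∈ R then g ⟨r, h⟩ else 1
  have hEi : (⨅ r, E r : Subgroup K).FiniteIndex := Subgroup.finiteIndex_iInf hE
  set E' : Subgroup K := ⨅ r, E r with hE'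
  have hmem : ∀ γ : E', πC N (f γ) ∈ Subgroup.closure {x : T | x ∈ M ∧ ∀ r ∈ R,
      Relation.EqvGen (gstep N r) (g' r) (g' r * x)} := by
    intro γ
    apply Subgroup.subset_closure
    refine ⟨hKM γ.1, fun r hrR => ?_⟩
    have h1 : g' r = g ⟨r, hrR⟩ := dif_pos hrR
    rw [h1]
    exact hg ⟨r, hrR⟩ γ.1 (Subgroup.mem_iInf.1 γ.2 _)
  have hfp : IsFinitelyPresented E' := fp_of_finiteIndex K _
  have hEt : ∀ x : E', IsOfFinOrder x := fun x =>
    (Submonoid.isOfFinOrder_coe (H := E'.toSubmonoid) (x := x)).1 (hKt x.1)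
  let s : K →* T := ((πC N).comp f).comp K.subtype
  have hfin := hP g' _ hfp hEt ((s.comp E'.subtype).codRestrict _ hmem)
  have hfin2 : (Subtype.val '' (((s.comp E'.subtype).codRestrict _ hmem).range :
      Set (Subgroup.closure {x : T | x ∈ M ∧ ∀ r ∈ R,
        Relation.EqvGen (gstep N r) (g' r) (g' r * x)}))).Finite := (Set.toFinite _).image _
  have hsE : (s '' (E' : Set K)).Finite := by
    refine hfin2.subset ?_
    rintro _ ⟨γ, hγ, rfl⟩
    exact ⟨_, ⟨⟨γ, hγ⟩, rfl⟩, rfl⟩
  have hsr : Finite s.range := finite_range_of s _ hsE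
  apply finite_range_of ((πC N).comp f) K
  refine (Set.toFinite (s.range : Set T)).subset ?_
  rintro _ ⟨γ, hγ, rfl⟩
  exact ⟨⟨γ, hγ⟩, rfl⟩

variable (S : SS T Y) (h1 : (1 : T) ∈ N) (hN : ∀ a ∈ N, ∀ y, S.sec a y ∈ N)

include h1 hN in
/-- **The partition theorem for contracting groups.** -/
theorem partitions [Finite Y] (hf : S.Faithful) (hc : ∀ g, ∃ n, S.deep N n g)
    (M : Subgroup T) [M.Normal] (hM : FPB (T ⧸ M)) (R : Set (Setoid T))
    (hR : R.Finite) (hr : ∀ r ∈ R, Adm N M r)
    (hP : ∀ g : Setoid T → T, FPB (Subgroup.closure {x : T | x ∈ M ∧ ∀ r ∈ R,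
      Relation.EqvGen (gstep N r) (g r) (g r * x)})) : FPB T :=
  S.fpb_of_base N h1 hN hf hc (fun Γ _ hΓ ht f => good_partitions N M hM R hR hr hP Γ hΓ ht f)

end SS

end Vale.Agent.P192
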