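import Vale.Agent.P192.H124.PMDefs

/-!
# P192: piecewise monotone groups: the images of the pieces
-/

namespace Vale.Agent.P192.PM

variable {K : Type} [LinearOrder K]

theorem strict_of {f : K → K} {C : Set K} (hf : Set.InjOn f C)
    (h : MonotoneOn f C ∨ AntitoneOn f C) : StrictMonoOn f C ∨ StrictAntiOn f C := by
  rcases h with h | h
  · exact Or.inl fun a ha b hb hab => lt_of_le_of_ne (h ha hb hab.le) fun he =>
      hab.ne (hf ha hb he)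
  · exact Or.inr fun a ha b hb hab => lt_of_le_of_ne (h ha hb hab.le) fun he =>
      hab.ne' (hf hb ha he)

/-- convexity of the images is automatic in a group -/
theorem good_of_group (G : Subgroup (Equiv.Perm K))
    (hG : ∀ g ∈ G, ∃ P : Set (Set K), P.Finite ∧ (∀ x, ∃ C ∈ P, x ∈ C) ∧
      ∀ C ∈ P, C.OrdConnected ∧ (MonotoneOn g C ∨ AntitoneOn g C)) :
    ∀ g ∈ G, ∃ P : Set (Set K), P.Finite ∧ (∀ x, ∃ C ∈ P, x ∈ C) ∧ ∀ C ∈ P, Good g C := by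
  intro g hg
  obtain ⟨P, hPf, hPc, hP⟩ := hG g hg
  obtain ⟨Q, hQf, hQc, hQ⟩ := hG g⁻¹ (inv_mem hg)
  refine ⟨Set.image2 (fun C D => C ∩ g ⁻¹' D) P Q, hPf.image2 _ hQf, ?_, ?_⟩
  · intro x
    obtain ⟨C, hC, hx⟩ := hPc x
    obtain ⟨D, hD, hgx⟩ := hQc (g x)
    exact ⟨_, ⟨C, hC, D, hD, rfl⟩, hx, hgx⟩
  · rintro _ ⟨C, hC, D, hD, rfl⟩
    obtain ⟨hC1, hC2⟩ := hP C hC
    obtain ⟨hD1, hD2⟩ := hQ D hD
    have hsub : C ∩ g ⁻¹' D ⊆ C := Set.inter_subset_left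
    refine ⟨⟨?_⟩, ⟨?_⟩, ?_⟩
    · rintro a ⟨ha, ha'⟩ c ⟨hc, hc'⟩ b ⟨h1, h2⟩
      have hb : b ∈ C := hC1.out ha hc ⟨h1, h2⟩
      refine ⟨hb, ?_⟩
      rcases hC2 with h | h
      · exact hD1.out ha' hc' ⟨h ha hb h1, h hb hc h2⟩
      · exact hD1.out hc' ha' ⟨h hb hc h2, h ha hb h1⟩
    · rintro _ ⟨a, ⟨ha, ha'⟩, rfl⟩ _ ⟨c, ⟨hc, hc'⟩, rfl⟩ z ⟨h1, h2⟩
      have hz : z ∈ D := hD1.out ha' hc' ⟨h1, h2⟩
      have e : ∀ x, g⁻¹ (g x) = x := fun x => g.symm_apply_apply x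
      have hzC : g⁻¹ z ∈ C := by
        rcases hD2 with h | h
        · have h3 := h ha' hz h1
          have h4 := h hz hc' h2
          rw [e] at h3 h4
          exact hC1.out ha hc ⟨h3, h4⟩
        · have h3 := h ha' hz h1
          have h4 := h hz hc' h2
          rw [e] at h3 h4
          exact hC1.out hc ha ⟨h4, h3⟩
      refine ⟨g⁻¹ z, ⟨hzC, ?_⟩, g.apply_symm_apply z⟩
      change g (g⁻¹ z) ∈ D
      rw [show g (g⁻¹ z) = z from g.apply_symm_apply z]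
      exact hz
    · have := strict_of (f := g) (C := C ∩ g ⁻¹' D) g.injective.injOn
        (hC2.imp (fun h => h.mono hsub) (fun h => h.mono hsub))
      exact this

end Vale.Agent.P192.PM
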