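import Vale.Agent.P192.H663.ColTree

/-!
# P192: the relative colouring theorem
-/

namespace Vale.Agent.P192

open Group Subgroup

/-- directed colimits, with a hypothesis on the composed homomorphisms -/
theorem fpb_colimit' {I : Type} [Preorder I] [IsDirectedOrder I] [Nonempty I] {Gi : I → Type}
    [∀ i, Group (Gi i)] {G : Type} [Group G] (t : ∀ i j, i ≤ j → Gi i →* Gi j)
    (g : ∀ i, Gi i →* G) (hcomp : ∀ i j k (hij : i ≤ j) (hjk : j ≤ k) x,
      t j k hjk (t i j hij x) = t i k (hij.trans hjk) x)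
    (hg : ∀ i j (hij : i ≤ j) x, g j (t i j hij x) = g i x)
    (hsurj : ∀ y, ∃ i x, g i x = y) (hker : ∀ i x, g i x = 1 → ∃ j, ∃ hij : i ≤ j, t i j hij x = 1)
    (hF : ∀ i (Γ : Type) [Group Γ], IsFinitelyPresented Γ → (∀ x : Γ, IsOfFinOrder x) →
      ∀ ψ : Γ →* Gi i, Finite ((g i).comp ψ).range) : FPB G := by
  intro Γ _ hΓ ht f
  obtain ⟨n, φ, hφ, S, hS, hSk⟩ := id hΓ
  choose i₁ x₁ hx₁ using fun k : Fin n => hsurj (f (φ (FreeGroup.of k)))
  obtain ⟨i, hi⟩ := Finite.exists_le i₁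
  let q : FreeGroup (Fin n) →* Gi i := FreeGroup.lift (fun k => t (i₁ k) i (hi k) (x₁ k))
  have hq : ∀ x, g i (q x) = f (φ x) := by
    intro x
    have : (g i).comp q = f.comp φ := by
      apply FreeGroup.ext_hom
      intro k
      rw [MonoidHom.comp_apply, MonoidHom.comp_apply, FreeGroup.lift_apply_of, hg, hx₁]
    exact DFunLike.congr_fun this x
  have hSfin : Finite S := hS
  have hrel : ∀ s : S, ∃ j, ∃ hij : i ≤ j, t i j hij (q s) = 1 := by
    intro s
    apply hker
    rw [hq]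
    have : (s : FreeGroup (Fin n)) ∈ φ.ker := by
      rw [← hSk]; exact Subgroup.subset_normalClosure s.2
    rw [MonoidHom.mem_ker.1 this, map_one]
  choose j₁ hj₁ hj₁' using hrel
  obtain ⟨j₀, hj₀⟩ := Finite.exists_le j₁
  obtain ⟨j, hij, hj₀j⟩ := exists_ge_ge i j₀
  let q' : FreeGroup (Fin n) →* Gi j := (t i j hij).comp q
  have hq' : φ.ker ≤ q'.ker := by
    rw [← hSk]
    apply Subgroup.normalClosure_le_normal
    intro s hs
    rw [SetLike.mem_coe, MonoidHom.mem_ker]
    change t i j hij (q s) = 1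
    rw [← hcomp i (j₁ ⟨s, hs⟩) j (hj₁ _) ((hj₀ _).trans hj₀j), hj₁' ⟨s, hs⟩, map_one]
  let ψ : Γ →* Gi j := (φ.liftOfRightInverse (Function.surjInv hφ)
    (Function.rightInverse_surjInv hφ)) ⟨q', hq'⟩
  have hψ : ∀ x, ψ (φ x) = q' x := fun x =>
    MonoidHom.liftOfRightInverse_comp_apply φ _ (Function.rightInverse_surjInv hφ) ⟨q', hq'⟩ x
  have hfin : Finite ((g j).comp ψ).range := hF j Γ hΓ ht ψ
  have hsub : (f.range : Set G) ⊆ (((g j).comp ψ).range : Set G) := by
    rintro _ ⟨x, rfl⟩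
    obtain ⟨y, rfl⟩ := hφ x
    refine ⟨φ y, ?_⟩
    rw [MonoidHom.comp_apply, hψ]
    change g j (t i j hij (q y)) = _
    rw [hg, hq]
  exact ((Set.toFinite (((g j).comp ψ).range : Set G))).subset hsub

/-- increasing unions of kernels, with a hypothesis on the composed homomorphisms -/
theorem fpb_iUnion_ker' {L : Type} {G : Type} [Group L] [Group G] (π : L →* G)
    (hπ : Function.Surjective π) (K : ℕ → Subgroup L) [hn : ∀ n, (K n).Normal]
    (hmono : ∀ n, K n ≤ K (n + 1)) (hker : ∀ x, π x = 1 ↔ ∃ n, x ∈ K n)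
    (hle : ∀ n, K n ≤ π.ker)
    (hF : ∀ n (Γ : Type) [Group Γ], IsFinitelyPresented Γ → (∀ x : Γ, IsOfFinOrder x) →
      ∀ ψ : Γ →* L ⧸ K n, Finite ((QuotientGroup.lift (K n) π (hle n)).comp ψ).range) :
    FPB G := by
  have hm : Monotone K := monotone_nat_of_le_succ hmono
  refine fpb_colimit' (I := ℕ) (Gi := fun n => L ⧸ K n)
    (fun i j hij => QuotientGroup.map (K i) (K j) (MonoidHom.id L) (hm hij))
    (fun i => QuotientGroup.lift (K i) π (hle i)) ?_ ?_ ?_ ?_ hF
  · intro i j k hij hjk x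
    induction x using QuotientGroup.induction_on with
    | H z => rfl
  · intro i j hij x
    induction x using QuotientGroup.induction_on with
    | H z => rfl
  · intro y
    obtain ⟨x, rfl⟩ := hπ y
    exact ⟨0, QuotientGroup.mk x, rfl⟩
  · intro i x hx
    induction x using QuotientGroup.induction_on with
    | H z =>
      have hz : π z = 1 := hx
      obtain ⟨n, hn'⟩ := (hker z).1 hz
      refine ⟨max i n, le_max_left _ _, ?_⟩
      exact (QuotientGroup.eq_one_iff z).2 (hm (le_max_right i n) hn')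

/-- finite index subgroups -/
theorem finite_range_of {Γ G : Type} [Group Γ] [Group G] (f : Γ →* G) (K : Subgroup Γ)
    [K.FiniteIndex] (h : (f '' (K : Set Γ)).Finite) : Finite f.range := by
  have hfq : Finite (Γ ⧸ K) := inferInstance
  have h4 : (f.range : Set G) ⊆
      ⋃ c : Γ ⧸ K, (fun y => f (Quotient.out c) * y) '' (f '' (K : Set Γ)) := by
    rintro _ ⟨x, rfl⟩
    rw [Set.mem_iUnion]
    refine ⟨QuotientGroup.mk x, f ((Quotient.out (QuotientGroup.mk x : Γ ⧸ K))⁻¹ * x),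
      ⟨_, ?_, rfl⟩, ?_⟩
    · have : (QuotientGroup.mk (Quotient.out (QuotientGroup.mk x : Γ ⧸ K)) : Γ ⧸ K)
        = QuotientGroup.mk x := Quotient.out_eq _
      exact QuotientGroup.eq.1 this
    · simp
  exact (Set.finite_iUnion (fun c => h.image _)).subset h4

namespace SS

variable {T Y : Type} [Group T] (S : SS T Y)

theorem ext_of_sec (hf : S.Faithful) {g h : T} (hg : S.σ g = 1) (hh : S.σ h = 1)
    (hs : ∀ y, S.sec g y = S.sec h y) : g = h := by
  have h1 : g⁻¹ * h = 1 := by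
    apply hf
    intro v
    cases v with
    | nil =>
      change S.σ (g⁻¹ * h) = 1
      rw [map_mul, map_inv, hg, hh, inv_one, one_mul]
    | cons y v =>
      change S.σ (S.secL (S.sec (g⁻¹ * h) y) v) = 1
      have h2 : S.sec (g⁻¹ * h) y = 1 := by
        rw [S.sec_mul, hh, Equiv.Perm.one_apply, S.sec_inv, map_inv, hg, inv_one,
          Equiv.Perm.one_apply, hs, inv_mul_cancel]
      rw [h2]
      exact S.Kn_secL (n := 0) (one_mem _) v
  exact inv_mul_eq_one.1 h1

/-- finiteness from finiteness of the sections -/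
theorem finite_of_sec [Finite Y] (hf : S.Faithful) {Γ : Type} [Group Γ] (h : Γ →* T)
    (K : Subgroup Γ) [K.FiniteIndex] (hK : ∀ γ ∈ K, S.σ (h γ) = 1)
    (hs : ∀ y, {t | ∃ γ ∈ K, t = S.sec (h γ) y}.Finite) : Finite h.range := by
  apply finite_range_of h K
  have h1 : (Set.pi Set.univ (fun y : Y => {t | ∃ γ ∈ K, t = S.sec (h γ) y})).Finite :=
    Set.Finite.pi' hs |>.subset (fun f hf y => hf y trivial)
  refine Set.Finite.of_finite_image (f := fun t => S.sec t) (h1.subset ?_) ?_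
  · rintro _ ⟨_, ⟨γ, hγ, rfl⟩, rfl⟩ y _
    exact ⟨γ, hγ, rfl⟩
  · rintro _ ⟨γ, hγ, rfl⟩ _ ⟨γ', hγ', rfl⟩ h2
    exact S.ext_of_sec hf (hK γ hγ) (hK γ' hγ') (fun y => congrFun h2 y)

section quot

variable {L : Type} [Group L] (SL : SS L Y) (π : L →* T) (hσ : ∀ x, SL.σ x = S.σ (π x))
  (hsec : ∀ x y, π (SL.sec x y) = S.sec (π x) y)

/-- sections of elements of the quotients -/
def secq (m : ℕ) (y : Y) : L ⧸ SL.Kn (m + 1) → L ⧸ SL.Kn m :=
  Quotient.map' (fun x => SL.sec x y) (by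
    intro a b hab
    rw [QuotientGroup.leftRel_apply] at hab ⊢
    have h1 : SL.sec b y = SL.sec a y * SL.sec (a⁻¹ * b) y := by
      have h2 : b = a * (a⁻¹ * b) := (mul_inv_cancel_left a b).symm
      have h3 := SL.sec_mul a (a⁻¹ * b) y
      rw [← h2] at h3
      rw [h3, hab.1, Equiv.Perm.one_apply]
    rw [h1, inv_mul_cancel_left]
    exact hab.2 y)

include hσ hsec in
/-- from `L` to its quotients -/
theorem quot_finite [Finite Y] (hf : S.Faithful)
    (hle : ∀ n, SL.Kn n ≤ π.ker)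
    (h0 : ∀ (Γ : Type) [Group Γ], IsFinitelyPresented Γ → (∀ x : Γ, IsOfFinOrder x) →
      ∀ ψ : Γ →* L, Finite (π.comp ψ).range) (m : ℕ) :
    ∀ (Γ : Type) [Group Γ], IsFinitelyPresented Γ → (∀ x : Γ, IsOfFinOrder x) →
      ∀ ψ : Γ →* L ⧸ SL.Kn m, Finite ((QuotientGroup.lift (SL.Kn m) π (hle m)).comp ψ).range := by
  induction m with
  | zero =>
    intro Γ _ hΓ ht ψ
    have h1 := h0 Γ hΓ ht ((QuotientGroup.quotientBot (G := L)).toMonoidHom.comp ψ)
    have h2 : (QuotientGroup.lift (SL.Kn 0) π (hle 0)).comp ψ =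
        π.comp ((QuotientGroup.quotientBot (G := L)).toMonoidHom.comp ψ) := by
      ext γ
      change QuotientGroup.lift (SL.Kn 0) π (hle 0) (ψ γ) =
        π (QuotientGroup.quotientBot (G := L) (ψ γ))
      obtain ⟨x, hx⟩ := QuotientGroup.mk_surjective (ψ γ)
      rw [← hx]
      rfl
    rw [h2]
    exact h1
  | succ m ih =>
    intro Γ _ hΓ ht ψ
    set p := QuotientGroup.lift (SL.Kn (m + 1)) π (hle (m + 1)) with hp
    set p' := QuotientGroup.lift (SL.Kn m) π (hle m) with hp'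
    let K : Subgroup Γ := (S.σ.comp (p.comp ψ)).ker
    have hK : K.FiniteIndex := by
      have : Finite (Γ ⧸ K) := Finite.of_equiv _
        (QuotientGroup.quotientKerEquivRange (S.σ.comp (p.comp ψ))).toEquiv.symm
      exact Subgroup.finiteIndex_of_finite_quotient
    have hKfp : IsFinitelyPresented K := fp_of_finiteIndex Γ K
    have hKt : ∀ x : K, IsOfFinOrder x := fun x =>
      (Submonoid.isOfFinOrder_coe (H := K.toSubmonoid) (x := x)).1 (ht x.1)
    have hKσ : ∀ γ ∈ K, S.σ (p (ψ γ)) = 1 := fun γ hγ => hγ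
    have hpσ : ∀ x : L, p (QuotientGroup.mk x) = π x := fun _ => rfl
    refine S.finite_of_sec hf (p.comp ψ) K hKσ (fun y => ?_)
    let s : K →* L ⧸ SL.Kn m :=
      { toFun := fun γ => SL.secq m y (ψ γ)
        map_one' := by
          change SL.secq m y (ψ 1) = 1
          rw [map_one]
          change (QuotientGroup.mk (SL.sec 1 y) : L ⧸ SL.Kn m) = 1
          rw [SL.sec_one]
          rfl
        map_mul' := by
          intro a b
          change SL.secq m y (ψ (a.1 * b.1)) = _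
          rw [map_mul]
          obtain ⟨u, hu⟩ := QuotientGroup.mk_surjective (ψ a.1)
          obtain ⟨v, hv⟩ := QuotientGroup.mk_surjective (ψ b.1)
          have h1 : SL.σ v = 1 := by
            have := hKσ b.1 b.2
            rw [← hv, hpσ] at this
            rw [hσ]
            exact this
          rw [← hu, ← hv]
          change (QuotientGroup.mk (SL.sec (u * v) y) : L ⧸ SL.Kn m) =
            QuotientGroup.mk (SL.sec u y) * QuotientGroup.mk (SL.sec v y)
          rw [SL.sec_mul, h1]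
          rfl }
    have h1 := ih K hKfp hKt s
    refine (Set.toFinite ((p'.comp s).range : Set T)).subset ?_
    rintro _ ⟨γ, hγ, rfl⟩
    refine ⟨⟨γ, hγ⟩, ?_⟩
    change p' (SL.secq m y (ψ γ)) = S.sec (p (ψ γ)) y
    obtain ⟨u, hu⟩ := QuotientGroup.mk_surjective (ψ γ)
    rw [← hu]
    exact hsec u y

end quot

/-! ### the theorem -/

/-- one step of a chain of one colour, with the section carried along -/
def cstep (N : Set T) (U : Set Y) (p q : Y × T) : Prop :=
  (p.1 ∈ U ↔ q.1 ∈ U) ∧ ∃ a ∈ N, q = (S.σ a p.1, S.sec a p.1 * p.2)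

theorem cstep_mul (N : Set T) (U : Set Y) (r : T) {p q : Y × T}
    (h : Relation.EqvGen (S.cstep N U) p q) :
    Relation.EqvGen (S.cstep N U) (p.1, p.2 * r) (q.1, q.2 * r) := by
  induction h with
  | rel x y h =>
    obtain ⟨h1, a, ha, rfl⟩ := h
    exact Relation.EqvGen.rel _ _ ⟨h1, a, ha, by simp [mul_assoc]⟩
  | refl x => exact Relation.EqvGen.refl _
  | symm x y _ ih => exact ih.symm
  | trans x y z _ _ ih1 ih2 => exact ih1.trans _ _ _ ih2

variable (N : Set T) (h1 : (1 : T) ∈ N) (hN : ∀ a ∈ N, ∀ y, S.sec a y ∈ N)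

theorem base_finite [Finite Y] (hf : S.Faithful) (U : Set Y)
    (hP : ∀ y : Y, FPB (Subgroup.closure {x : T | Relation.EqvGen (S.cstep N U) (y, 1) (y, x)}))
    (Γ : Type) [Group Γ] (hΓ : IsFinitelyPresented Γ) (ht : ∀ x : Γ, IsOfFinOrder x)
    (f : Γ →* LC N) : Finite ((πC N).comp f).range := by
  let K : Subgroup Γ := (S.σ.comp ((πC N).comp f)).ker
  have hK : K.FiniteIndex := by
    have : Finite (Γ ⧸ K) := Finite.of_equiv _
      (QuotientGroup.quotientKerEquivRange (S.σ.comp ((πC N).comp f))).toEquiv.symm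
    exact Subgroup.finiteIndex_of_finite_quotient
  have hKfp : IsFinitelyPresented K := fp_of_finiteIndex Γ K
  have hKt : ∀ x : K, IsOfFinOrder x := fun x =>
    (Submonoid.isOfFinOrder_coe (H := K.toSubmonoid) (x := x)).1 (ht x.1)
  have hKσ : ∀ γ ∈ K, S.σ (πC N (f γ)) = 1 := fun γ hγ => hγ
  have hKfg : Group.FG K := by
    obtain ⟨n, ψ, hψ, -⟩ := id hKfp
    exact Group.fg_of_surjective hψ
  refine S.finite_of_sec hf ((πC N).comp f) K hKσ (fun y0 => ?_)
  let C : LC N → Prop := fun x => S.σ (πC N x) y0 ∈ U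
  obtain ⟨x, hx⟩ := ColTree.exists_comp C hKt (f.comp K.subtype) (by
    intro γ x
    change S.σ (πC N (x * f γ)) y0 ∈ U ↔ S.σ (πC N x) y0 ∈ U
    rw [map_mul, map_mul, hKσ γ.1 γ.2, mul_one])
  set u := S.σ (πC N x) y0 with hu
  set t := S.sec (πC N x) y0 with htt
  -- the sections
  let s : K →* T :=
    { toFun := fun γ => S.sec (πC N (f γ)) y0
      map_one' := by
        change S.sec (πC N (f 1)) y0 = 1
        rw [map_one, map_one, S.sec_one]
      map_mul' := by
        intro a b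
        change S.sec (πC N (f (a.1 * b.1))) y0 = _
        rw [map_mul, map_mul, S.sec_mul, hKσ b.1 b.2]
        rfl }
  have hmap : ∀ x z : LC N, Relation.EqvGen (ColTree.same C) x z →
      Relation.EqvGen (S.cstep N U) (S.σ (πC N x) y0, S.sec (πC N x) y0)
        (S.σ (πC N z) y0, S.sec (πC N z) y0) := by
    intro x z h
    induction h with
    | rel x z h =>
      obtain ⟨h2, a, rfl⟩ := h
      refine Relation.EqvGen.rel _ _ ⟨h2, a, a.2, ?_⟩
      rw [map_mul, πC_gen, map_mul, S.sec_mul]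
      rfl
    | refl x => exact Relation.EqvGen.refl _
    | symm x z _ ih => exact ih.symm
    | trans x z w _ _ ih1 ih2 => exact ih1.trans _ _ _ ih2
  have hmem : ∀ γ : K, t * s γ * t⁻¹ ∈ Subgroup.closure
      {x : T | Relation.EqvGen (S.cstep N U) (u, 1) (u, x)} := by
    intro γ
    apply Subgroup.subset_closure
    have h2 := hmap _ _ (hx γ)
    have h3 : S.σ (πC N (x * (f.comp K.subtype) γ)) y0 = u := by
      change S.σ (πC N (x * f γ)) y0 = u
      rw [map_mul, map_mul, hKσ γ.1 γ.2, mul_one]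
    have h4 : S.sec (πC N (x * (f.comp K.subtype) γ)) y0 = t * s γ := by
      change S.sec (πC N (x * f γ)) y0 = t * S.sec (πC N (f γ)) y0
      rw [map_mul, S.sec_mul, hKσ γ.1 γ.2]
      rfl
    rw [h3, h4] at h2
    have h5 := S.cstep_mul N U t⁻¹ h2
    change Relation.EqvGen (S.cstep N U) (u, t * t⁻¹) (u, t * s γ * t⁻¹) at h5
    rw [mul_inv_cancel] at h5
    exact h5
  have hfin := hP u K hKfp hKt (((MulAut.conj t).toMonoidHom.comp s).codRestrict _ hmem)
  have hfin2 : ((fun z : Subgroup.closure {x : T | Relation.EqvGen (S.cstep N U) (u, 1) (u, x)} =>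
      t⁻¹ * z.1 * t) '' ((((MulAut.conj t).toMonoidHom.comp s).codRestrict _ hmem).range :
        Set _)).Finite := (Set.toFinite _).image _
  refine hfin2.subset ?_
  rintro _ ⟨γ, hγ, rfl⟩
  refine ⟨_, ⟨⟨γ, hγ⟩, rfl⟩, ?_⟩
  change t⁻¹ * (t * S.sec (πC N (f γ)) y0 * t⁻¹) * t = S.sec (πC N (f γ)) y0
  group

include h1 hN in
/-- **The relative colouring theorem.** -/
theorem relColour [Finite Y] (hf : S.Faithful) (hc : ∀ g, ∃ n, S.deep N n g) (U : Set Y)
    (hP : ∀ y : Y, FPB (Subgroup.closure {x : T | Relation.EqvGen (S.cstep N U) (y, 1) (y, x)})) :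
    FPB T := by
  have hσ : ∀ x, (S.SC N hN).σ x = S.σ (πC N x) := S.SC_σ N hN
  have hker : ∀ x, πC N x = 1 ↔ ∃ n, x ∈ (S.SC N hN).Kn n := by
    intro x
    constructor
    · intro hx
      obtain ⟨n, hn⟩ := S.EC_all N h1 hN hc x
      exact ⟨n, S.EC_Kn N h1 hN n x hn hx⟩
    · rintro ⟨n, hn⟩
      exact S.πC_of_mem_Kn N hN hf n x hn
  have hle : ∀ n, (S.SC N hN).Kn n ≤ (πC N).ker := fun n x hx => (hker x).2 ⟨n, hx⟩
  have hker' : ∀ x, (πC N).rangeRestrict x = 1 ↔ πC N x = 1 := fun x =>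
    ⟨fun h => congrArg Subtype.val h, fun h => Subtype.ext h⟩
  have hR : FPB (πC N).range := by
    refine fpb_iUnion_ker' (πC N).rangeRestrict (πC N).rangeRestrict_surjective (S.SC N hN).Kn
      (S.SC N hN).Kn_le_succ (fun x => (hker' x).trans (hker x))
      (fun n x hx => (hker' x).2 (hle n hx)) ?_
    intro n Γ _ hΓ ht ψ
    have h2 := S.quot_finite (S.SC N hN) (πC N) hσ (S.SC_sec N hN) hf hle
      (fun Γ _ hΓ ht ψ => S.base_finite N hf U hP Γ hΓ ht ψ) n Γ hΓ ht ψ
    have h3 : ((((QuotientGroup.lift ((S.SC N hN).Kn n) (πC N) (hle n)).comp ψ).range :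
      Subgroup T) : Set T).Finite := Set.toFinite _
    have h4 : (Subtype.val '' ((((QuotientGroup.lift ((S.SC N hN).Kn n) (πC N).rangeRestrict
        (fun x hx => (hker' x).2 (hle n hx))).comp ψ).range :
          Subgroup (πC N).range) : Set (πC N).range)).Finite := by
      refine h3.subset ?_
      rintro _ ⟨_, ⟨γ, rfl⟩, rfl⟩
      refine ⟨γ, ?_⟩
      change QuotientGroup.lift ((S.SC N hN).Kn n) (πC N) (hle n) (ψ γ) =
        ((QuotientGroup.lift ((S.SC N hN).Kn n) (πC N).rangeRestrict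
          (fun x hx => (hker' x).2 (hle n hx)) (ψ γ) : (πC N).range) : T)
      obtain ⟨u, hu⟩ := QuotientGroup.mk_surjective (ψ γ)
      rw [← hu]
      rfl
    exact (h4.of_finite_image Subtype.val_injective.injOn).to_subtype
  have hcl : ∀ h ∈ (πC N).range, ∀ y, S.sec h y ∈ (πC N).range := by
    rintro _ ⟨g, rfl⟩ y
    rw [← S.SC_sec N hN]
    exact ⟨_, rfl⟩
  have hNr : N ⊆ (πC N).range := fun a ha => ⟨gen ⟨a, ha⟩, πC_gen N _⟩
  apply fpb_of_local
  intro A hA
  have hAf : Finite A := hA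
  choose n hn using hc
  obtain ⟨m, hm⟩ := Finite.exists_le (fun a : A => n a)
  refine fpb_mono ?_ (S.fpb_upn hf (πC N).range hR m)
  rw [Subgroup.closure_le]
  intro a ha
  exact S.upn_mono hcl (hm ⟨a, ha⟩) (S.mem_upn N _ hNr _ _ (hn a))

end SS

end Vale.Agent.P192
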