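import Vale.Agent.P192.H663.Calc

/-!
# P192: self-similar groups, the extension lemma
-/

namespace Vale.Agent.P192

universe u v w

/-- The wreath product `L wr Perm Y`, with sections indexed by the input letter. -/
structure Wr (L : Type u) (Y : Type v) where
  /-- the permutation -/
  p : Equiv.Perm Y
  /-- the sections -/
  f : Y → L

namespace Wr

variable {L : Type u} {Y : Type v} [Group L]

omit [Group L] in
@[ext] theorem ext' {a b : Wr L Y} (h : a.p = b.p) (h' : ∀ y, a.f y = b.f y) : a = b := by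
  cases a; cases b
  simp only [Wr.mk.injEq] at *
  exact ⟨h, funext h'⟩

instance : Mul (Wr L Y) := ⟨fun a b => ⟨a.p * b.p, fun y => a.f (b.p y) * b.f y⟩⟩
instance : One (Wr L Y) := ⟨⟨1, fun _ => 1⟩⟩
instance : Inv (Wr L Y) := ⟨fun a => ⟨a.p⁻¹, fun y => (a.f (a.p⁻¹ y))⁻¹⟩⟩

@[simp] theorem mul_p (a b : Wr L Y) : (a * b).p = a.p * b.p := rfl
@[simp] theorem mul_f (a b : Wr L Y) (y : Y) : (a * b).f y = a.f (b.p y) * b.f y := rfl
@[simp] theorem one_p : (1 : Wr L Y).p = 1 := rfl
@[simp] theorem one_f (y : Y) : (1 : Wr L Y).f y = 1 := rfl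
@[simp] theorem inv_p (a : Wr L Y) : (a⁻¹).p = a.p⁻¹ := rfl
@[simp] theorem inv_f (a : Wr L Y) (y : Y) : (a⁻¹).f y = (a.f (a.p⁻¹ y))⁻¹ := rfl

instance : Group (Wr L Y) :=
  Group.ofLeftAxioms
    (fun a b c => by
      ext y
      · rfl
      · simp [mul_assoc])
    (fun a => by
      ext y
      · rfl
      · simp)
    (fun a => by
      ext y
      · simp
      · simp)

end Wr

namespace SS

variable {T : Type u} {Y : Type v} [Group T] (S : SS T Y)

theorem sec_one (y : Y) : S.sec 1 y = 1 := by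
  have h := S.sec_mul 1 1 y
  rw [one_mul, map_one, Equiv.Perm.one_apply] at h
  exact (mul_eq_left.1 h.symm)

theorem sec_inv (g : T) (y : Y) : S.sec g⁻¹ y = (S.sec g (S.σ g⁻¹ y))⁻¹ := by
  have h := S.sec_mul g g⁻¹ y
  rw [mul_inv_cancel, S.sec_one] at h
  exact (inv_eq_of_mul_eq_one_right h.symm).symm

theorem σ_inv_apply (g : T) {x z : Y} (h : S.σ g x = z) : S.σ g⁻¹ z = x := by
  rw [map_inv, Equiv.Perm.inv_eq_iff_eq, h]

theorem sec_inv' (g : T) {x z : Y} (h : S.σ g x = z) : S.sec g⁻¹ z = (S.sec g x)⁻¹ := by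
  rw [S.sec_inv, S.σ_inv_apply g h]

/-- the group structure coming from a wreath recursion -/
def ofHom {L : Type w} [Group L] (Φ : L →* Wr L Y) : SS L Y where
  σ :=
    { toFun := fun g => (Φ g).p
      map_one' := by rw [map_one]; rfl
      map_mul' := fun a b => by rw [map_mul]; rfl }
  sec := fun g y => (Φ g).f y
  sec_mul := fun g h y => by rw [map_mul]; rfl

/-- iterated section at a constant word -/
def it (x : Y) : ℕ → T → T
  | 0, g => g
  | n + 1, g => it x n (S.sec g x)

/-- the kernels of the iterated wreath recursions -/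
def Kn : ℕ → Subgroup T
  | 0 => ⊥
  | n + 1 =>
    { carrier := {g | S.σ g = 1 ∧ ∀ y, S.sec g y ∈ Kn n}
      one_mem' := ⟨map_one _, fun y => by rw [S.sec_one]; exact one_mem _⟩
      mul_mem' := by
        intro a b ha hb
        refine ⟨by rw [map_mul, ha.1, hb.1, one_mul], fun y => ?_⟩
        rw [S.sec_mul]
        exact mul_mem (ha.2 _) (hb.2 _)
      inv_mem' := by
        intro a ha
        refine ⟨by rw [map_inv, ha.1, inv_one], fun y => ?_⟩
        rw [S.sec_inv]
        exact inv_mem (ha.2 _) }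

theorem mem_Kn_zero {g : T} : g ∈ S.Kn 0 ↔ g = 1 := Subgroup.mem_bot

theorem mem_Kn_succ {n : ℕ} {g : T} :
    g ∈ S.Kn (n + 1) ↔ S.σ g = 1 ∧ ∀ y, S.sec g y ∈ S.Kn n := Iff.rfl

instance Kn_normal (n : ℕ) : (S.Kn n).Normal := by
  induction n with
  | zero => exact (inferInstance : (⊥ : Subgroup T).Normal)
  | succ n ih =>
    refine ⟨fun g hg x => ?_⟩
    rw [mem_Kn_succ] at hg ⊢
    refine ⟨by rw [map_mul, map_mul, hg.1, mul_one, ← map_mul, mul_inv_cancel, map_one],
      fun y => ?_⟩
    rw [S.sec_mul, S.sec_mul]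
    have h2 : S.sec x (S.σ g (S.σ x⁻¹ y)) = (S.sec x⁻¹ y)⁻¹ := by
      rw [hg.1, Equiv.Perm.one_apply, S.sec_inv x y, inv_inv]
    rw [h2]
    have := ih.conj_mem _ (hg.2 (S.σ x⁻¹ y)) (S.sec x⁻¹ y)⁻¹
    rwa [inv_inv] at this

theorem Kn_le_succ (n : ℕ) : S.Kn n ≤ S.Kn (n + 1) := by
  induction n with
  | zero =>
    intro g hg
    rw [mem_Kn_zero] at hg
    subst hg
    exact one_mem _
  | succ n ih =>
    intro g hg
    exact ⟨hg.1, fun y => ih (hg.2 y)⟩

theorem Kn_secL {n : ℕ} {g : T} (hg : g ∈ S.Kn n) (v : List Y) : S.σ (S.secL g v) = 1 := by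
  induction v generalizing g n with
  | nil =>
    cases n with
    | zero => rw [(S.mem_Kn_zero).1 hg]; exact map_one _
    | succ n => exact hg.1
  | cons y v ih =>
    cases n with
    | zero =>
      rw [(S.mem_Kn_zero).1 hg]
      change S.σ (S.secL (S.sec 1 y) v) = 1
      rw [S.sec_one]
      exact ih (n := 0) ((S.mem_Kn_zero).2 rfl)
    | succ n => exact ih (hg.2 y)

/-- the quotients by the kernels are in the class -/
theorem fpb_quot_Kn [Finite Y] (hT : FPB T) (n : ℕ) : FPB (T ⧸ S.Kn n) := by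
  induction n with
  | zero => exact fpb_of_equiv (QuotientGroup.quotientBot (G := T)) hT
  | succ n ih =>
    let σ' : T ⧸ S.Kn (n + 1) →* Equiv.Perm Y :=
      QuotientGroup.lift (S.Kn (n + 1)) S.σ (fun g hg => hg.1)
    refine fpb_ext σ' (fpb_of_finite _) ?_
    -- the sections on the kernel
    let K : Subgroup T := S.σ.ker
    let sc : K →* (Y → T ⧸ S.Kn n) :=
      { toFun := fun g y => QuotientGroup.mk (S.sec g.1 y)
        map_one' := by
          funext y
          change (QuotientGroup.mk (S.sec 1 y) : T ⧸ S.Kn n) = 1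
          rw [S.sec_one]; rfl
        map_mul' := fun a b => by
          funext y
          change (QuotientGroup.mk (S.sec (a.1 * b.1) y) : T ⧸ S.Kn n) = _
          have hb : S.σ b.1 = 1 := b.2
          rw [S.sec_mul, hb]; rfl }
    -- `σ'.ker` is the quotient of `K`
    have key : ∀ g : T, (QuotientGroup.mk g : T ⧸ S.Kn (n + 1)) ∈ σ'.ker ↔ g ∈ K := by
      intro g; rfl
    let ψ : K →* σ'.ker := ((QuotientGroup.mk' (S.Kn (n + 1))).comp K.subtype).codRestrict σ'.ker
      (fun g => (key g.1).2 g.2)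
    have hψ : Function.Surjective ψ := by
      rintro ⟨q, hq⟩
      induction q using QuotientGroup.induction_on with
      | H z => exact ⟨⟨z, (key z).1 hq⟩, rfl⟩
    have hker : ψ.ker = sc.ker := by
      ext g
      rw [MonoidHom.mem_ker, MonoidHom.mem_ker]
      constructor
      · intro h
        have h1 : (QuotientGroup.mk g.1 : T ⧸ S.Kn (n + 1)) = 1 := congrArg Subtype.val h
        rw [QuotientGroup.eq_one_iff] at h1
        funext y
        exact (QuotientGroup.eq_one_iff _).2 (h1.2 y)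
      · intro h
        apply Subtype.ext
        change (QuotientGroup.mk g.1 : T ⧸ S.Kn (n + 1)) = 1
        rw [QuotientGroup.eq_one_iff]
        exact ⟨g.2, fun y => (QuotientGroup.eq_one_iff _).1 (congrFun h y)⟩
    let ρ : σ'.ker →* (Y → T ⧸ S.Kn n) :=
      (ψ.liftOfRightInverse (Function.surjInv hψ) (Function.rightInverse_surjInv hψ))
        ⟨sc, hker.le⟩
    have hρ : ∀ g, ρ (ψ g) = sc g := fun g =>
      MonoidHom.liftOfRightInverse_comp_apply ψ _ (Function.rightInverse_surjInv hψ) ⟨sc, hker.le⟩ g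
    refine fpb_of_injective ρ ?_ (fpb_pi (fun _ => ih))
    rw [injective_iff_map_eq_one]
    intro a ha
    obtain ⟨g, rfl⟩ := hψ a
    rw [hρ] at ha
    have : g ∈ ψ.ker := by rw [hker]; exact ha
    exact this

/-- a subgroup closed under sections, stable and in the class -/
structure Good (H : Subgroup T) : Prop where
  closed : ∀ h ∈ H, ∀ y, S.sec h y ∈ H
  stable : ∀ h ∈ H, ∀ x, ∃ n, S.sec (S.it x n h) x = S.it x n h
  fpb : FPB H

end SS

end Vale.Agent.P192
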