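import Vale.Agent.P192.H663.Ext

/-!
# P192: nonrecurrent states and recurrent states fixing their letter
-/

namespace Vale.Agent.P192

universe u v w

namespace Amalg

variable {D : Type u} {H : Type v} {V : Type w} [Group D] [Group H] [Group V]
  (i : D →* H) (j : D →* V)

/-- first inclusion -/
def inl : H →* Amalg i j := (QuotientGroup.mk' _).comp Monoid.Coprod.inl

/-- second inclusion -/
def inr : V →* Amalg i j := (QuotientGroup.mk' _).comp Monoid.Coprod.inr

theorem glue (d : D) : inl i j (i d) = inr i j (j d) := by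
  have h : (QuotientGroup.mk' (Subgroup.normalClosure
      {x | ∃ d : D, x = Monoid.Coprod.inl (i d) * (Monoid.Coprod.inr (j d))⁻¹}))
      (Monoid.Coprod.inl (i d) * (Monoid.Coprod.inr (j d))⁻¹) = 1 :=
    (QuotientGroup.eq_one_iff _).2 (Subgroup.subset_normalClosure ⟨d, rfl⟩)
  rw [map_mul, map_inv, mul_inv_eq_one] at h
  exact h

/-- universal property -/
def lift {M : Type*} [Group M] (f : H →* M) (g : V →* M) (h : ∀ d, f (i d) = g (j d)) :
    Amalg i j →* M :=
  QuotientGroup.lift _ (Monoid.Coprod.lift f g) (by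
    intro x hx
    have : Subgroup.normalClosure
        {x | ∃ d : D, x = Monoid.Coprod.inl (i d) * (Monoid.Coprod.inr (j d))⁻¹} ≤
        (Monoid.Coprod.lift f g).ker := by
      apply Subgroup.normalClosure_le_normal
      rintro _ ⟨d, rfl⟩
      rw [SetLike.mem_coe, MonoidHom.mem_ker, map_mul, map_inv, Monoid.Coprod.lift_apply_inl,
        Monoid.Coprod.lift_apply_inr, h, mul_inv_cancel]
    exact this hx)

@[simp] theorem lift_inl {M : Type*} [Group M] (f : H →* M) (g : V →* M)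
    (h : ∀ d, f (i d) = g (j d)) (x : H) : lift i j f g h (inl i j x) = f x :=
  Monoid.Coprod.lift_apply_inl f g x

@[simp] theorem lift_inr {M : Type*} [Group M] (f : H →* M) (g : V →* M)
    (h : ∀ d, f (i d) = g (j d)) (x : V) : lift i j f g h (inr i j x) = g x :=
  Monoid.Coprod.lift_apply_inr f g x

theorem induction {P : Amalg i j → Prop} (hl : ∀ x, P (inl i j x)) (hr : ∀ x, P (inr i j x))
    (hm : ∀ a b, P a → P b → P (a * b)) (g : Amalg i j) : P g := by
  induction g using QuotientGroup.induction_on with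
  | H z =>
    induction z using Monoid.Coprod.induction_on with
    | inl m => exact hl m
    | inr n => exact hr n
    | mul x y hx hy => exact hm _ _ hx hy

end Amalg

namespace SS

variable {T : Type u} {Y : Type v} [Group T] (S : SS T Y)

/-! ### nonrecurrent states -/

/-- the elements all of whose sections are in `H` -/
def up (H : Subgroup T) : Subgroup T where
  carrier := {g | ∀ y, S.sec g y ∈ H}
  one_mem' := fun y => by rw [S.sec_one]; exact one_mem _
  mul_mem' := fun {a b} ha hb y => by rw [S.sec_mul]; exact mul_mem (ha _) (hb _)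
  inv_mem' := fun {a} ha y => by rw [S.sec_inv]; exact inv_mem (ha _)

/-- a homomorphism kernel argument: a subgroup whose elements are determined by the
permutation of the letters and the sections at the letters of a set `Z`, these being in `H` -/
theorem fpb_of_sections [Finite Y] (H K : Subgroup T) (hH : FPB H) (Z : Set Y)
    (h1 : ∀ g ∈ K, ∀ y ∈ Z, S.sec g y ∈ H)
    (h2 : ∀ g ∈ K, S.σ g = 1 → (∀ y ∈ Z, S.sec g y = 1) → g = 1) : FPB K := by
  refine fpb_ext (S.σ.comp K.subtype) (fpb_of_finite _) ?_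
  let sc : (S.σ.comp K.subtype).ker →* (Z → H) :=
    { toFun := fun g y => ⟨S.sec g.1.1 y, h1 _ g.1.2 _ y.2⟩
      map_one' := by
        funext y
        exact Subtype.ext (S.sec_one _)
      map_mul' := fun a b => by
        funext y
        apply Subtype.ext
        change S.sec (a.1.1 * b.1.1) y = S.sec a.1.1 y * S.sec b.1.1 y
        have hb : S.σ b.1.1 = 1 := b.2
        rw [S.sec_mul, hb]; rfl }
  refine fpb_of_injective sc ?_ (fpb_pi (fun _ => hH))
  rw [injective_iff_map_eq_one]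
  rintro ⟨⟨g, hg⟩, hg'⟩ h
  apply Subtype.ext
  apply Subtype.ext
  exact h2 g hg hg' (fun y hy => congrArg Subtype.val (congrFun h ⟨y, hy⟩))

theorem le_up {H : Subgroup T} (hc : ∀ h ∈ H, ∀ y, S.sec h y ∈ H) : H ≤ S.up H :=
  fun h hh y => hc h hh y

theorem good_up [Finite Y] (hf : S.Faithful) {H : Subgroup T} (hH : S.Good H) :
    S.Good (S.up H) where
  closed := fun h hh y => S.le_up hH.closed (hh y)
  stable := by
    intro h hh x
    obtain ⟨n, hn⟩ := hH.stable _ (hh x) x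
    exact ⟨n + 1, hn⟩
  fpb := by
    refine S.fpb_of_sections H _ hH.fpb Set.univ (fun g hg y _ => hg y) ?_
    intro g _ h0 h
    apply hf
    intro v
    cases v with
    | nil => exact h0
    | cons y v =>
      change S.σ (S.secL (S.sec g y) v) = 1
      rw [h y trivial]
      exact S.Kn_secL (n := 0) (one_mem _) v

/-! ### the vertex group at a letter -/

/-- the elements fixing the letter `y`, recurrent at `y`, with all other sections in `H` -/
def vg (H : Subgroup T) (y : Y) : Subgroup T where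
  carrier := {g | S.σ g y = y ∧ S.sec g y = g ∧ ∀ y', y' ≠ y → S.sec g y' ∈ H}
  one_mem' := ⟨by rw [map_one]; rfl, S.sec_one _, fun y' _ => by rw [S.sec_one]; exact one_mem _⟩
  mul_mem' := by
    intro a b ha hb
    refine ⟨?_, ?_, fun y' hy' => ?_⟩
    · rw [map_mul, Equiv.Perm.mul_apply, hb.1, ha.1]
    · rw [S.sec_mul, hb.1, ha.2.1, hb.2.1]
    · rw [S.sec_mul]
      refine mul_mem (ha.2.2 _ ?_) (hb.2.2 _ hy')
      intro h
      exact hy' ((S.σ b).injective (h.trans hb.1.symm))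
  inv_mem' := by
    intro a ha
    refine ⟨S.σ_inv_apply a ha.1, ?_, fun y' hy' => ?_⟩
    · rw [S.sec_inv' a ha.1, ha.2.1]
    · rw [S.sec_inv]
      refine inv_mem (ha.2.2 _ ?_)
      intro h
      have h2 : S.σ a⁻¹ y' = S.σ a⁻¹ y := by rw [h, S.σ_inv_apply a ha.1]
      exact hy' ((S.σ a⁻¹).injective h2)

theorem fpb_vg [Finite Y] (hf : S.Faithful) {H : Subgroup T} (hH : FPB H) (y : Y) :
    FPB (S.vg H y) := by
  refine S.fpb_of_sections H _ hH {y' | y' ≠ y} (fun g hg y' hy' => hg.2.2 y' hy') ?_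
  intro g hg h0 h
  apply hf
  have key : ∀ v : List Y, S.σ (S.secL g v) = 1 := by
    intro v
    induction v with
    | nil => exact h0
    | cons y' v ih =>
      change S.σ (S.secL (S.sec g y') v) = 1
      by_cases hy : y' = y
      · rw [hy, hg.2.1]; exact ih
      · rw [h y' hy]
        exact S.Kn_secL (n := 0) (one_mem _) v
  exact key

/-! ### the amalgam -/

section A

variable (H : Subgroup T) (hc : ∀ h ∈ H, ∀ y, S.sec h y ∈ H) (y : Y)

/-- the amalgam of `H` and `vg H y` over their intersection -/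
abbrev LA : Type u :=
  Amalg (Subgroup.inclusion (inf_le_left : H ⊓ S.vg H y ≤ H))
    (Subgroup.inclusion (inf_le_right : H ⊓ S.vg H y ≤ S.vg H y))

/-- first inclusion -/
abbrev al : H →* S.LA H y := Amalg.inl _ _

/-- second inclusion -/
abbrev ar : S.vg H y →* S.LA H y := Amalg.inr _ _

theorem al_eq_ar (g : T) (h1 : g ∈ H) (h2 : g ∈ S.vg H y) :
    S.al H y ⟨g, h1⟩ = S.ar H y ⟨g, h2⟩ :=
  Amalg.glue (Subgroup.inclusion (inf_le_left : H ⊓ S.vg H y ≤ H))
    (Subgroup.inclusion (inf_le_right : H ⊓ S.vg H y ≤ S.vg H y)) ⟨g, h1, h2⟩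

/-- the wreath recursion on `H` -/
def recH : H →* Wr (S.LA H y) Y where
  toFun := fun h => ⟨S.σ h, fun y' => S.al H y ⟨S.sec h y', hc h h.2 y'⟩⟩
  map_one' := by
    ext y'
    · simp
    · change S.al H y ⟨S.sec 1 y', _⟩ = 1
      rw [← map_one (S.al H y)]
      congr 1
      exact Subtype.ext (S.sec_one _)
  map_mul' := fun a b => by
    ext y'
    · simp
    · change S.al H y ⟨S.sec (a.1 * b.1) y', _⟩ = S.al H y _ * S.al H y _
      rw [← map_mul (S.al H y)]
      congr 1
      exact Subtype.ext (S.sec_mul _ _ _)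

open Classical in
/-- the wreath recursion on `vg H y` -/
noncomputable def recV : S.vg H y →* Wr (S.LA H y) Y where
  toFun := fun c => ⟨S.σ c, fun y' =>
    if h : y' = y then S.ar H y c else S.al H y ⟨S.sec c y', c.2.2.2 y' h⟩⟩
  map_one' := by
    ext y'
    · simp
    · by_cases h : y' = y
      · simp [h]
      · simp only [dif_neg h, Wr.one_f]
        rw [← map_one (S.al H y)]
        congr 1
        exact Subtype.ext (S.sec_one _)
  map_mul' := fun a b => by
    ext y'
    · simp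
    · by_cases h : y' = y
      · have h2 : S.σ b.1 y' = y := by rw [h]; exact b.2.1
        simp only [Wr.mul_f, dif_pos h, dif_pos h2, map_mul]
      · have h2 : ¬ S.σ b.1 y' = y := by
          intro h3
          exact h ((S.σ b.1).injective (h3.trans b.2.1.symm))
        simp only [Wr.mul_f, dif_neg h, dif_neg h2]
        rw [← map_mul (S.al H y)]
        congr 1
        exact Subtype.ext (S.sec_mul _ _ _)

/-- the wreath recursion on the amalgam -/
noncomputable def ΦA : S.LA H y →* Wr (S.LA H y) Y :=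
  Amalg.lift _ _ (S.recH H hc y) (S.recV H y) (by
    rintro ⟨d, hd1, hd2⟩
    ext y'
    · rfl
    · by_cases h : y' = y
      · simp only [recH, recV, MonoidHom.coe_mk, OneHom.coe_mk, dif_pos h]
        have : (⟨S.sec d y', hc d hd1 y'⟩ : H) = ⟨d, hd1⟩ := by
          apply Subtype.ext
          rw [h]; exact hd2.2.1
        exact (congrArg (S.al H y) this).trans (S.al_eq_ar H y d hd1 hd2)
      · simp only [recH, recV, MonoidHom.coe_mk, OneHom.coe_mk, dif_neg h]
        rfl)

/-- the projection of the amalgam -/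
def πA : S.LA H y →* T := Amalg.lift _ _ H.subtype (S.vg H y).subtype (fun _ => rfl)

@[simp] theorem πA_al (h : H) : S.πA H y (S.al H y h) = h := Amalg.lift_inl _ _ _ _ _ _
@[simp] theorem πA_ar (h : S.vg H y) : S.πA H y (S.ar H y h) = h := Amalg.lift_inr _ _ _ _ _ _

/-- the self-similar structure on the amalgam -/
noncomputable def SA : SS (S.LA H y) Y := SS.ofHom (S.ΦA H hc y)

theorem SA_sec_al (h : H) (y' : Y) :
    (S.SA H hc y).sec (S.al H y h) y' = S.al H y ⟨S.sec h y', hc h h.2 y'⟩ := by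
  change ((S.ΦA H hc y) (S.al H y h)).f y' = _
  rw [ΦA, Amalg.lift_inl]; rfl

theorem SA_sec_ar (c : S.vg H y) : (S.SA H hc y).sec (S.ar H y c) y = S.ar H y c := by
  change ((S.ΦA H hc y) (S.ar H y c)).f y = _
  rw [ΦA, Amalg.lift_inr]
  simp [recV]

theorem SA_sec_ar' (c : S.vg H y) (y' : Y) (h : y' ≠ y) :
    (S.SA H hc y).sec (S.ar H y c) y' = S.al H y ⟨S.sec c y', c.2.2.2 y' h⟩ := by
  change ((S.ΦA H hc y) (S.ar H y c)).f y' = _
  rw [ΦA, Amalg.lift_inr]
  simp [recV, h]

theorem SA_σ (g : S.LA H y) : (S.SA H hc y).σ g = S.σ (S.πA H y g) := by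
  refine Amalg.induction _ _ (P := fun g => (S.SA H hc y).σ g = S.σ (S.πA H y g)) ?_ ?_ ?_ g
  · intro x
    change ((S.ΦA H hc y) (S.al H y x)).p = S.σ (S.πA H y (S.al H y x))
    rw [S.πA_al, ΦA, Amalg.lift_inl]; rfl
  · intro x
    change ((S.ΦA H hc y) (S.ar H y x)).p = S.σ (S.πA H y (S.ar H y x))
    rw [S.πA_ar, ΦA, Amalg.lift_inr]; rfl
  · intro a b ha hb
    rw [map_mul, ha, hb, map_mul, map_mul]

theorem SA_sec (g : S.LA H y) (y' : Y) :
    S.πA H y ((S.SA H hc y).sec g y') = S.sec (S.πA H y g) y' := by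
  refine Amalg.induction _ _
    (P := fun g => ∀ y', S.πA H y ((S.SA H hc y).sec g y') = S.sec (S.πA H y g) y') ?_ ?_ ?_ g y'
  · intro x y'
    erw [S.SA_sec_al H hc y x y', πA_al, πA_al]
  · intro x y'
    by_cases h : y' = y
    · subst h
      erw [S.SA_sec_ar H hc y' x, πA_ar]
      exact x.2.2.1.symm
    · erw [S.SA_sec_ar' H hc y x y' h, πA_al, πA_ar]
  · intro a b ha hb y'
    rw [(S.SA H hc y).sec_mul, map_mul, ha, hb, map_mul, S.sec_mul, S.SA_σ H hc y]

/-- the stable elements of the amalgam -/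
def QA (x z : Y) : Set (S.LA H y) :=
  {g | ∃ a b : H, ∃ c : S.vg H y, S.σ b.1 x = y ∧ S.sec b.1 x = b.1 ∧ S.σ a.1 y = z ∧
    S.sec a.1 y = a.1 ∧ g = S.al H y a * S.ar H y c * S.al H y b}

theorem sec_of_stable (h : H) {x : Y} (hs : S.sec h.1 x = h.1) :
    (S.SA H hc y).sec (S.al H y h) x = S.al H y h := by
  rw [S.SA_sec_al H hc y]
  congr 1
  exact Subtype.ext hs

/-- Data for step A. -/
noncomputable def dataA : ExtData S H (S.LA H y) where
  SL := S.SA H hc y
  π := S.πA H y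
  i := S.al H y
  π_i := S.πA_al H y
  σ_eq := S.SA_σ H hc y
  sec_eq := S.SA_sec H hc y
  closed := hc
  i_sec := S.SA_sec_al H hc y
  Q := S.QA H y
  q_out := by
    rintro x z _ ⟨a, b, c, hb1, hb2, ha1, ha2, rfl⟩
    have h0 : S.πA H y (S.al H y a * S.ar H y c * S.al H y b) = a.1 * c.1 * b.1 := by
      rw [map_mul, map_mul, S.πA_al, S.πA_al, S.πA_ar]
    rw [h0, map_mul, map_mul, Equiv.Perm.mul_apply, Equiv.Perm.mul_apply, hb1, c.2.1, ha1]
  q_sec := by
    rintro x z _ ⟨a, b, c, hb1, hb2, ha1, ha2, rfl⟩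
    rw [(S.SA H hc y).sec_mul, (S.SA H hc y).sec_mul, S.SA_σ H hc y, S.SA_σ H hc y, S.πA_al,
      S.πA_ar, hb1, c.2.1, S.sec_of_stable H hc y a ha2, S.sec_of_stable H hc y b hb2,
      S.SA_sec_ar H hc y]
  q_sec' := by
    rintro x z _ ⟨a, b, c, hb1, hb2, ha1, ha2, rfl⟩ x' hx'
    have h1 : S.σ b.1 x' ≠ y := fun h => hx' ((S.σ b.1).injective (h.trans hb1.symm))
    rw [(S.SA H hc y).sec_mul, (S.SA H hc y).sec_mul, S.SA_σ H hc y, S.SA_σ H hc y, S.πA_al,
      S.πA_ar, S.SA_sec_al H hc y, S.SA_sec_al H hc y, S.SA_sec_ar' H hc y c _ h1]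
    exact mul_mem (mul_mem ⟨_, rfl⟩ ⟨_, rfl⟩) ⟨_, rfl⟩
  q_left := by
    rintro x z w _ h ⟨a, b, c, hb1, hb2, ha1, ha2, rfl⟩ hh1 hh2
    refine ⟨h * a, b, c, hb1, hb2, ?_, ?_, ?_⟩
    · rw [Subgroup.coe_mul, map_mul, Equiv.Perm.mul_apply, ha1, hh1]
    · rw [Subgroup.coe_mul, S.sec_mul, ha1, hh2, ha2]
    · rw [map_mul]; group
  q_right := by
    rintro w x z _ h ⟨a, b, c, hb1, hb2, ha1, ha2, rfl⟩ hh1 hh2
    refine ⟨a, b * h, c, ?_, ?_, ha1, ha2, ?_⟩
    · rw [Subgroup.coe_mul, map_mul, Equiv.Perm.mul_apply, hh1, hb1]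
    · rw [Subgroup.coe_mul, S.sec_mul, hh1, hh2, hb2]
    · rw [map_mul]; group
  q_mul := by
    rintro x z w _ _ ⟨a, b, c, hb1, hb2, ha1, ha2, rfl⟩ ⟨a', b', c', hb1', hb2', ha1', ha2', rfl⟩
    left
    have hd1 : S.σ (b'.1 * a.1) y = y := by
      rw [map_mul, Equiv.Perm.mul_apply, ha1, hb1']
    have hd2 : S.sec (b'.1 * a.1) y = b'.1 * a.1 := by rw [S.sec_mul, ha1, hb2', ha2]
    have hdV : b'.1 * a.1 ∈ S.vg H y :=
      ⟨hd1, hd2, fun y' _ => hc _ (mul_mem b'.2 a.2) y'⟩
    have hd : S.al H y (b' * a) = S.ar H y ⟨b'.1 * a.1, hdV⟩ :=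
      S.al_eq_ar H y _ (mul_mem b'.2 a.2) hdV
    refine ⟨a', b, c' * ⟨b'.1 * a.1, hdV⟩ * c, hb1, hb2, ha1', ha2', ?_⟩
    rw [map_mul, map_mul, ← hd, map_mul]
    group
  q_inv := by
    rintro x z _ ⟨a, b, c, hb1, hb2, ha1, ha2, rfl⟩
    refine ⟨b⁻¹, a⁻¹, c⁻¹, ?_, ?_, ?_, ?_, ?_⟩
    · exact S.σ_inv_apply a.1 ha1
    · rw [Subgroup.coe_inv, S.sec_inv' a.1 ha1, ha2]
    · exact S.σ_inv_apply b.1 hb1
    · rw [Subgroup.coe_inv, S.sec_inv' b.1 hb1, hb2]
    · rw [map_inv, map_inv, map_inv]; group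
  q_mem := by
    rintro x z _ ⟨a, b, c, hb1, hb2, ha1, ha2, rfl⟩ hπ
    rw [map_mul, map_mul, S.πA_al, S.πA_al, S.πA_ar] at hπ
    have hcH : c.1 ∈ H := by
      have := mul_mem (mul_mem (inv_mem a.2) hπ) (inv_mem b.2)
      have h2 : a.1⁻¹ * (a.1 * c.1 * b.1) * b.1⁻¹ = c.1 := by group
      rwa [h2] at this
    refine ⟨a * ⟨c.1, hcH⟩ * b, ?_⟩
    rw [map_mul, map_mul, S.al_eq_ar H y c.1 hcH c.2]
  gen := by
    rw [eq_top_iff]
    intro g _
    refine Amalg.induction _ _ (P := fun g => g ∈ Subgroup.closure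
      {g : S.LA H y | g ∈ (S.al H y).range ∨ ∃ x z, g ∈ S.QA H y x z}) ?_ ?_ ?_ g
    · intro x
      exact Subgroup.subset_closure (Or.inl ⟨x, rfl⟩)
    · intro c
      refine Subgroup.subset_closure (Or.inr ⟨y, y, 1, 1, c, ?_, ?_, ?_, ?_, ?_⟩)
      · rw [Subgroup.coe_one, map_one]; rfl
      · exact S.sec_one _
      · rw [Subgroup.coe_one, map_one]; rfl
      · exact S.sec_one _
      · rw [map_one, one_mul, mul_one]
    · intro a b ha hb
      exact mul_mem ha hb

end A

/-- the amalgam theorem, proved in the files of helper260 -/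
def AmalgThm : Prop := ∀ (D H V : Type u) [Group D] [Group H] [Group V] (i : D →* H) (j : D →* V),
  Function.Injective i → Function.Injective j → FPB H → FPB V → FPB (Amalg i j)

/-- **Step A.** -/
theorem stepA [Finite Y] (hAm : AmalgThm.{u}) (hf : S.Faithful) {H : Subgroup T} (hH : S.Good H)
    (y : Y) : S.Good (S.πA H y).range :=
  (S.dataA H hH.closed y).good_range hf hH
    (hAm _ _ _ _ _ (Subgroup.inclusion_injective _) (Subgroup.inclusion_injective _) hH.fpb
      (S.fpb_vg hf hH.fpb y))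

theorem le_stepA (H : Subgroup T) (y : Y) : H ≤ (S.πA H y).range :=
  fun h hh => ⟨S.al H y ⟨h, hh⟩, S.πA_al H y _⟩

theorem vg_le_stepA (H : Subgroup T) (y : Y) : S.vg H y ≤ (S.πA H y).range :=
  fun h hh => ⟨S.ar H y ⟨h, hh⟩, S.πA_ar H y _⟩

/-- stable elements of the group of step A -/
theorem stepA_stable [Finite Y] {H : Subgroup T} (hH : S.Good H) (y : Y) {x : Y} {g : T}
    (hg : g ∈ (S.πA H y).range) (hx : S.sec g x = g) :
    g ∈ H ∨ ((∃ b ∈ H, S.σ b x = y ∧ S.sec b x = b) ∧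
      ∃ a ∈ H, S.σ a y = S.σ g x ∧ S.sec a y = a) := by
  rcases (S.dataA H hH.closed y).stable_mem hH.stable hg hx with h | ⟨z, q, hq, hqg⟩
  · exact Or.inl h
  · right
    have hz : S.σ g x = z := by
      rw [← hqg]
      exact (S.dataA H hH.closed y).q_out _ _ _ hq
    obtain ⟨a, b, c, hb1, hb2, ha1, ha2, rfl⟩ := hq
    exact ⟨⟨b, b.2, hb1, hb2⟩, ⟨a, a.2, by rw [ha1, hz], ha2⟩⟩

end SS

end Vale.Agent.P192
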